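import Vale.Agent.P032.S5.H80.Anti
import Vale.Agent.P032.S5.H767.Raw
import Vale.Agent.P032.S5.H824.Two

/-!
# P032: the exact arcs of a two-pair point are isolated in the border of their two colours

`z` a two-pair point with the pairs `{a, b}`, `{c, d}`.  `EV T z a b` : the points of `S(z)` with the
colours `a` and `b`; near `S(z)` there are no other points with these two colours (`EV_near`), so a
connected set of points with the colours `a, b` which meets `S(z)` is in `S(z)` (`EV_conn`).
`XA T z a b` : the points of `S(z)` with the palette `{a, b}`.  If no point with three colours is a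
limit of such points (`Pf`), every such point is in an open arc of such points of length at most
one (60 degrees) whose ends have at least four colours (`exists_arc`).
-/

open Set Filter Topology Metric

noncomputable section

namespace Vale.Agent.P032.H383

open Vale.Agent.P032.Six Vale.Agent.P032.S5.H767

variable {U : Fin 6 → Set ℂ} {T : ℂ → Set (Fin 6)} {z x : ℂ} {a b c d : Fin 6}

/-- the points of `S(z)` with the colours `a`, `b` -/
def EV (T : ℂ → Set (Fin 6)) (z : ℂ) (a b : Fin 6) : Set ℂ := {x | dist x z = 1 ∧ a ∈ T x ∧ b ∈ T x}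

/-- the exact points of `S(z)` -/
def XA (T : ℂ → Set (Fin 6)) (z : ℂ) (a b : Fin 6) : Set ℂ := {x | dist x z = 1 ∧ T x = {a, b}}

/-- no point with three colours is a limit of exact points -/
def Pf (T : ℂ → Set (Fin 6)) (z : ℂ) (a b : Fin 6) : Prop :=
  ∀ x, dist x z = 1 → (T x).ncard = 3 → x ∉ closure (XA T z a b)

theorem XA_sub : XA T z a b ⊆ EV T z a b := fun x hx => ⟨hx.1, by rw [hx.2]; simp, by rw [hx.2]; simp⟩

theorem EV_closed (h : Irr U T) : IsClosed (EV T z a b) := by
  have e : EV T z a b = sphere z 1 ∩ ({x | a ∈ T x} ∩ {x | b ∈ T x}) := by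
    ext x
    simp only [EV, mem_ofPred_eq, mem_inter_iff, mem_sphere]
  rw [e]
  exact isClosed_sphere.inter ((h.closed a).inter (h.closed b))

/-- **near `S(z)` the points with the colours `a, b` are on `S(z)`** -/
theorem EV_near (h : Irr U T) (hz : DPt T z a b c d) (hx : dist x z = 1) :
    ∀ᶠ y in 𝓝 x, a ∈ T y → b ∈ T y → y ∈ EV T z a b := by
  rcases h.sides hz hx with hs | hs
  · filter_upwards [hs] with y hy ha hb
    refine ⟨?_, ha, hb⟩
    by_contra hne
    rcases lt_or_gt_of_ne hne with h1 | h1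
    · exact hy.2 h1 (h.sub y hb)
    · exact hy.1 h1 (h.sub y ha)
  · filter_upwards [hs] with y hy ha hb
    refine ⟨?_, ha, hb⟩
    by_contra hne
    rcases lt_or_gt_of_ne hne with h1 | h1
    · exact hy.2 h1 (h.sub y ha)
    · exact hy.1 h1 (h.sub y hb)

/-- a connected set of points with the colours `a, b` which meets `S(z)` is in `S(z)` -/
theorem EV_conn (h : Irr U T) (hz : DPt T z a b c d) {C : Set ℂ} (hC : IsPreconnected C)
    (hCa : ∀ y ∈ C, a ∈ T y) (hCb : ∀ y ∈ C, b ∈ T y) (hx : x ∈ C) (hxz : dist x z = 1) :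
    C ⊆ EV T z a b := by
  classical
  intro y hy
  refine ⟨?_, hCa y hy, hCb y hy⟩
  have hf : ContinuousOn (fun q : ℂ => decide (dist q z = 1)) C := by
    intro q hq
    refine ContinuousWithinAt.congr_of_eventuallyEq (f := fun _ => decide (dist q z = 1))
      continuousWithinAt_const ?_ rfl
    by_cases h1 : dist q z = 1
    · filter_upwards [mem_nhdsWithin_of_mem_nhds (EV_near h hz h1), self_mem_nhdsWithin]
        with w hw hwC
      have h2 := (hw (hCa w hwC) (hCb w hwC)).1
      rw [decide_eq_true h1, decide_eq_true h2]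
    · have h2 : ∀ᶠ w in 𝓝 q, dist w z ≠ 1 :=
        (isOpen_ne_fun (continuous_id.dist continuous_const) continuous_const).mem_nhds h1
      filter_upwards [mem_nhdsWithin_of_mem_nhds h2] with w hw
      rw [decide_eq_false h1, decide_eq_false hw]
  have h3 := hC.constant hf hx hy
  simp only [decide_eq_decide] at h3
  exact h3.1 hxz

/-- no single colour of the pair on `S(z)` -/
theorem ne_single (h : Irr U T) (ha : a ∈ T z) (hx : dist x z = 1) : T x ≠ {a} := by
  intro hcon
  exact h.mx.notMem' (h.mem_of_single (by rw [hcon])) hx (h.sub z ha)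

/-- exactness is an open condition on `S(z)` -/
theorem XA_open (h : Irr U T) (hz : DPt T z a b c d) (hx : x ∈ XA T z a b) :
    ∀ᶠ y in 𝓝 x, dist y z = 1 → y ∈ XA T z a b := by
  filter_upwards [h.nhd x] with y hy hd
  refine ⟨hd, ?_⟩
  rw [hx.2] at hy
  have ha : a ∈ T z := by rw [hz.pal]; simp
  have hb : b ∈ T z := by rw [hz.pal]; simp
  have h1 := ne_single h ha hd
  have h2 := ne_single h hb hd
  obtain ⟨i, hi⟩ := h.ne y
  by_cases h3 : a ∈ T y
  · by_cases h4 : b ∈ T y
    · exact Subset.antisymm hy (by rintro j (rfl | rfl) <;> assumption)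
    · exfalso
      refine h1 (Subset.antisymm (fun j hj => ?_) (by rintro j rfl; exact h3))
      rcases hy hj with h5 | h5
      · exact h5
      · rw [mem_singleton_iff] at h5
        exact absurd (h5 ▸ hj) h4
  · exfalso
    refine h2 (Subset.antisymm (fun j hj => ?_) ?_)
    · rcases hy hj with h5 | h5
      · exact absurd (h5 ▸ hj) h3
      · exact h5
    · rintro j rfl
      rcases hy hi with h5 | h5
      · exact absurd (h5 ▸ hi) h3
      · rw [mem_singleton_iff] at h5
        exact h5 ▸ hi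

/-- a limit of exact points is exact or has at least four colours -/
theorem closure_cases (h : Irr U T) (hz : DPt T z a b c d) (hp : Pf T z a b)
    (hx : x ∈ closure (XA T z a b)) : x ∈ EV T z a b ∧ (x ∈ XA T z a b ∨ 4 ≤ (T x).ncard) := by
  have hE : x ∈ EV T z a b := closure_minimal XA_sub (EV_closed h) hx
  refine ⟨hE, ?_⟩
  by_contra hcon
  push Not at hcon
  have h2 : ({a, b} : Set (Fin 6)) ⊆ T x := by
    rintro j (rfl | rfl)
    exacts [hE.2.1, hE.2.2]
  have h3 : ({a, b} : Set (Fin 6)).ncard = 2 := Set.ncard_pair hz.ab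
  have h4 : 2 < (T x).ncard := by
    by_contra h5
    push Not at h5
    exact hcon.1 ⟨hE.1, (Set.eq_of_subset_of_ncard_le h2 (by rw [h3]; exact h5)
      (Set.toFinite _)).symm⟩
  exact hp x hE.1 (by omega) hx

/-- **pinched points**: near a point with three colours among them `a`, `b` on `S(z)` the points with
the colours `a`, `b` have its palette -/
theorem pin_near (h : Irr U T) (hz : DPt T z a b c d) (hp : Pf T z a b) (hx : x ∈ EV T z a b)
    (h3 : (T x).ncard = 3) :
    ∀ᶠ y in 𝓝 x, a ∈ T y → b ∈ T y → y ∈ EV T z a b ∧ T y = T x := by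
  have h1 : ∀ᶠ y in 𝓝 x, y ∉ closure (XA T z a b) :=
    isClosed_closure.isOpen_compl.mem_nhds (hp x hx.1 h3)
  filter_upwards [EV_near h hz hx.1, h.nhd x, h1] with y h2 h4 h5 ha hb
  have hE := h2 ha hb
  refine ⟨hE, Set.eq_of_subset_of_ncard_le h4 ?_ (Set.toFinite _)⟩
  rw [h3]
  by_contra hcon
  push Not at hcon
  refine h5 (subset_closure ⟨hE.1, ?_⟩)
  symm
  refine Set.eq_of_subset_of_ncard_le ?_ ?_ (Set.toFinite _)
  · rintro j (rfl | rfl)
    exacts [hE.2.1, hE.2.2]
  · rw [Set.ncard_pair hz.ab]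
    omega

/-- exact points of one circle are not at distance one -/
theorem XA_dist (h : Irr U T) {y : ℂ} (hab : a ≠ b) (hx : T x = {a, b}) (hy : T y = {a, b})
    (hd : dist x y = 1) : False := by
  refine h.not_sub hd (x := y) (by rw [hy, Set.ncard_pair hab]; norm_num) ?_
  rw [hx, hy]

/-- **the maximal arc** -/
theorem exists_arc (h : Irr U T) (hz : DPt T z a b c d) (hp : Pf T z a b) {u : ℝ}
    (hu : T (pt z u) = {a, b}) : ∃ s t : ℝ, s < u ∧ u < t ∧ t ≤ s + 1 ∧
      (∀ w ∈ Ioo s t, T (pt z w) = {a, b}) ∧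
      (4 ≤ (T (pt z s)).ncard ∧ a ∈ T (pt z s) ∧ b ∈ T (pt z s)) ∧
      (4 ≤ (T (pt z t)).ncard ∧ a ∈ T (pt z t) ∧ b ∈ T (pt z t)) := by
  obtain ⟨W, hW⟩ : ∃ W : Set ℝ, W = {w | T (pt z w) = {a, b}} := ⟨_, rfl⟩
  have hWo : IsOpen W := by
    rw [hW, isOpen_iff_mem_nhds]
    intro w hw
    have hw : T (pt z w) = {a, b} := hw
    have h1 := XA_open h hz (x := pt z w) ⟨dist_pt z w, hw⟩
    filter_upwards [(continuous_pt z).continuousAt.eventually h1] with v hv
    exact (hv (dist_pt z v)).2
  have huW : u ∈ W := by rw [hW]; exact hu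
  have hstep : ∀ w, w ∈ W → w + 1 ∉ W := by
    intro w hw hw'
    rw [hW] at hw hw'
    exact XA_dist h hz.ab hw hw' (dist_pt_one z w)
  -- the right end
  obtain ⟨t, ht⟩ : ∃ t, IsLeast {w | u ≤ w ∧ w ∉ W} t := by
    have hc : IsClosed {w | u ≤ w ∧ w ∉ W} :=
      (isClosed_Ici (a := u)).inter hWo.isClosed_compl
    exact ⟨_, hc.isLeast_csInf ⟨u + 1, by simp, hstep u huW⟩ ⟨u, fun w hw => hw.1⟩⟩
  obtain ⟨s, hs⟩ : ∃ s, IsGreatest {w | w ≤ u ∧ w ∉ W} s := by
    have hc : IsClosed {w | w ≤ u ∧ w ∉ W} :=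
      (isClosed_Iic (a := u)).inter hWo.isClosed_compl
    refine ⟨_, hc.isGreatest_csSup ⟨u - 1, by simp, fun hcon => ?_⟩ ⟨u, fun w hw => hw.1⟩⟩
    exact hstep (u - 1) hcon (by rwa [sub_add_cancel])
  have hut : u < t := lt_of_le_of_ne ht.1.1 fun hcon => ht.1.2 (hcon ▸ huW)
  have hsu : s < u := lt_of_le_of_ne hs.1.1 fun hcon => hs.1.2 (hcon ▸ huW)
  have hIoo : ∀ w ∈ Ioo s t, w ∈ W := by
    intro w hw
    by_contra hcon
    rcases le_total u w with h1 | h1
    · exact absurd (ht.2 ⟨h1, hcon⟩) (not_le.2 hw.2)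
    · exact absurd (hs.2 ⟨h1, hcon⟩) (not_le.2 hw.1)
  have hlen : t ≤ s + 1 := by
    by_contra hcon
    push Not at hcon
    obtain ⟨w, hw1, hw2⟩ := exists_between (show s < t - 1 by linarith)
    exact hstep w (hIoo w ⟨hw1, by linarith⟩) (hIoo (w + 1) ⟨by linarith, by linarith⟩)
  have hend : ∀ w, w ∉ W → w ∈ closure (Ioo s t) →
      4 ≤ (T (pt z w)).ncard ∧ a ∈ T (pt z w) ∧ b ∈ T (pt z w) := by
    intro w hw hwc
    have h1 : pt z w ∈ closure (XA T z a b) := by
      have h2 : pt z w ∈ closure (pt z '' Ioo s t) :=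
        image_closure_subset_closure_image (continuous_pt z) (mem_image_of_mem _ hwc)
      refine closure_mono ?_ h2
      rintro _ ⟨v, hv, rfl⟩
      refine ⟨dist_pt z v, ?_⟩
      have := hIoo v hv
      rwa [hW] at this
    obtain ⟨hE, hX | h4⟩ := closure_cases h hz hp h1
    · exfalso
      apply hw
      rw [hW]
      exact hX.2
    · exact ⟨h4, hE.2.1, hE.2.2⟩
  have hst : s < t := hsu.trans hut
  refine ⟨s, t, hsu, hut, hlen, fun w hw => ?_, hend s hs.1.2 ?_, hend t ht.1.2 ?_⟩
  · have := hIoo w hw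
    rwa [hW] at this
  · rw [closure_Ioo hst.ne]; exact left_mem_Icc.2 hst.le
  · rw [closure_Ioo hst.ne]; exact right_mem_Icc.2 hst.le

/-- **an end of an arc**: at a two-pair point `w` with the colour `a` in one of its pairs no unit
circle through `w` carries `a` on both sides -/
theorem one_side (h : Irr U T) {w : ℂ} {g p q : Fin 6} (hw : DPt T w a g p q) (hz : dist w z = 1)
    (hc : ∀ᶠ y in 𝓝[sphere z 1] w, a ∈ T y) : False := by
  obtain ⟨y, hy⟩ := hw.arc1
  obtain ⟨y', hy', hne, hne2⟩ := hy.exists_off_line (y := z)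
  have hT : a ∈ T y' := by rw [hy'.mem]; simp
  have hd : dist w y' = 1 := by rw [dist_comm]; exact hy'.1
  rcases h.mx.partner_line (u := z) (p := w) (t := a) hz (hc.mono fun q hq => h.sub q hq) hd
    (h.sub y' hT) with h1 | h1
  · exact hne h1
  · exact hne2 h1

end Vale.Agent.P032.H383
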