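import Vale.Agent.P032.H383.Sign2
import Vale.Agent.P032.H961.QF

/-!
# P032: the pairs at the two ends of an exact arc (the fields `lk1`, `lk2` of the quasi-full points)

`V` a two-pair point with the pairs `{a, b}`, `{m, n}`, an exact `ab`-arc of `S(V)` of at most 60 degrees
with two-pair ends `z1`, `z2` at which `a`, `b` are in different pairs: `{a, a1}`, `{b, b1}` at `z1`,
`{a, a2}`, `{b, b2}` at `z2`; `a` inside, `b` outside.  Then `m` can only be `a1` at `z1` and `b2` at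
`z2`, and `n` only `b1` and `a2`, or the same with `m`, `n` exchanged (`lk_ends`).

* `vertex_rays` : the rays of the end `z` against `V`.
* `vertex_sides` : the sides of the colours of `z` near `V`.
-/

open Set Filter Topology Metric

noncomputable section

namespace Vale.Agent.P032.H383

open Vale.Agent.P032.Six Vale.Agent.P032.S5.H767 Vale.Agent.P032.H961

variable {U : Fin 6 → Set ℂ} {T : ℂ → Set (Fin 6)}

theorem dtp_neg' (d w : ℂ) : dtp (-d) w = -dtp d w := by
  unfold dtp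
  simp only [Complex.neg_re, Complex.neg_im]
  ring

theorem Rays.rya {z : ℂ} {a a' b b' : Fin 6} {da db : ℂ} {σ : ℝ}
    (R : Rays T z a a' b b' da db σ) : Ray T z a da := ⟨R.na, R.ra⟩

theorem Rays.rya' {z : ℂ} {a a' b b' : Fin 6} {da db : ℂ} {σ : ℝ}
    (R : Rays T z a a' b b' da db σ) : Ray T z a' (-da) := ⟨by rw [norm_neg]; exact R.na, R.ra'⟩

theorem Rays.ryb {z : ℂ} {a a' b b' : Fin 6} {da db : ℂ} {σ : ℝ}
    (R : Rays T z a a' b b' da db σ) : Ray T z b db := ⟨R.nb, R.rb⟩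

theorem Rays.ryb' {z : ℂ} {a a' b b' : Fin 6} {da db : ℂ} {σ : ℝ}
    (R : Rays T z a a' b b' da db σ) : Ray T z b' (-db) := ⟨by rw [norm_neg]; exact R.nb, R.rb'⟩

/-- every colour of a two-pair point has a ray -/
theorem exists_ray383 (h : Irr U T) {z : ℂ} {a b c d i : Fin 6} (hz : DPt T z a b c d)
    (hi : i ∈ T z) : ∃ w, Ray T z i w := by
  obtain ⟨da, db, σ, R⟩ := exists_rays h hz
  rw [hz.pal] at hi
  simp only [mem_insert_iff, mem_singleton_iff] at hi
  rcases hi with rfl | rfl | rfl | rfl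
  exacts [⟨_, R.rya⟩, ⟨_, R.rya'⟩, ⟨_, R.ryb⟩, ⟨_, R.ryb'⟩]

theorem sign_ev383 {A B : ℝ} (hB : 0 < B) :
    ∀ᶠ τ : ℝ in 𝓝[>] 0, A * (1 - Real.cos τ) - B * Real.sin τ < 0 := by
  by_contra hcon
  rw [not_eventually] at hcon
  have h1 : ∃ᶠ τ : ℝ in 𝓝[>] 0, (-A) * (1 - Real.cos τ) - (-B) * Real.sin τ ≤ 0 := by
    refine hcon.mono fun τ hτ => ?_
    push Not at hτ
    linarith
  have := sign_lim h1
  linarith

/-- **the rays of the end `z` of the arc of `V`** -/
theorem vertex_rays (h : Irr U T) {z V : ℂ} {a b m n a' b' : Fin 6} {κ : ℝ}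
    (hVD : DPt T V a b m n) (hz : DPt T z a a' b b') (hV : dist V z = 1) (hκ : κ = 1 ∨ κ = -1)
    (hK : ∀ᶠ τ : ℝ in 𝓝[>] 0, T (z + (V - z) * (1 - cis (κ * τ))) = {a, b})
    (inn : ∀ y, dist y V = 1 → T y = {a, b} →
      ∀ᶠ x in 𝓝 y, (b ∈ T x → 1 ≤ dist x V) ∧ (a ∈ T x → dist x V ≤ 1)) :
    ∃ da db σ, Rays T z a a' b b' da db σ ∧ 0 < dtp da (V - z) ∧ dtp db (V - z) ≤ 0 ∧
      (b' ∈ T V → dtp db (V - z) < 0) := by
  obtain ⟨da, db, σ, R⟩ := exists_rays h hz
  have hvn : ‖V - z‖ = 1 := by rw [← dist_eq_norm]; exact hV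
  have hv0 : V - z ≠ 0 := by
    intro h2
    rw [h2, norm_zero] at hvn
    exact zero_ne_one hvn
  have haV : a ∈ T V := by rw [hVD.pal]; simp
  have hbV : b ∈ T V := by rw [hVD.pal]; simp
  have hon : ∀ {κ' : ℝ} (τ : ℝ), dist (z + (V - z) * (1 - cis (κ' * τ))) V = 1 := by
    intro κ' τ
    rw [dist_eq_norm, show z + (V - z) * (1 - cis (κ' * τ)) - V = -(V - z) * cis (κ' * τ) by ring,
      norm_mul, norm_neg, hvn, norm_cis, one_mul]
  obtain ⟨wa, hwa⟩ := exists_ray383 h hVD haV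
  obtain ⟨wb, hwb⟩ := exists_ray383 h hVD hbV
  have htK := (tend_rot z hv0 hκ).mono_right nhdsWithin_le_nhds
  -- `a` inside
  have hda : 0 < dtp da (V - z) := by
    by_contra hcon
    push Not at hcon
    obtain ⟨h1, -⟩ := R.rya.side_out h hwa hV hcon
    obtain ⟨τ, h2, h3⟩ := (hK.and (htK.eventually h1.eventually_nhds)).exists
    have h4 : a ∈ T (z + (V - z) * (1 - cis (κ * τ))) := by rw [h2]; simp
    obtain ⟨w, h5, h6, h7⟩ := ((h.pure _ a h4).and_eventually (h3.and (inn _ (hon τ) h2))).exists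
    have h8 := h6 (h.mem_of_single (by rw [h5]))
    have h9 := h7.2 (by rw [h5]; rfl)
    linarith
  have hdb : dtp db (V - z) ≤ 0 := by
    by_contra hcon
    push Not at hcon
    obtain ⟨h1, -⟩ := R.ryb.side_in h hwb hV hcon
    obtain ⟨τ, h2, h3⟩ := (hK.and (htK.eventually h1.eventually_nhds)).exists
    have h4 : b ∈ T (z + (V - z) * (1 - cis (κ * τ))) := by rw [h2]; simp
    obtain ⟨w, h5, h6, h7⟩ := ((h.pure _ b h4).and_eventually (h3.and (inn _ (hon τ) h2))).exists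
    have h8 := h6 (h.mem_of_single (by rw [h5]))
    have h9 := h7.1 (by rw [h5]; rfl)
    linarith
  have hKb : ∃ᶠ τ : ℝ in 𝓝[>] 0, b ∈ T (z + (V - z) * (1 - cis (κ * τ))) := by
    refine (hK.mono fun τ hτ => ?_).frequently
    rw [hτ]; simp
  refine ⟨da, db, σ, R, hda, hdb, fun h1 => ?_⟩
  rcases lt_or_eq_of_le hdb with h2 | h2
  · exact h2
  exfalso
  -- orientation
  have hσκ : σ * κ = -1 := by
    have h2 : σ * κ = 1 ∨ σ * κ = -1 := by
      rcases R.sg with h3 | h3 <;> rcases hκ with h4 | h4 <;> rw [h3, h4] <;> norm_num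
    rcases h2 with h2 | h2
    swap
    · exact h2
    exfalso
    have h3 : ∃ᶠ τ : ℝ in 𝓝[>] 0, (-(σ * crp da (V - z))) * (1 - Real.cos τ) -
        (-dtp da (V - z)) * Real.sin τ ≤ 0 := by
      refine (hKb.and_eventually ((tend_rot z hv0 hκ).eventually R.sb)).mono ?_
      rintro τ ⟨h4, h5⟩
      have h6 := h5 h4
      rw [add_sub_cancel_left, crp_rot, cos_k hκ, sin_k hκ] at h6
      have h7 : σ * (crp da (V - z) * (1 - Real.cos τ) - dtp da (V - z) * (κ * Real.sin τ)) =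
          σ * crp da (V - z) * (1 - Real.cos τ) - (σ * κ) * (dtp da (V - z) * Real.sin τ) := by
        ring
      rw [h7, h2] at h6
      linarith
    have h4 := sign_lim h3
    linarith
  have hκ' : -κ = 1 ∨ -κ = -1 := by
    rcases hκ with h3 | h3 <;> rw [h3] <;> norm_num
  -- the sign of `crp db`
  have h4 : σ * crp db (V - z) < 0 := by
    obtain ⟨τ, k1, k2, k3⟩ := (hK.and (((tend_rot z hv0 hκ).eventually R.sa).and
      (Ioo_mem_nhdsGT Real.pi_pos))).exists
    have k4 := k2 (by rw [k1]; simp)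
    rw [add_sub_cancel_left, crp_rot, cos_k hκ, h2, zero_mul, sub_zero] at k4
    have k5 : 0 < 1 - Real.cos τ := by
      have := Real.cos_lt_cos_of_nonneg_of_le_pi le_rfl k3.2.le k3.1
      rw [Real.cos_zero] at this
      linarith
    by_contra hcon
    push Not at hcon
    have := mul_nonneg hcon k5.le
    linarith
  -- the points on the other side
  have ht := tend_rot z hv0 hκ'
  have ht' := ht.mono_right nhdsWithin_le_nhds
  obtain ⟨τ, k1, k2, k3, k4, k5⟩ := ((ht.eventually R.sb).and ((ht.eventually R.sa').and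
    ((ht'.eventually (h.nhd z)).and ((sign_ev383 (A := σ * crp da (V - z)) hda).and
      (Ioo_mem_nhdsGT Real.pi_pos))))).exists
  obtain ⟨y, hy⟩ : ∃ y, y = z + (V - z) * (1 - cis (-κ * τ)) := ⟨_, rfl⟩
  rw [← hy] at k1 k2 k3
  have e1 : y - z = (V - z) * (1 - cis (-κ * τ)) := by rw [hy]; ring
  have hyV : dist y V = 1 := by rw [hy]; exact hon τ
  have nb : b ∉ T y := by
    intro k6
    have k7 := k1 k6
    rw [e1, crp_rot, cos_k hκ', sin_k hκ'] at k7
    have k8 : σ * (crp da (V - z) * (1 - Real.cos τ) - dtp da (V - z) * (-κ * Real.sin τ)) =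
        σ * crp da (V - z) * (1 - Real.cos τ) + (σ * κ) * (dtp da (V - z) * Real.sin τ) := by
      ring
    rw [k8, hσκ] at k7
    linarith
  have na' : a' ∉ T y := by
    intro k6
    have k7 := k2 k6
    rw [e1, crp_rot, cos_k hκ', h2, zero_mul, sub_zero] at k7
    have k8 : 0 < 1 - Real.cos τ := by
      have := Real.cos_lt_cos_of_nonneg_of_le_pi le_rfl k5.2.le k5.1
      rw [Real.cos_zero] at this
      linarith
    have := mul_pos (neg_pos.2 h4) k8
    linarith
  have hsub : T y ⊆ {a, b'} := by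
    intro i hi
    have k6 := k3 hi
    rw [hz.pal] at k6
    simp only [mem_insert_iff, mem_singleton_iff] at k6 ⊢
    rcases k6 with rfl | rfl | rfl | rfl
    · exact Or.inl rfl
    · exact absurd hi na'
    · exact absurd hi nb
    · exact Or.inr rfl
  have hsubV : T y ⊆ T V := by
    refine hsub.trans ?_
    rintro i (rfl | rfl)
    · exact haV
    · exact h1
  rcases (H678.TP.of_dpt h hVD).near y hyV hsubV with ⟨-, k6⟩ | ⟨-, k6⟩
  · exact nb (k6 (by simp))
  · have k7 := hsub (k6 (show m ∈ ({m, n} : Set (Fin 6)) by simp))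
    have k8 := hsub (k6 (show n ∈ ({m, n} : Set (Fin 6)) by simp))
    simp only [mem_insert_iff, mem_singleton_iff] at k7 k8
    rcases k7 with k7 | k7
    · exact hVD.ac k7.symm
    · rcases k8 with k8 | k8
      · exact hVD.ad k8.symm
      · exact hVD.cd (k7.trans k8.symm)

/-- **the sides of the colours of the end `z` near `V`** -/
theorem vertex_sides (h : Irr U T) {z V : ℂ} {a b m n a' b' : Fin 6} {κ : ℝ}
    (hVD : DPt T V a b m n) (hz : DPt T z a a' b b') (hV : dist V z = 1) (hκ : κ = 1 ∨ κ = -1)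
    (hK : ∀ᶠ τ : ℝ in 𝓝[>] 0, T (z + (V - z) * (1 - cis (κ * τ))) = {a, b})
    (inn : ∀ y, dist y V = 1 → T y = {a, b} →
      ∀ᶠ x in 𝓝 y, (b ∈ T x → 1 ≤ dist x V) ∧ (a ∈ T x → dist x V ≤ 1)) :
    (∀ᶠ x in 𝓝 V, a ∈ T x → dist x z ≤ 1) ∧ (∀ᶠ x in 𝓝 V, b ∈ T x → 1 ≤ dist x z) ∧
      (∀ᶠ x in 𝓝 V, a' ∈ T x → 1 ≤ dist x z) ∧
      (b' ∈ T V → ∀ᶠ x in 𝓝 V, b' ∈ T x → dist x z ≤ 1) := by
  obtain ⟨da, db, σ, R, h1, h2, h3⟩ := vertex_rays h hVD hz hV hκ hK inn
  refine ⟨ev_le h (R.rya.near h hV h1), ev_ge h (R.ryb.far h hV h2),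
    ev_ge h (R.rya'.far h hV (by rw [dtp_neg']; linarith)), fun h4 => ?_⟩
  have h5 := h3 h4
  exact ev_le h (R.ryb'.near h hV (by rw [dtp_neg']; linarith))

theorem sq_step (z V w : ℂ) (ρ : ℝ) : dist (V + ρ * w) z ^ 2 =
    dist z V ^ 2 - 2 * ρ * dtp w (z - V) + ρ ^ 2 * Complex.normSq w := by
  rw [dist_eq_norm, dist_eq_norm, Complex.sq_norm, Complex.sq_norm, Complex.normSq_apply,
    Complex.normSq_apply, Complex.normSq_apply]
  unfold dtp
  simp only [Complex.sub_re, Complex.sub_im, Complex.add_re, Complex.add_im, Complex.mul_re,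
    Complex.mul_im, Complex.ofReal_re, Complex.ofReal_im, zero_mul, sub_zero, add_zero]
  ring

theorem step_tendsto (V w : ℂ) : Tendsto (fun ρ : ℝ => V + (ρ : ℂ) * w) (𝓝[>] 0) (𝓝 V) := by
  have hcont : Continuous fun r : ℝ => V + (r : ℂ) * w := by fun_prop
  have h2 := hcont.tendsto 0
  simp only [Complex.ofReal_zero, zero_mul, add_zero] at h2
  exact h2.mono_left nhdsWithin_le_nhds

theorem step_in {z V w : ℂ} (hz : dist z V = 1) (hw : 0 < dtp w (z - V)) :
    ∀ᶠ ρ : ℝ in 𝓝[>] 0, dist (V + ρ * w) z < 1 := by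
  have hN : 0 < Complex.normSq w := by
    rw [Complex.normSq_pos]
    rintro rfl
    unfold dtp at hw
    simp at hw
  filter_upwards [Ioo_mem_nhdsGT (show (0 : ℝ) < dtp w (z - V) / Complex.normSq w by positivity)]
    with ρ hρ
  have h1 := hρ.2
  rw [lt_div_iff₀ hN] at h1
  have h2 := sq_step z V w ρ
  rw [hz] at h2
  have h3 : dist (V + ρ * w) z ^ 2 < 1 := by
    rw [h2]
    nlinarith [hρ.1]
  by_contra hcon
  push Not at hcon
  have := one_le_pow₀ hcon (n := 2)
  linarith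

theorem step_out {z V w : ℂ} (hz : dist z V = 1) (hw : dtp w (z - V) < 0) :
    ∀ᶠ ρ : ℝ in 𝓝[>] 0, 1 < dist (V + ρ * w) z := by
  have hpos : ∀ᶠ ρ : ℝ in 𝓝[>] 0, 0 < ρ := self_mem_nhdsWithin
  filter_upwards [hpos] with ρ hρ
  have h2 := sq_step z V w ρ
  rw [hz] at h2
  have h3 : 1 < dist (V + ρ * w) z ^ 2 := by
    rw [h2]
    have h4 := mul_pos hρ (neg_pos.2 hw)
    have h5 := mul_nonneg (sq_nonneg ρ) (Complex.normSq_nonneg w)
    linarith
  by_contra hcon
  push Not at hcon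
  have := pow_le_one₀ dist_nonneg hcon (n := 2)
  linarith

/-- the side of the arc at its two ends -/
theorem arc_side {V z1 z2 : ℂ} {s t : ℝ} {C : Set (Fin 6)} (hst : s < t)
    (hex : ∀ u ∈ Ioo s t, T (pt V u) = C) (h1 : z1 = pt V t) (h2 : z2 = pt V s) :
    (∀ᶠ τ : ℝ in 𝓝[>] 0, T (z1 + (V - z1) * (1 - cis (-1 * τ))) = C) ∧
      ∀ᶠ τ : ℝ in 𝓝[>] 0, T (z2 + (V - z2) * (1 - cis (1 * τ))) = C := by
  have hpi := Real.pi_pos
  have key : ∀ (κ r0 τ : ℝ), pt V r0 + (V - pt V r0) * (1 - cis (κ * τ)) =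
      pt V (r0 + κ * τ * (3 / Real.pi)) := by
    intro κ r0 τ
    unfold pt
    rw [show (r0 + κ * τ * (3 / Real.pi)) * (Real.pi / 3) =
      r0 * (Real.pi / 3) + κ * τ by field_simp, Six.cis_add]
    ring
  have h3π : (0 : ℝ) < 3 / Real.pi := by positivity
  have hev := Ioo_mem_nhdsGT (show (0 : ℝ) < (t - s) / (3 / Real.pi) by
    have : 0 < t - s := by linarith
    positivity)
  constructor
  · filter_upwards [hev] with τ hτ
    have h2 := hτ.2
    rw [lt_div_iff₀ h3π] at h2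
    have h3 := mul_pos hτ.1 h3π
    rw [h1, key (-1) t]
    exact hex _ ⟨by linarith, by linarith⟩
  · filter_upwards [hev] with τ hτ
    have h1 := hτ.2
    rw [lt_div_iff₀ h3π] at h1
    have h3 := mul_pos hτ.1 h3π
    rw [h2, key 1 s]
    exact hex _ ⟨by linarith, by linarith⟩

/-- **the pairs at the two ends of the arc** -/
theorem lk_ends (h : Irr U T) {V z1 z2 : ℂ} {a b m n a1 b1 a2 b2 : Fin 6} {s t : ℝ}
    (hV : DPt T V a b m n) (hst : s < t) (hts : t ≤ s + 1) (hz1 : z1 = pt V t) (hz2 : z2 = pt V s)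
    (hex : ∀ u ∈ Ioo s t, T (pt V u) = {a, b})
    (inn : ∀ y, dist y V = 1 → T y = {a, b} →
      ∀ᶠ x in 𝓝 y, (b ∈ T x → 1 ≤ dist x V) ∧ (a ∈ T x → dist x V ≤ 1))
    (H1 : DPt T z1 a a1 b b1) (H2 : DPt T z2 a a2 b b2) :
    ((m ∈ T z1 → m = a1) ∧ (n ∈ T z1 → n = b1) ∧ (m ∈ T z2 → m = b2) ∧ (n ∈ T z2 → n = a2)) ∨
      ((n ∈ T z1 → n = a1) ∧ (m ∈ T z1 → m = b1) ∧ (n ∈ T z2 → n = b2) ∧ (m ∈ T z2 → m = a2)) := by
  have d1 : dist z1 V = 1 := by rw [hz1]; exact dist_pt _ _
  have d2 : dist z2 V = 1 := by rw [hz2]; exact dist_pt _ _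
  obtain ⟨K1, K2⟩ := arc_side hst hex hz1 hz2
  obtain ⟨s1, s2, s3, s4⟩ := vertex_sides h hV H1 (by rw [dist_comm]; exact d1) (Or.inr rfl) K1 inn
  obtain ⟨r1, r2, r3, r4⟩ := vertex_sides h hV H2 (by rw [dist_comm]; exact d2) (Or.inl rfl) K2 inn
  -- the direction
  have hne : z1 ≠ z2 := by
    rw [hz1, hz2]
    exact fun h0 => pt_ne hst (by linarith) h0.symm
  obtain ⟨w, hw⟩ : ∃ w, w = z2 - z1 := ⟨_, rfl⟩
  have hwn : 0 < Complex.normSq w := by
    rw [Complex.normSq_pos, hw]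
    exact sub_ne_zero.2 hne.symm
  have e1 : Complex.normSq (z1 - V) = 1 := by
    rw [← Complex.sq_norm, ← dist_eq_norm, d1]; norm_num
  have e2 : Complex.normSq (z2 - V) = 1 := by
    rw [← Complex.sq_norm, ← dist_eq_norm, d2]; norm_num
  have e3 : dtp w (z1 - V) = -(Complex.normSq w / 2) := by
    rw [hw, show z2 - z1 = (z2 - V) - (z1 - V) by ring]
    unfold dtp
    rw [Complex.normSq_apply] at e1 e2 ⊢
    simp only [Complex.sub_re, Complex.sub_im] at e1 e2 ⊢
    linear_combination (e2 - e1) / 2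
  have e4 : dtp w (z2 - V) = Complex.normSq w / 2 := by
    rw [hw, show z2 - z1 = (z2 - V) - (z1 - V) by ring]
    unfold dtp
    rw [Complex.normSq_apply] at e1 e2 ⊢
    simp only [Complex.sub_re, Complex.sub_im] at e1 e2 ⊢
    linear_combination (e2 - e1) / 2
  have o1 := step_out d1 (show dtp w (z1 - V) < 0 by rw [e3]; linarith)
  have i2 := step_in d2 (show 0 < dtp w (z2 - V) by rw [e4]; linarith)
  have i1 := step_in d1 (show 0 < dtp (-w) (z1 - V) by rw [dtp_neg', e3]; linarith)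
  have o2 := step_out d2 (show dtp (-w) (z2 - V) < 0 by rw [dtp_neg', e4]; linarith)
  -- the sides at `V`
  obtain ⟨wa, wm, σ, R⟩ := exists_rays h hV
  have tw := step_tendsto V w
  have tw' := step_tendsto V (-w)
  have hpos : ∀ᶠ ρ : ℝ in 𝓝[>] 0, 0 < ρ := self_mem_nhdsWithin
  have ne_of : ∀ w' : ℂ, w' ≠ 0 → ∀ᶠ ρ : ℝ in 𝓝[>] 0, V + ρ * w' ∈ ({V}ᶜ : Set ℂ) := by
    intro w' hw'
    filter_upwards [hpos] with ρ hρ h0
    have h0 : V + ρ * w' = V := h0
    have h0' : (ρ : ℂ) * w' = 0 := by linear_combination h0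
    rcases mul_eq_zero.1 h0' with h3 | h3
    · exact hρ.ne' (by exact_mod_cast h3)
    · exact hw' h3
  have hw0 : w ≠ 0 := Complex.normSq_pos.1 hwn
  have tn : Tendsto (fun ρ : ℝ => V + (ρ : ℂ) * w) (𝓝[>] 0) (𝓝[≠] V) :=
    tendsto_nhdsWithin_iff.2 ⟨tw, ne_of w hw0⟩
  have tn' : Tendsto (fun ρ : ℝ => V + (ρ : ℂ) * (-w)) (𝓝[>] 0) (𝓝[≠] V) :=
    tendsto_nhdsWithin_iff.2 ⟨tw', ne_of (-w) (neg_ne_zero.2 hw0)⟩
  have crs : ∀ (ρ : ℝ) (w' : ℂ), crp wa (V + ρ * w' - V) = ρ * crp wa w' := by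
    intro ρ w'
    rw [add_sub_cancel_left]
    unfold crp
    simp only [Complex.mul_re, Complex.mul_im, Complex.ofReal_re, Complex.ofReal_im, zero_mul,
      sub_zero, add_zero]
    ring
  have crn : crp wa (-w) = -crp wa w := by
    unfold crp
    simp only [Complex.neg_re, Complex.neg_im]
    ring
  -- palettes in the two small sectors
  have P : ∀ᶠ ρ : ℝ in 𝓝[>] 0, (0 < σ * crp wa w → T (V + ρ * w) = {m}) ∧
      (σ * crp wa w ≤ 0 → T (V + ρ * w) = {n}) := by
    filter_upwards [hpos, o1, i2, tw.eventually s1, tw.eventually r2, tn.eventually R.sb,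
      tn.eventually R.sb', tw.eventually (h.nhd V)] with ρ g1 g2 g3 g4 g5 g6 g7 g8
    rw [crs] at g6 g7
    have na : a ∉ T (V + ρ * w) := fun g9 => absurd (g4 g9) (not_le.2 g2)
    have nb : b ∉ T (V + ρ * w) := fun g9 => absurd (g5 g9) (not_le.2 g3)
    have hmn : ∀ i ∈ T (V + ρ * w), i = m ∨ i = n := by
      intro i hi
      have g9 := g8 hi
      rw [hV.pal] at g9
      simp only [mem_insert_iff, mem_singleton_iff] at g9
      rcases g9 with rfl | rfl | g9 | g9
      · exact absurd hi na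
      · exact absurd hi nb
      · exact Or.inl g9
      · exact Or.inr g9
    obtain ⟨j, hj⟩ := h.ne (V + ρ * w)
    constructor
    · intro g9
      have nn : n ∉ T (V + ρ * w) := by
        intro g10
        have g11 := g7 g10
        have := mul_pos g1 g9
        nlinarith
      have hjm : j = m := (hmn j hj).resolve_right fun g10 => nn (g10 ▸ hj)
      subst hjm
      refine Subset.antisymm (fun i hi => ?_) (singleton_subset_iff.2 hj)
      exact (hmn i hi).resolve_right fun g10 => nn (g10 ▸ hi)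
    · intro g9
      have nn : m ∉ T (V + ρ * w) := by
        intro g10
        have g11 := g6 g10
        have := mul_nonneg g1.le (neg_nonneg.2 g9)
        nlinarith
      have hjm : j = n := (hmn j hj).resolve_left fun g10 => nn (g10 ▸ hj)
      subst hjm
      refine Subset.antisymm (fun i hi => ?_) (singleton_subset_iff.2 hj)
      exact (hmn i hi).resolve_left fun g10 => nn (g10 ▸ hi)
  have P' : ∀ᶠ ρ : ℝ in 𝓝[>] 0, (0 ≤ σ * crp wa w → T (V + ρ * (-w)) = {n}) ∧
      (σ * crp wa w < 0 → T (V + ρ * (-w)) = {m}) := by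
    filter_upwards [hpos, i1, o2, tw'.eventually s2, tw'.eventually r1, tn'.eventually R.sb,
      tn'.eventually R.sb', tw'.eventually (h.nhd V)] with ρ g1 g2 g3 g4 g5 g6 g7 g8
    rw [crs, crn] at g6 g7
    have nb : b ∉ T (V + ρ * (-w)) := fun g9 => absurd (g4 g9) (not_le.2 g2)
    have na : a ∉ T (V + ρ * (-w)) := fun g9 => absurd (g5 g9) (not_le.2 g3)
    have hmn : ∀ i ∈ T (V + ρ * (-w)), i = m ∨ i = n := by
      intro i hi
      have g9 := g8 hi
      rw [hV.pal] at g9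
      simp only [mem_insert_iff, mem_singleton_iff] at g9
      rcases g9 with rfl | rfl | g9 | g9
      · exact absurd hi na
      · exact absurd hi nb
      · exact Or.inl g9
      · exact Or.inr g9
    obtain ⟨j, hj⟩ := h.ne (V + ρ * (-w))
    constructor
    · intro g9
      have nn : m ∉ T (V + ρ * (-w)) := by
        intro g10
        have g11 := g6 g10
        have := mul_nonneg g1.le g9
        nlinarith
      have hjm : j = n := (hmn j hj).resolve_left fun g10 => nn (g10 ▸ hj)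
      subst hjm
      refine Subset.antisymm (fun i hi => ?_) (singleton_subset_iff.2 hj)
      exact (hmn i hi).resolve_left fun g10 => nn (g10 ▸ hi)
    · intro g9
      have nn : n ∉ T (V + ρ * (-w)) := by
        intro g10
        have g11 := g7 g10
        have := mul_pos g1 (neg_pos.2 g9)
        nlinarith
      have hjm : j = m := (hmn j hj).resolve_right fun g10 => nn (g10 ▸ hj)
      subst hjm
      refine Subset.antisymm (fun i hi => ?_) (singleton_subset_iff.2 hj)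
      exact (hmn i hi).resolve_right fun g10 => nn (g10 ▸ hi)
  -- final step, symmetric in the two colours
  have fin : ∀ p q : Fin 6, p ∈ T V → q ∈ T V → p ≠ a → p ≠ b → q ≠ a → q ≠ b →
      (∃ᶠ ρ : ℝ in 𝓝[>] 0, T (V + ρ * w) = {p}) → (∃ᶠ ρ : ℝ in 𝓝[>] 0, T (V + ρ * (-w)) = {q}) →
      (p ∈ T z1 → p = a1) ∧ (q ∈ T z1 → q = b1) ∧ (p ∈ T z2 → p = b2) ∧ (q ∈ T z2 → q = a2) := by
    intro p q hpV hqV pa pb qa qb Fp Fq
    refine ⟨fun g => ?_, fun g => ?_, fun g => ?_, fun g => ?_⟩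
    · rw [H1.pal] at g
      simp only [mem_insert_iff, mem_singleton_iff] at g
      rcases g with g | g | g | g
      · exact absurd g pa
      · exact g
      · exact absurd g pb
      · exfalso
        subst g
        obtain ⟨ρ, k1, k2, k3⟩ := (Fp.and_eventually (o1.and (tw.eventually (s4 hpV)))).exists
        exact absurd (k3 (by rw [k1]; rfl)) (not_le.2 k2)
    · rw [H1.pal] at g
      simp only [mem_insert_iff, mem_singleton_iff] at g
      rcases g with g | g | g | g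
      · exact absurd g qa
      · exfalso
        subst g
        obtain ⟨ρ, k1, k2, k3⟩ := (Fq.and_eventually (i1.and (tw'.eventually s3))).exists
        exact absurd (k3 (by rw [k1]; rfl)) (not_le.2 k2)
      · exact absurd g qb
      · exact g
    · rw [H2.pal] at g
      simp only [mem_insert_iff, mem_singleton_iff] at g
      rcases g with g | g | g | g
      · exact absurd g pa
      · exfalso
        subst g
        obtain ⟨ρ, k1, k2, k3⟩ := (Fp.and_eventually (i2.and (tw.eventually r3))).exists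
        exact absurd (k3 (by rw [k1]; rfl)) (not_le.2 k2)
      · exact absurd g pb
      · exact g
    · rw [H2.pal] at g
      simp only [mem_insert_iff, mem_singleton_iff] at g
      rcases g with g | g | g | g
      · exact absurd g qa
      · exact g
      · exact absurd g qb
      · exfalso
        subst g
        obtain ⟨ρ, k1, k2, k3⟩ := (Fq.and_eventually (o2.and (tw'.eventually (r4 hqV)))).exists
        exact absurd (k3 (by rw [k1]; rfl)) (not_le.2 k2)
  have hmV : m ∈ T V := by rw [hV.pal]; simp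
  have hnV : n ∈ T V := by rw [hV.pal]; simp
  rcases lt_trichotomy (σ * crp wa w) 0 with g | g | g
  · right
    exact fin n m hnV hmV hV.ad.symm hV.bd.symm hV.ac.symm hV.bc.symm
      (P.mono fun ρ k => k.2 g.le).frequently (P'.mono fun ρ k => k.2 g).frequently
  · exfalso
    obtain ⟨ρ, k1, k2⟩ := (P.and (tn.eventually R.sb')).exists
    have k3 := k1.2 g.le
    have k4 := k2 (by rw [k3]; rfl)
    rw [crs] at k4
    have : σ * (ρ * crp wa w) = ρ * (σ * crp wa w) := by ring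
    rw [this, g, mul_zero] at k4
    exact lt_irrefl _ k4
  · left
    exact fin m n hmV hnV hV.ac.symm hV.bc.symm hV.ad.symm hV.bd.symm
      (P.mono fun ρ k => k.1 g).frequently (P'.mono fun ρ k => k.1 g.le).frequently

/-- two-pair data with `a`, `b` in different pairs -/
theorem split_cases {z : ℂ} {a b x g : Fin 6} (H : DPt T z a x b g ∨ DPt T z b x a g) :
    ∃ a1 b1, DPt T z a a1 b b1 ∧ (x = a1 ∨ x = b1) := by
  rcases H with H | H
  · exact ⟨x, g, H, Or.inl rfl⟩
  · exact ⟨g, x, H.swap, Or.inr rfl⟩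

/-- **the fields `lk1`, `lk2`** : both ends two-pair, `a`, `b` in different pairs, a colour `m` or `n` at
each end; up to the exchange of `m` and `n` -/
theorem lk_qi (h : Irr U T) {V z1 z2 : ℂ} {a b m n : Fin 6} {s t : ℝ}
    (hV : DPt T V a b m n) (hst : s < t) (hts : t ≤ s + 1) (hz1 : z1 = pt V t) (hz2 : z2 = pt V s)
    (hex : ∀ u ∈ Ioo s t, T (pt V u) = {a, b})
    (inn : ∀ y, dist y V = 1 → T y = {a, b} →
      ∀ᶠ x in 𝓝 y, (b ∈ T x → 1 ≤ dist x V) ∧ (a ∈ T x → dist x V ≤ 1))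
    (H1 : ∃ x g, (x = m ∨ x = n) ∧ (DPt T z1 a x b g ∨ DPt T z1 b x a g))
    (H2 : ∃ x g, (x = m ∨ x = n) ∧ (DPt T z2 a x b g ∨ DPt T z2 b x a g)) :
    ((∃ g, DPt T z1 a m b g ∨ DPt T z1 n b a g) ∧ ∃ g, DPt T z2 a n b g ∨ DPt T z2 m b a g) ∨
      ((∃ g, DPt T z1 a n b g ∨ DPt T z1 m b a g) ∧ ∃ g, DPt T z2 a m b g ∨ DPt T z2 n b a g) := by
  obtain ⟨x1, g1, hx1, D1⟩ := H1
  obtain ⟨x2, g2, hx2, D2⟩ := H2
  obtain ⟨a1, b1, E1, hE1⟩ := split_cases D1
  obtain ⟨a2, b2, E2, hE2⟩ := split_cases D2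
  have key : ∀ p q : Fin 6, (x1 = p ∨ x1 = q) → (x2 = p ∨ x2 = q) →
      (p ∈ T z1 → p = a1) ∧ (q ∈ T z1 → q = b1) ∧ (p ∈ T z2 → p = b2) ∧ (q ∈ T z2 → q = a2) →
      (∃ g, DPt T z1 a p b g ∨ DPt T z1 q b a g) ∧ ∃ g, DPt T z2 a q b g ∨ DPt T z2 p b a g := by
    rintro p q hp1 hp2 ⟨k1, k2, k3, k4⟩
    have hm1 : x1 ∈ T z1 := by
      rw [E1.pal]
      rcases hE1 with rfl | rfl <;> simp
    have hm2 : x2 ∈ T z2 := by
      rw [E2.pal]
      rcases hE2 with rfl | rfl <;> simp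
    constructor
    · rcases hp1 with rfl | rfl
      · have := k1 hm1
        subst this
        exact ⟨b1, Or.inl E1⟩
      · have := k2 hm1
        subst this
        exact ⟨a1, Or.inr E1.swap.swap12⟩
    · rcases hp2 with rfl | rfl
      · have := k3 hm2
        subst this
        exact ⟨a2, Or.inr E2.swap.swap12⟩
      · have := k4 hm2
        subst this
        exact ⟨b2, Or.inl E2⟩
  rcases lk_ends h hV hst hts hz1 hz2 hex inn E1 E2 with h1 | h1
  · exact Or.inl (key m n hx1 hx2 h1)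
  · exact Or.inr (key n m hx1.symm hx2.symm h1)

/-- an exact `ab`-arc does not join the borders `am` and `bn` (one side of the arc given) -/
theorem no_join (h : Irr U T) {V : ℂ} {a b m n g g' : Fin 6} {s t : ℝ}
    (hV : DPt T V a b m n) (hst : s < t) (hts : t ≤ s + 1)
    (hex : ∀ u ∈ Ioo s t, T (pt V u) = {a, b})
    (inn : ∀ y, dist y V = 1 → T y = {a, b} →
      ∀ᶠ x in 𝓝 y, (b ∈ T x → 1 ≤ dist x V) ∧ (a ∈ T x → dist x V ≤ 1))
    (H2 : DPt T (pt V s) a m b g) (H1 : DPt T (pt V t) b n a g') : False := by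
  have m2 : m ∈ T (pt V s) := by rw [H2.pal]; simp
  have n1 : n ∈ T (pt V t) := by rw [H1.pal]; simp
  rcases lk_ends h hV hst hts rfl rfl hex inn H1.swap H2 with h1 | h1
  · exact H2.bd (by have := h1.2.2.1 m2; exact this)
  · exact H1.bd (by have := h1.1 n1; exact this)

end Vale.Agent.P032.H383
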