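import Vale.Agent.P032.H383.Geo
import Vale.Agent.P032.H715.Common

/-!
# P032: contacts of complementary faces

`two_le_of_compl` : in a frame with at most four colours and `NoComp`, points with complementary
palettes of three colours are at distance at least two.

`DPt.contact` : `V` a two-pair point with the pairs `{a, b}`, `{c, d}`, `u` a point with the palette
`{e, f, c}`; a common point `p` of the two circles (not the midpoint) with at most three colours, or
with the palette of `V`, is a limit of points of `S(V)` with the palette `{a, b}`.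

`lens` : two unit discs with common boundary points `p ≠ p'` meet inside every unit disc that
contains `p` and `p'`.
-/

open Set Filter Topology Metric Complex

noncomputable section

namespace Vale.Agent.P032.H383

open Vale.Agent.P032.Six

/-! ### the lens -/

/-- the lens in real coordinates -/
theorem lens_real {x1 x2 w1 w2 p : ℝ} (b1 : x1 ^ 2 + x2 ^ 2 + 2 * |x1| ≤ p ^ 2)
    (b2 : w1 ^ 2 + w2 ^ 2 + 2 * |w2 * p| ≤ 1) :
    -(x1 * w1) - x2 * w2 ≤ |x1| + |w2 * p| := by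
  have c1 : |w1| ≤ 1 := by
    have h1 := abs_nonneg (w2 * p)
    have h2 : w1 ^ 2 ≤ 1 ^ 2 := by linarith [sq_nonneg w2]
    have h3 := sq_le_sq.1 h2
    rwa [abs_one] at h3
  have c2 : |x2| ≤ |p| := by
    have h1 := abs_nonneg x1
    exact sq_le_sq.1 (by linarith [sq_nonneg x1])
  have c3 : -(x1 * w1) ≤ |x1| := by
    have h1 : |x1 * w1| ≤ |x1| := by
      rw [abs_mul]
      calc |x1| * |w1| ≤ |x1| * 1 := mul_le_mul_of_nonneg_left c1 (abs_nonneg _)
        _ = |x1| := mul_one _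
    linarith [neg_abs_le (x1 * w1)]
  have c4 : -(x2 * w2) ≤ |w2 * p| := by
    have h1 : |x2 * w2| ≤ |w2 * p| := by
      rw [abs_mul, abs_mul, mul_comm |x2|]
      exact mul_le_mul_of_nonneg_left c2 (abs_nonneg _)
    linarith [neg_abs_le (x2 * w2)]
  linarith

theorem abs_form {A x c r : ℝ} (hr : 0 < r) (h1 : (A + 2 * x) * r ≤ c * r)
    (h2 : (A + 2 * -x) * r ≤ c * r) : A + 2 * |x| ≤ c := by
  rcases abs_cases x with ⟨h, -⟩ | ⟨h, -⟩ <;> rw [h]
  · exact le_of_mul_le_mul_right h1 hr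
  · exact le_of_mul_le_mul_right h2 hr

theorem abs_form_lt {A x c r : ℝ} (hr : 0 < r) (h1 : (A + 2 * x) * r < c * r)
    (h2 : (A + 2 * -x) * r < c * r) : A + 2 * |x| < c := by
  rcases abs_cases x with ⟨h, -⟩ | ⟨h, -⟩ <;> rw [h]
  · exact lt_of_mul_lt_mul_right h1 hr.le
  · exact lt_of_mul_lt_mul_right h2 hr.le

/-- **the lens lemma** -/
theorem lens {u v w p p' x : ℂ} (hpu : dist p u = 1) (hpv : dist p v = 1) (hp'u : dist p' u = 1)
    (hp'v : dist p' v = 1) (huv : u ≠ v) (hpp : p ≠ p') (hpw : dist p w ≤ 1)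
    (hp'w : dist p' w ≤ 1) (hxu : dist x u ≤ 1) (hxv : dist x v ≤ 1) :
    dist x w ≤ 1 ∧ (dist x u < 1 → dist x v < 1 → dist x w < 1) := by
  obtain ⟨m, hm⟩ : ∃ m : ℂ, m = (u + v) / 2 := ⟨_, rfl⟩
  obtain ⟨n, hn⟩ : ∃ n : ℂ, n = (u - v) / 2 := ⟨_, rfl⟩
  have hn0 : n ≠ 0 := by
    rw [hn]; exact div_ne_zero (sub_ne_zero.2 huv) two_ne_zero
  obtain ⟨r, hr⟩ : ∃ r : ℝ, r = Complex.normSq n := ⟨_, rfl⟩
  have hr0 : 0 < r := by rw [hr]; exact Complex.normSq_pos.2 hn0
  have hd : ∀ y z : ℂ, dist y z ^ 2 = (((y - m) / n).re - ((z - m) / n).re) ^ 2 * r +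
      (((y - m) / n).im - ((z - m) / n).im) ^ 2 * r := by
    intro y z
    have e : y - z = ((y - m) / n - (z - m) / n) * n := by
      field_simp
      ring
    rw [dist_eq_norm, Complex.sq_norm, e, Complex.normSq_mul, Complex.normSq_apply, sub_re, sub_im,
      ← hr]
    ring
  have hu1 : (u - m) / n = 1 := by
    rw [div_eq_one_iff_eq hn0, hm, hn]; ring
  have hv1 : (v - m) / n = -1 := by
    rw [div_eq_iff hn0, hm, hn]; ring
  obtain ⟨x1, hx1⟩ : ∃ t : ℝ, t = ((x - m) / n).re := ⟨_, rfl⟩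
  obtain ⟨x2, hx2⟩ : ∃ t : ℝ, t = ((x - m) / n).im := ⟨_, rfl⟩
  obtain ⟨w1, hw1⟩ : ∃ t : ℝ, t = ((w - m) / n).re := ⟨_, rfl⟩
  obtain ⟨w2, hw2⟩ : ∃ t : ℝ, t = ((w - m) / n).im := ⟨_, rfl⟩
  obtain ⟨p1, hp1⟩ : ∃ t : ℝ, t = ((p - m) / n).re := ⟨_, rfl⟩
  obtain ⟨p2, hp2⟩ : ∃ t : ℝ, t = ((p - m) / n).im := ⟨_, rfl⟩
  obtain ⟨q1, hq1⟩ : ∃ t : ℝ, t = ((p' - m) / n).re := ⟨_, rfl⟩
  obtain ⟨q2, hq2⟩ : ∃ t : ℝ, t = ((p' - m) / n).im := ⟨_, rfl⟩
  have hpu' := hd p u
  have hpv' := hd p v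
  have hp'u' := hd p' u
  have hp'v' := hd p' v
  have hxu' := hd x u
  have hxv' := hd x v
  have hpw' := hd p w
  have hp'w' := hd p' w
  have hxw' := hd x w
  have hpp' := hd p p'
  clear hd
  rw [hu1] at hpu' hp'u' hxu'
  rw [hv1] at hpv' hp'v' hxv'
  simp only [one_re, one_im, neg_re, neg_im, neg_zero, sub_zero] at hpu' hpv' hp'u' hp'v' hxu' hxv'
  rw [← hp1, ← hp2, hpu] at hpu'
  rw [← hp1, ← hp2, hpv] at hpv'
  rw [← hq1, ← hq2, hp'u] at hp'u'
  rw [← hq1, ← hq2, hp'v] at hp'v'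
  rw [← hx1, ← hx2] at hxu' hxv'
  rw [← hp1, ← hp2, ← hw1, ← hw2] at hpw'
  rw [← hq1, ← hq2, ← hw1, ← hw2] at hp'w'
  rw [← hx1, ← hx2, ← hw1, ← hw2] at hxw'
  rw [← hp1, ← hp2, ← hq1, ← hq2] at hpp'
  clear hx1 hx2 hw1 hw2 hp1 hp2 hq1 hq2 hu1 hv1
  have hp1 : p1 = 0 := by
    have : p1 * r = 0 := by linarith
    exact (mul_eq_zero.1 this).resolve_right hr0.ne'
  have hq1 : q1 = 0 := by
    have : q1 * r = 0 := by linarith
    exact (mul_eq_zero.1 this).resolve_right hr0.ne'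
  rw [hp1] at hpu' hpw' hpp'
  rw [hq1] at hp'u' hp'w' hpp'
  have hq2 : q2 = -p2 := by
    have h1 : (q2 - p2) * (q2 + p2) = 0 := by
      have : (q2 ^ 2 - p2 ^ 2) * r = 0 := by linarith
      linarith [(mul_eq_zero.1 this).resolve_right hr0.ne']
    rcases mul_eq_zero.1 h1 with h | h
    · exfalso
      have h2 : q2 = p2 := by linarith
      rw [h2] at hpp'
      have h3 : dist p p' ^ 2 = 0 := by rw [hpp']; ring
      exact hpp (dist_eq_zero.1 ((pow_eq_zero_iff two_ne_zero).1 h3))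
    · linarith
  rw [hq2] at hp'w'
  -- the inequalities
  have er : 1 = (1 + p2 ^ 2) * r := by linarith
  have hsq : ∀ {t : ℝ}, 0 ≤ t → t ≤ 1 → t ^ 2 ≤ 1 := fun h0 h1 => pow_le_one₀ h0 h1
  have a1 := hsq dist_nonneg hxu
  have a2 := hsq dist_nonneg hxv
  have a3 := hsq dist_nonneg hpw
  have a4 := hsq dist_nonneg hp'w
  have b1 : x1 ^ 2 + x2 ^ 2 + 2 * |x1| ≤ p2 ^ 2 :=
    abs_form hr0 (by linarith) (by linarith)
  have b2 : w1 ^ 2 + w2 ^ 2 + 2 * |w2 * p2| ≤ 1 :=
    abs_form hr0 (by linarith) (by linarith)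
  have b3 := lens_real b1 b2
  constructor
  · have h1 : (x1 - w1) ^ 2 + (x2 - w2) ^ 2 ≤ 1 + p2 ^ 2 := by linarith
    have h2 : dist x w ^ 2 ≤ 1 := by
      have := mul_le_mul_of_nonneg_right h1 hr0.le
      linarith
    exact (sq_le_one_iff₀ dist_nonneg).1 h2
  · intro hxu2 hxv2
    have a1' : dist x u ^ 2 < 1 := (sq_lt_one_iff₀ dist_nonneg).2 hxu2
    have a2' : dist x v ^ 2 < 1 := (sq_lt_one_iff₀ dist_nonneg).2 hxv2
    have b1' : x1 ^ 2 + x2 ^ 2 + 2 * |x1| < p2 ^ 2 :=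
      abs_form_lt hr0 (by linarith) (by linarith)
    have h1 : (x1 - w1) ^ 2 + (x2 - w2) ^ 2 < 1 + p2 ^ 2 := by linarith
    have h2 : dist x w ^ 2 < 1 := by
      have := mul_lt_mul_of_pos_right h1 hr0
      linarith
    exact (sq_lt_one_iff₀ dist_nonneg).1 h2

/-- two common points -/
theorem exists_two {u v : ℂ} (huv : u ≠ v) (hd : dist u v < 2) : ∃ p p' : ℂ, dist p u = 1 ∧
    dist p v = 1 ∧ dist p' u = 1 ∧ dist p' v = 1 ∧ p ≠ p' ∧ u + v ≠ 2 * p ∧ u + v ≠ 2 * p' := by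
  have h0 : 0 < Complex.normSq (v - u) := Complex.normSq_pos.2 (sub_ne_zero.2 huv.symm)
  have h4 : Complex.normSq (v - u) < 4 := by
    have h1 : ‖v - u‖ < 2 := by rw [← dist_eq_norm, dist_comm]; exact hd
    have h2 := norm_nonneg (v - u)
    rw [← Complex.sq_norm]
    nlinarith
  obtain ⟨a1, a2⟩ := norm_Fp (ρ := 1) (by norm_num) h0 h4
  obtain ⟨b1, b2⟩ := norm_Fp (ρ := -1) (by norm_num) h0 h4
  have hne : ∀ p, dist p u = 1 → u + v ≠ 2 * p := by
    intro p hp hcon
    have e : p - u = (v - u) / 2 := by linear_combination (-1 / 2 : ℂ) * hcon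
    rw [dist_eq_norm, e, norm_div] at hp
    have h1 : ‖v - u‖ < 2 := by rw [← dist_eq_norm, dist_comm]; exact hd
    rw [Complex.norm_ofNat] at hp
    linarith
  have hd1 : dist (Fp 1 u v) u = 1 := by rw [dist_eq_norm]; exact a1
  have hd2 : dist (Fp (-1) u v) u = 1 := by rw [dist_eq_norm]; exact b1
  refine ⟨Fp 1 u v, Fp (-1) u v, hd1, by rw [dist_eq_norm]; exact a2, hd2,
    by rw [dist_eq_norm]; exact b2, fun hcon => ?_, hne _ hd1, hne _ hd2⟩
  have hsum : Fp 1 u v + Fp (-1) u v = u + v := by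
    unfold Fp
    push_cast
    ring
  apply hne _ hd1
  rw [← hsum, ← hcon]; ring

/-! ### complementary palettes of three colours -/

variable {U : Fin 6 → Set ℂ} {T : ℂ → Set (Fin 6)}

/-- **(C3)**, `hN` is `NoComp T` -/
theorem two_le_of_compl (h : Irr U T) (hN : ∀ z, (T z).ncard = 4 → ∀ v q, dist v z = 1 →
      dist q z = 1 → (T v).ncard = 3 → T q = (T v)ᶜ → v + q = 2 * z)
    (h4 : ∀ z, (T z).ncard ≤ 4) {u w : ℂ}
    (hu : (T u).ncard = 3) (hw : T w = (T u)ᶜ) : 2 ≤ dist u w := by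
  by_contra hcon
  push Not at hcon
  have hne : u ≠ w := by
    rintro rfl
    obtain ⟨i, hi⟩ := h.ne u
    have h1 := hi
    rw [hw] at h1
    exact h1 hi
  have hw3 : (T w).ncard = 3 := by
    have := Set.ncard_add_ncard_compl (T u)
    rw [hu, Nat.card_eq_fintype_card, Fintype.card_fin] at this
    rw [hw]; omega
  have hcov : ∀ i, i ∈ T u ∨ i ∈ T w := fun i => by
    rw [hw]; exact em _
  have key : ∀ q, dist q u = 1 → dist q w = 1 → u + w = 2 * q := by
    intro q hq hq'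
    by_contra hne2
    obtain ⟨t1, a1, a2, -⟩ := h.five hw3.le hcov hne hq hq' hne2 0
    obtain ⟨t2, b1, b2, b3⟩ := h.five hw3.le hcov hne hq hq' hne2 t1
    have hne2' : w + u ≠ 2 * q := by rwa [add_comm]
    obtain ⟨s1, c1, c2, -⟩ := h.five hu.le (fun i => (hcov i).symm) hne.symm hq' hq hne2' 0
    obtain ⟨s2, d1, d2, d3⟩ := h.five hu.le (fun i => (hcov i).symm) hne.symm hq' hq hne2' s1
    have hdis : ∀ {s t}, s ∈ T w → t ∈ T u → s ≠ t := by
      intro s t hs ht hst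
      rw [hw] at hs
      exact hs (hst ▸ ht)
    have hsub : ({s1, s2, t1, t2} : Set (Fin 6)) ⊆ T q := by
      rintro i (rfl | rfl | rfl | rfl)
      exacts [c1, d1, a1, b1]
    have hcard : ({s1, s2, t1, t2} : Set (Fin 6)).ncard = 4 := by
      rw [Set.ncard_insert_of_notMem, Set.ncard_insert_of_notMem, Set.ncard_pair b3.symm]
      · simp only [mem_insert_iff, mem_singleton_iff, not_or]
        exact ⟨hdis d2 a2, hdis d2 b2⟩
      · simp only [mem_insert_iff, mem_singleton_iff, not_or]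
        exact ⟨d3.symm, hdis c2 a2, hdis c2 b2⟩
    have h5 := Set.ncard_le_ncard hsub (Set.toFinite _)
    have hq4 : (T q).ncard = 4 := le_antisymm (h4 q) (by omega)
    exact hne2 (hN q hq4 u w (by rw [dist_comm]; exact hq) (by rw [dist_comm]; exact hq') hu hw)
  obtain ⟨p, p', h1, h2, h3, h5, h6, h7, h8⟩ := exists_two hne hcon
  exact h7 (key p h1 h2)

/-! ### a face and a two-pair point -/

/-- if near `p` the circle `S(V)` carries the colour `t` of `u`, `p` is no common point -/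
theorem no_const (h : Irr U T) {V u p : ℂ} (hpV : dist p V = 1) (hpu : dist p u = 1) (hne : u ≠ V)
    (hne2 : u + V ≠ 2 * p) {t : Fin 6} (ht : t ∈ T u)
    (hc : ∀ᶠ q in 𝓝[sphere V 1] p, t ∈ T q) : False := by
  rcases h.mx.partner_line (u := V) (p := p) (t := t) hpV
    (hc.mono fun q hq => h.sub q hq) hpu (h.sub u ht) with h1 | h1
  · exact hne h1
  · exact hne2 h1

/-- **the contact lemma** -/
theorem contact (h : Irr U T) {V u p : ℂ} {a b c d e f : Fin 6} (hV : DPt T V a b c d)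
    (nd : [a, b, c, d, e, f].Nodup) (hu : T u = {e, f, c}) (hpV : dist p V = 1)
    (hpu : dist p u = 1) (hne : u ≠ V) (hne2 : u + V ≠ 2 * p)
    (h3 : (T p).ncard ≤ 3 ∨ T p = T V) :
    p ∈ closure {q | dist q V = 1 ∧ T q = {a, b}} := by
  by_contra hcl
  have hall : ∀ i : Fin 6, i = a ∨ i = b ∨ i = c ∨ i = d ∨ i = e ∨ i = f := by
    intro i
    have h1 : (Finset.univ : Finset (Fin 6)) = [a, b, c, d, e, f].toFinset :=
      (Finset.eq_univ_of_card _ (by rw [List.toFinset_card_of_nodup nd]; rfl)).symm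
    have h2 := Finset.mem_univ i
    rw [h1] at h2
    simpa using h2
  have nd' := nd
  simp only [List.nodup_cons, List.mem_cons, List.not_mem_nil, or_false, not_or,
    List.nodup_nil, and_true, not_false_eq_true] at nd'
  obtain ⟨⟨hab, hac, had, hae, haf⟩, ⟨hbc, hbd, hbe, hbf⟩, ⟨hcd, hce, hcf⟩, ⟨hde, hdf⟩, hef⟩ := nd'
  have hu3 : (T u).ncard ≤ 3 := by
    rw [hu]
    refine (Set.ncard_insert_le _ _).trans ?_
    refine (Nat.succ_le_succ (Set.ncard_insert_le _ _)).trans ?_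
    simp
  -- two colours of `V` that are not colours of `u`
  have hX : ∀ t ∈ ({a, b, d} : Set (Fin 6)), ¬ T p ⊆ insert t (T u) := by
    intro t ht hsub
    have htV : t ∈ T V := by
      rw [hV.pal]
      rcases ht with rfl | rfl | rfl <;> simp
    rcases h.lemmaX hpu hu3 hsub hpV (h.sub V htV) with h1 | h1
    · exact hne h1.symm
    · exact hne2 (by rw [add_comm]; exact h1)
  -- the points of `S(V)` near `p`
  have hU : ∀ᶠ q in 𝓝[sphere V 1] p, T q ⊆ T p ∧ (e ∈ T q ∨ f ∈ T q ∨ c ∈ T q) := by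
    have h1 : ∀ᶠ q in 𝓝 p, q ∉ closure {q | dist q V = 1 ∧ T q = {a, b}} :=
      isClosed_closure.isOpen_compl.mem_nhds hcl
    filter_upwards [mem_nhdsWithin_of_mem_nhds (h.nhd p), mem_nhdsWithin_of_mem_nhds h1,
      self_mem_nhdsWithin] with q hq1 hq2 hq3
    have hqV : dist q V = 1 := hq3
    refine ⟨hq1, ?_⟩
    by_contra hcon
    push Not at hcon
    have hsub : T q ⊆ T V := by
      intro i hi
      rw [hV.pal]
      rcases hall i with rfl | rfl | rfl | rfl | rfl | rfl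
      · simp
      · simp
      · simp
      · simp
      · exact absurd hi hcon.1
      · exact absurd hi hcon.2.1
    refine hq2 (h.pair_near715 hV hqV hsub (x := c) (by rw [hV.pal]; simp) hcon.2.2 ?_)
    simp only [mem_insert_iff, mem_singleton_iff, not_or]
    exact ⟨fun h => hac h.symm, fun h => hbc h.symm⟩
  -- a constant colour
  have hC : ∀ t ∈ T u, (∀ i ∈ T p, i = e ∨ i = f ∨ i = c → i = t) → False := by
    intro t ht hi
    refine no_const h hpV hpu hne hne2 ht (hU.mono fun q hq => ?_)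
    rcases hq.2 with h1 | h1 | h1
    · rw [← hi e (hq.1 h1) (Or.inl rfl)]; exact h1
    · rw [← hi f (hq.1 h1) (Or.inr (Or.inl rfl))]; exact h1
    · rw [← hi c (hq.1 h1) (Or.inr (Or.inr rfl))]; exact h1
  have he : e ∈ T u := by rw [hu]; simp
  have hf : f ∈ T u := by rw [hu]; simp
  have hc : c ∈ T u := by rw [hu]; simp
  rcases h3 with h3 | h3
  · -- two colours of `{e, f, c}` and one of `{a, b, d}`
    obtain ⟨s, hs, t, ht, hst⟩ : ∃ s, (s ∈ T p ∧ (s = e ∨ s = f ∨ s = c)) ∧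
        ∃ t, (t ∈ T p ∧ (t = e ∨ t = f ∨ t = c)) ∧ s ≠ t := by
      by_contra hcon
      push Not at hcon
      have hsub : ∀ i, i = e ∨ i = f ∨ i = c → i ∈ T u := by
        rintro i (rfl | rfl | rfl) <;> assumption
      by_cases hex : ∃ s, s ∈ T p ∧ (s = e ∨ s = f ∨ s = c)
      · obtain ⟨s, hs⟩ := hex
        exact hC s (hsub s hs.2) fun i hi hi2 => (hcon s hs i ⟨hi, hi2⟩).symm
      · push Not at hex
        exact hC e he fun i hi hi2 => absurd hi2 (by
          have := hex i hi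
          tauto)
    have hTp : ∃ t, t ∈ ({a, b, d} : Set (Fin 6)) ∧ T p ⊆ insert t (T u) := by
      by_contra hcon
      push Not at hcon
      -- two colours of `{a, b, d}`
      obtain ⟨x, hx, hxu⟩ := not_subset.1 (hcon a (by simp))
      obtain ⟨y, hy, hyu⟩ := not_subset.1 (hcon x (by
        simp only [mem_insert_iff, hu, mem_singleton_iff, not_or] at hxu ⊢
        rcases hall x with h1 | h1 | h1 | h1 | h1 | h1 <;> simp_all))
      have hsu : ∀ i, i = e ∨ i = f ∨ i = c → i ∈ T u := by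
        rintro i (rfl | rfl | rfl) <;> assumption
      have hsub : ({x, y, s, t} : Set (Fin 6)) ⊆ T p := by
        rintro i (rfl | rfl | rfl | rfl)
        exacts [hx, hy, hs.1, ht.1]
      rw [mem_insert_iff, not_or] at hxu hyu
      have h5 := Set.ncard_le_ncard hsub (Set.toFinite _)
      have hcard : ({x, y, s, t} : Set (Fin 6)).ncard = 4 := by
        rw [Set.ncard_insert_of_notMem, Set.ncard_insert_of_notMem, Set.ncard_pair hst]
        · simp only [mem_insert_iff, mem_singleton_iff, not_or]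
          exact ⟨fun h => hyu.2 (h ▸ hsu s hs.2), fun h => hyu.2 (h ▸ hsu t ht.2)⟩
        · simp only [mem_insert_iff, mem_singleton_iff, not_or]
          exact ⟨fun h => hyu.1 h.symm, fun h => hxu.2 (h ▸ hsu s hs.2),
            fun h => hxu.2 (h ▸ hsu t ht.2)⟩
      omega
    obtain ⟨t', ht', hsub⟩ := hTp
    exact hX t' ht' hsub
  · refine hC c hc fun i hi hi2 => ?_
    rw [h3, hV.pal] at hi
    rcases hi2 with rfl | rfl | rfl
    · simp only [mem_insert_iff, mem_singleton_iff] at hi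
      exfalso
      rcases hi with h1 | h1 | h1 | h1
      exacts [hae h1.symm, hbe h1.symm, hce h1.symm, hde h1.symm]
    · simp only [mem_insert_iff, mem_singleton_iff] at hi
      exfalso
      rcases hi with h1 | h1 | h1 | h1
      exacts [haf h1.symm, hbf h1.symm, hcf h1.symm, hdf h1.symm]
    · rfl

end Vale.Agent.P032.H383
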