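import Vale.Agent.P032.H383.Far2

/-!
# P032: complements of the faces of the next but one vertex, faces of harmless points included

The same as `Far2.lean` for a face `s` of `u` (`Fc T u s`: three colours of `T u`, no palette of the
circle of `u` inside `s`), `s` the complement of the face `{a, b, d}` of the two-pair point `V`.
-/

open Set Filter Topology Metric

noncomputable section

namespace Vale.Agent.P032.H383

open Vale.Agent.P032.Six Vale.Agent.P032.S5.H767 Vale.Agent.P032.H227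

variable {U : Fin 6 → Set ℂ} {T : ℂ → Set (Fin 6)} {s : Set (Fin 6)}

theorem fc_ne {u V : ℂ} {a b c d : Fin 6} (F : Fc T u s) (hV : DPt T V a b c d)
    (hs : s = ({a, b, d} : Set (Fin 6))ᶜ) (h : Irr U T) : u ≠ V := by
  rintro rfl
  obtain ⟨p, hp, hpJ⟩ := hV.arc2
  obtain ⟨q, hq, hqJ⟩ := hV.arc1
  -- a colour of `s` which is no colour of `V`
  have h1 : (sᶜ : Set (Fin 6)) = {a, b, d} := by rw [hs, compl_compl]
  have h2 : s ⊆ ({a, b, c, d} : Set (Fin 6)) := by rw [← hV.pal]; exact F.sub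
  have h3 : s ⊆ {c} := by
    intro i hi
    have h4 := h2 hi
    rw [hs] at hi
    simp only [mem_compl_iff, mem_insert_iff, mem_singleton_iff, not_or] at hi
    simp only [mem_insert_iff, mem_singleton_iff] at h4 ⊢
    tauto
  have h5 : (s).ncard ≤ 1 := (Set.ncard_le_ncard h3 (Set.toFinite _)).trans (by simp)
  have h6 : s.ncard + (sᶜ : Set (Fin 6)).ncard = 6 := by
    have := Set.ncard_add_ncard_compl s
    rw [this]
    simp
  have h7 : (sᶜ : Set (Fin 6)).ncard ≤ 3 := by
    rw [h1]
    exact Set.ncard_insert_le _ _ |>.trans (by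
      have := Set.ncard_insert_le b ({d} : Set (Fin 6))
      simp only [Set.ncard_singleton] at this
      omega)
  omega

/-- (CV) for a face of `u` -/
theorem contact_fc (h : Irr U T) {u V p : ℂ} {a b c d : Fin 6} (hV : DPt T V a b c d)
    (F : Fc T u s) (hs : s = ({a, b, d} : Set (Fin 6))ᶜ) (hpu : dist p u = 1)
    (hpV : dist p V = 1) (hne2 : u + V ≠ 2 * p) :
    p ∈ closure (Ex T V {a, b}) ∨ (2 ≤ (T p ∩ s).ncard ∧ 2 ≤ (T p ∩ sᶜ).ncard) := by
  by_cases hp : p ∈ closure (Ex T V {a, b})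
  · exact Or.inl hp
  right
  have hne : u ≠ V := fc_ne F hV hs h
  have hcomp : sᶜ = {a, b, d} := by rw [hs, compl_compl]
  refine ⟨?_, ?_⟩
  · refine two_of_full h hpV hpu hne (by exact hne2) (s' := {a, b, d}) F.sub
      (fun i => by rw [hs]; exact (em (i ∈ ({a, b, d} : Set (Fin 6)))).symm) ?_
    have hev : ∀ᶠ y in 𝓝[sphere V 1] p, ∀ᶠ q in 𝓝 y, q ∉ closure (Ex T V {a, b}) := by
      have h1 : IsOpen (closure (Ex T V {a, b}))ᶜ := isClosed_closure.isOpen_compl
      filter_upwards [mem_nhdsWithin_of_mem_nhds (h1.mem_nhds hp)] with y hy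
      exact h1.mem_nhds hy
    filter_upwards [hev, self_mem_nhdsWithin] with y hy hyV hsub
    have hyV : dist y V = 1 := hyV
    have hsubV : T y ⊆ T V := by
      rw [hV.pal]
      intro i hi
      rcases hsub hi with h1 | h1 | h1
      · exact Or.inl h1
      · exact Or.inr (Or.inl h1)
      · exact Or.inr (Or.inr (Or.inr h1))
    obtain ⟨q, hq, hqV, hloc, hqy, -, -⟩ := h.arc_of_sub hyV hsubV (V := {q | q ∉ closure
      (Ex T V {a, b})}) hy
    rcases h.twoPairs hV q hqV hloc (hqy.trans hsubV) with h1 | h1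
    · refine hq (subset_closure ⟨hqV, ?_⟩)
      exact hloc.mono fun q' h2 => h2.trans h1
    · have h2 : c ∈ T q := by rw [h1]; simp
      rcases hsub (hqy h2) with h3 | h3 | h3
      · exact hV.ac h3.symm
      · exact hV.bc h3.symm
      · exact hV.cd h3
  · rw [hcomp]
    refine two_of_full h hpu hpV hne.symm (by rw [add_comm]; exact hne2) (s' := s) ?_
      (fun i => by rw [hs]; exact em _) ?_
    · rw [hV.pal]
      intro i hi
      rcases hi with h1 | h1 | h1
      · exact Or.inl h1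
      · exact Or.inr (Or.inl h1)
      · exact Or.inr (Or.inr (Or.inr h1))
    · filter_upwards [self_mem_nhdsWithin] with y hy hsub
      exact F.full y hy hsub

/-- a contact of order at most three -/
theorem contact_fc3 (h : Irr U T) {u V p : ℂ} {a b c d : Fin 6} (hV : DPt T V a b c d)
    (F : Fc T u s) (hs : s = ({a, b, d} : Set (Fin 6))ᶜ) (hpu : dist p u = 1)
    (hpV : dist p V = 1) (hne2 : u + V ≠ 2 * p) (hp3 : (T p).ncard ≤ 3) :
    p ∈ closure (Ex T V {a, b}) := by
  refine (contact_fc h hV F hs hpu hpV hne2).resolve_right fun ⟨h1, h2⟩ => ?_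
  have h4 := Set.ncard_inter_add_ncard_sdiff_eq_ncard (T p) s (Set.toFinite _)
  rw [Set.sdiff_eq] at h4
  omega

/-- **faces of harmless points and three-points, open disc** -/
theorem far_two_fc (h : Irr U T) {u V V1 w : ℂ} {a b c d : Fin 6} (hV : DPt T V a b c d)
    (F : Fc T u s) (hs : s = ({a, b, d} : Set (Fin 6))ᶜ)
    (hcon : ∀ p, dist p u = 1 → dist p V = 1 → p ∈ closure (Ex T V {a, b}) ∨ (T p).ncard ≤ 3)
    (ho : ∀ p ∈ closure (Ex T V {a, b}), dist V1 p ≤ 1) (hne1 : V1 ≠ V)
    (hw1 : dist w V1 = 1) (hwV : dist w V ≤ 1) : 1 ≤ dist w u := by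
  by_contra hcl
  push Not at hcl
  have hlt : dist u V < 2 := by
    have := dist_triangle u w V
    rw [dist_comm u w] at this
    linarith
  have hne : u ≠ V := fc_ne F hV hs h
  obtain ⟨p, p', hpp, h1, h2, h1', h2', e, e'⟩ := exists_two hlt hne
  have key : ∀ q, dist q u = 1 → dist q V = 1 → u + V ≠ 2 * q → dist V1 q ≤ 1 := by
    intro q g1 g2 g3
    refine ho q ?_
    rcases hcon q g1 g2 with h4 | h4
    · exact h4
    · exact contact_fc3 h hV F hs g1 g2 g3 h4
  have := lens_half h1 h2 h1' h2' hpp hne (key p h1 h2 e) (key p' h1' h2' e') hne1 hcl hwV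
  rw [hw1] at this
  exact lt_irrefl _ this

/-- the same, closed disc -/
theorem far_two_fc_lt (h : Irr U T) {u V V1 w : ℂ} {a b c d : Fin 6} (hV : DPt T V a b c d)
    (F : Fc T u s) (hs : s = ({a, b, d} : Set (Fin 6))ᶜ)
    (hcon : ∀ p, dist p u = 1 → dist p V = 1 → p ∈ closure (Ex T V {a, b}) ∨ (T p).ncard ≤ 3)
    (ho : ∀ p ∈ closure (Ex T V {a, b}), dist V1 p < 1)
    (hw1 : dist w V1 = 1) (hwV : dist w V < 1) : 1 < dist w u := by
  rcases lt_or_ge (dist u V) 2 with hlt | h2
  swap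
  · have := dist_triangle u w V
    rw [dist_comm u w] at this
    linarith
  by_contra hcl
  push Not at hcl
  have hne : u ≠ V := fc_ne F hV hs h
  obtain ⟨p, p', hpp, h1, h2, h1', h2', e, e'⟩ := exists_two hlt hne
  have key : ∀ q, dist q u = 1 → dist q V = 1 → u + V ≠ 2 * q → dist V1 q < 1 := by
    intro q g1 g2 g3
    refine ho q ?_
    rcases hcon q g1 g2 with h4 | h4
    · exact h4
    · exact contact_fc3 h hV F hs g1 g2 g3 h4
  have := lens_in h1 h2 h1' h2' hpp hne (key p h1 h2 e) (key p' h1' h2' e') hcl hwV.le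
  rw [hw1] at this
  exact lt_irrefl _ this

/-- the contacts at distance at most one: the face is at distance at least root three -/
theorem far_three_fc (h : Irr U T) {u V : ℂ} {a b c d : Fin 6}
    (hV : DPt T V a b c d) (F : Fc T u s) (hs : s = ({a, b, d} : Set (Fin 6))ᶜ)
    (hcon : ∀ p, dist p u = 1 → dist p V = 1 → p ∈ closure (Ex T V {a, b}) ∨ (T p).ncard ≤ 3)
    (diam : ∀ p ∈ closure (Ex T V {a, b}), ∀ q ∈ closure (Ex T V {a, b}), dist p q ≤ 1) :
    3 ≤ dist u V ^ 2 := by
  rcases lt_or_ge (dist u V) 2 with h2 | h2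
  swap
  · nlinarith
  have hne : u ≠ V := fc_ne F hV hs h
  obtain ⟨p, p', hpp, h1, h4, h1', h4', e, e'⟩ := exists_two h2 hne
  have key : ∀ q, dist q u = 1 → dist q V = 1 → u + V ≠ 2 * q → q ∈ closure (Ex T V {a, b}) := by
    intro q g1 g2 g3
    rcases hcon q g1 g2 with h5 | h5
    · exact h5
    · exact contact_fc3 h hV F hs g1 g2 g3 h5
  exact three_le h1 h4 h1' h4' hpp hne (diam p (key p h1 h4 e) p' (key p' h1' h4' e'))

end Vale.Agent.P032.H383
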