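import Vale.Agent.P032.H383.Alt
import Vale.Agent.P032.H383.Far3

/-!
# P032: contacts which are two-pair points

`V` a two-pair point with the pairs `ab | cd`, `u` with the face `s`, the complement of `{a, b, d}`.  A
contact `p` of `S(u)` and `S(V)` off the closure of the exact `ab`-arcs which is a two-pair point has no
pair with one colour of `s` and one colour of the complement (`contact_pairs`).
-/

open Set Filter Topology Metric

noncomputable section

namespace Vale.Agent.P032.H383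

open Vale.Agent.P032.Six Vale.Agent.P032.S5.H767 Vale.Agent.P032.H227

variable {U : Fin 6 → Set ℂ} {T : ℂ → Set (Fin 6)} {s : Set (Fin 6)}

/-- near a contact off the exact `ab`-arcs the circle of `V` is never inside `{a, b, d}` -/
theorem full_near (h : Irr U T) {V p : ℂ} {a b c d : Fin 6} (hV : DPt T V a b c d)
    (hp : p ∉ closure (Ex T V {a, b})) :
    ∀ᶠ y in 𝓝[sphere V 1] p, ¬ T y ⊆ {a, b, d} := by
  have hev : ∀ᶠ y in 𝓝[sphere V 1] p, ∀ᶠ q in 𝓝 y, q ∉ closure (Ex T V {a, b}) := by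
    have h1 : IsOpen (closure (Ex T V {a, b}))ᶜ := isClosed_closure.isOpen_compl
    filter_upwards [mem_nhdsWithin_of_mem_nhds (h1.mem_nhds hp)] with y hy
    exact h1.mem_nhds hy
  filter_upwards [hev, self_mem_nhdsWithin] with y hy hyV hsub
  have hyV : dist y V = 1 := hyV
  have hsubV : T y ⊆ T V := by
    rw [hV.pal]
    intro i hi
    rcases hsub hi with h1 | h1 | h1
    · exact Or.inl h1
    · exact Or.inr (Or.inl h1)
    · exact Or.inr (Or.inr (Or.inr h1))
  obtain ⟨q, hq, hqV, hloc, hqy, -, -⟩ := h.arc_of_sub hyV hsubV (V := {q | q ∉ closure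
    (Ex T V {a, b})}) hy
  rcases h.twoPairs hV q hqV hloc (hqy.trans hsubV) with h1 | h1
  · refine hq (subset_closure ⟨hqV, ?_⟩)
    exact hloc.mono fun q' h2 => h2.trans h1
  · have h2 : c ∈ T q := by rw [h1]; simp
    rcases hsub (hqy h2) with h3 | h3 | h3
    · exact hV.ac h3.symm
    · exact hV.bc h3.symm
    · exact hV.cd h3

/-- **no crossed contact** -/
theorem contact_pairs (h : Irr U T) {u V p : ℂ} {a b c d t1 r1 t2 r2 : Fin 6}
    (hV : DPt T V a b c d) (F : Fc T u s) (hs : s = ({a, b, d} : Set (Fin 6))ᶜ)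
    (hpu : dist p u = 1) (hpV : dist p V = 1) (hne2 : u + V ≠ 2 * p)
    (hp : DPt T p t1 r1 t2 r2) (h1 : t1 ∈ s) (h2 : t2 ∈ s) (h3 : r1 ∉ s) (h4 : r2 ∉ s) :
    p ∈ closure (Ex T V {a, b}) := by
  by_contra hcl
  have hne : u ≠ V := fc_ne F hV hs h
  have hmem : ∀ i, i ∉ s → i ∈ ({a, b, d} : Set (Fin 6)) := by
    intro i hi
    rw [hs, mem_compl_iff, not_not] at hi
    exact hi
  have hTV : ∀ i, i ∉ s → i ∈ T V := by
    intro i hi
    rw [hV.pal]
    rcases hmem i hi with h5 | h5 | h5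
    · exact Or.inl h5
    · exact Or.inr (Or.inl h5)
    · exact Or.inr (Or.inr (Or.inr h5))
  refine alt h hp (by rw [dist_comm]; exact hpV) (by rw [dist_comm]; exact hpu) hne hne2
    (hTV r1 h3) (hTV r2 h4) ?_ ?_
  · filter_upwards [full_near h hV hcl, mem_nhdsWithin_of_mem_nhds (h.nhd p)] with y hy hyp
    by_contra hcon
    push Not at hcon
    refine hy fun i hi => ?_
    have h5 := hyp hi
    rw [hp.pal] at h5
    rcases h5 with rfl | rfl | rfl | h5
    · exact absurd hi hcon.1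
    · exact hmem _ h3
    · exact absurd hi hcon.2
    · rw [mem_singleton_iff] at h5
      subst h5
      exact hmem _ h4
  · filter_upwards [self_mem_nhdsWithin, mem_nhdsWithin_of_mem_nhds (h.nhd p)] with y hyu hyp
    by_contra hcon
    push Not at hcon
    refine F.full y hyu fun i hi => ?_
    have h5 := hyp hi
    rw [hp.pal] at h5
    rcases h5 with rfl | rfl | rfl | h5
    · exact h1
    · exact absurd hi hcon.1
    · exact h2
    · rw [mem_singleton_iff] at h5
      subst h5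
      exact absurd hi hcon.2

/-- a contact with at most one colour of `s` or at most one of the complement (`T p = T V`, `T1`) -/
theorem contact_count (h : Irr U T) {u V p : ℂ} {a b c d : Fin 6} (hV : DPt T V a b c d)
    (F : Fc T u s) (hs : s = ({a, b, d} : Set (Fin 6))ᶜ) (hpu : dist p u = 1)
    (hpV : dist p V = 1) (hne2 : u + V ≠ 2 * p)
    (hc : (T p ∩ s).ncard ≤ 1 ∨ (T p ∩ sᶜ).ncard ≤ 1) : p ∈ closure (Ex T V {a, b}) := by
  rcases contact_fc h hV F hs hpu hpV hne2 with h1 | ⟨h1, h2⟩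
  · exact h1
  · omega

/-- off the closures of the exact arcs the circle of `V` is never inside `T V` -/
theorem full_near4 (h : Irr U T) {V p : ℂ} {a b c d : Fin 6} (hV : DPt T V a b c d)
    (hp : p ∉ closure (Ex T V {a, b})) (hp' : p ∉ closure (Ex T V {c, d})) :
    ∀ᶠ y in 𝓝[sphere V 1] p, ¬ T y ⊆ T V := by
  have hev : ∀ᶠ y in 𝓝[sphere V 1] p, ∀ᶠ q in 𝓝 y, q ∉ closure (Ex T V {a, b}) ∧
      q ∉ closure (Ex T V {c, d}) := by
    have h1 : IsOpen (closure (Ex T V {a, b}))ᶜ := isClosed_closure.isOpen_compl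
    have h2 : IsOpen (closure (Ex T V {c, d}))ᶜ := isClosed_closure.isOpen_compl
    filter_upwards [mem_nhdsWithin_of_mem_nhds (h1.mem_nhds hp),
      mem_nhdsWithin_of_mem_nhds (h2.mem_nhds hp')] with y hy hy'
    exact Filter.inter_mem (h1.mem_nhds hy) (h2.mem_nhds hy')
  filter_upwards [hev, self_mem_nhdsWithin] with y hy hyV hsub
  have hyV : dist y V = 1 := hyV
  obtain ⟨q, hq, hqV, hloc, hqy, -, -⟩ := h.arc_of_sub hyV hsub (V := {q | q ∉ closure
    (Ex T V {a, b}) ∧ q ∉ closure (Ex T V {c, d})}) hy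
  rcases h.twoPairs hV q hqV hloc (hqy.trans hsub) with h1 | h1
  · refine hq.1 (subset_closure ⟨hqV, ?_⟩)
    exact hloc.mono fun q' h2 => h2.trans h1
  · refine hq.2 (subset_closure ⟨hqV, ?_⟩)
    exact hloc.mono fun q' h2 => h2.trans h1

/-- two of three colours -/
theorem two3 (S : Set (Fin 6)) {x y z : Fin 6} (hxy : x ≠ y) (hxz : x ≠ z) (hyz : y ≠ z)
    (h2 : (S ∩ {x, y, z}).ncard = 2) : (x ∈ S ∧ y ∈ S ∧ z ∉ S) ∨ (x ∈ S ∧ y ∉ S ∧ z ∈ S) ∨
      (x ∉ S ∧ y ∈ S ∧ z ∈ S) := by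
  have one : ∀ w : Fin 6, S ∩ {x, y, z} ⊆ {w} → False := by
    intro w hw
    have h3 := Set.ncard_le_ncard hw (Set.toFinite _)
    rw [Set.ncard_singleton] at h3
    omega
  by_cases hx : x ∈ S <;> by_cases hy : y ∈ S <;> by_cases hz : z ∈ S
  · exfalso
    have h3 : S ∩ {x, y, z} = {x, y, z} := by
      rw [inter_eq_right]
      rintro i (rfl | rfl | rfl) <;> assumption
    rw [h3, Set.ncard_eq_three.2 ⟨x, y, z, hxy, hxz, hyz, rfl⟩] at h2
    omega
  · exact Or.inl ⟨hx, hy, hz⟩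
  · exact Or.inr (Or.inl ⟨hx, hy, hz⟩)
  · refine (one x ?_).elim
    rintro i ⟨h3, rfl | rfl | rfl⟩
    exacts [rfl, absurd h3 hy, absurd h3 hz]
  · exact Or.inr (Or.inr ⟨hx, hy, hz⟩)
  · refine (one y ?_).elim
    rintro i ⟨h3, rfl | rfl | rfl⟩
    exacts [absurd h3 hx, rfl, absurd h3 hz]
  · refine (one z ?_).elim
    rintro i ⟨h3, rfl | rfl | rfl⟩
    exacts [absurd h3 hx, absurd h3 hy, rfl]
  · refine (one x ?_).elim
    rintro i ⟨h3, rfl | rfl | rfl⟩
    exacts [rfl, absurd h3 hy, absurd h3 hz]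

/-- **types of the contacts of order four** -/
theorem contact_cases (h : Irr U T) {u V p : ℂ} {a b c d e f : Fin 6}
    (nd : [a, b, c, d, e, f].Nodup) (hV : DPt T V a b c d) (F : Fc T u s)
    (hs : s = ({a, b, d} : Set (Fin 6))ᶜ) (hpu : dist p u = 1) (hpV : dist p V = 1)
    (hne2 : u + V ≠ 2 * p) (h4 : (T p).ncard ≤ 4) : p ∈ closure (Ex T V {a, b}) ∨
      (p ∈ closure (Ex T V {c, d}) ∧ ((e ∈ T p ∧ f ∉ T p) ∨ (f ∈ T p ∧ e ∉ T p)) ∧
        ((a ∈ T p ∧ b ∉ T p) ∨ (b ∈ T p ∧ a ∉ T p)) ∧ c ∈ T p ∧ d ∈ T p) ∨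
      (e ∈ T p ∧ f ∈ T p ∧ c ∉ T p) := by
  classical
  rcases contact_fc h hV F hs hpu hpV hne2 with h0 | ⟨h1, h2⟩
  · exact Or.inl h0
  by_cases hcl : p ∈ closure (Ex T V {a, b})
  · exact Or.inl hcl
  right
  have hne : u ≠ V := fc_ne F hV hs h
  simp only [List.nodup_cons, List.mem_cons, List.not_mem_nil, or_false, not_or,
    List.nodup_nil, and_true, not_false_eq_true] at nd
  obtain ⟨⟨hab, hac, had, hae, haf⟩, ⟨hbc, hbd, hbe, hbf⟩, ⟨hcd, hce, hcf⟩, ⟨hde, hdf⟩, hef⟩ := nd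
  have hall : ∀ i : Fin 6, i = a ∨ i = b ∨ i = c ∨ i = d ∨ i = e ∨ i = f := by
    have h5 : ({a, b, c, d, e, f} : Finset (Fin 6)) = Finset.univ := by
      apply Finset.eq_univ_of_card
      rw [Finset.card_insert_of_notMem (by simp [hab, hac, had, hae, haf]),
        Finset.card_insert_of_notMem (by simp [hbc, hbd, hbe, hbf]),
        Finset.card_insert_of_notMem (by simp [hcd, hce, hcf]),
        Finset.card_insert_of_notMem (by simp [hde, hdf]), Finset.card_pair hef]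
      rfl
    intro i
    have h6 : i ∈ ({a, b, c, d, e, f} : Finset (Fin 6)) := by rw [h5]; simp
    simpa using h6
  have hs1 : s = {c, e, f} := by
    ext i
    rw [hs]
    simp only [mem_compl_iff, mem_insert_iff, mem_singleton_iff, not_or]
    constructor
    · rintro ⟨h6, h7, h8⟩
      rcases hall i with h9 | h9 | h9 | h9 | h9 | h9 <;> tauto
    · rintro (h6 | h6 | h6)
      · subst h6; exact ⟨Ne.symm hac, Ne.symm hbc, hcd⟩
      · subst h6; exact ⟨Ne.symm hae, Ne.symm hbe, Ne.symm hde⟩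
      · subst h6; exact ⟨Ne.symm haf, Ne.symm hbf, Ne.symm hdf⟩
  have hs2 : sᶜ = {a, b, d} := by rw [hs, compl_compl]
  have hsum := Set.ncard_inter_add_ncard_sdiff_eq_ncard (T p) s (Set.toFinite _)
  rw [Set.sdiff_eq] at hsum
  have k1 : (T p ∩ s).ncard = 2 := by omega
  have k2 : (T p ∩ sᶜ).ncard = 2 := by omega
  rw [hs1] at k1
  rw [hs2] at k2
  have A1 := two3 (T p) hce hcf hef k1
  have A2 := two3 (T p) hab had hbd k2
  -- the colour `g` alone around `p` is impossible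
  have cu : ∀ i, i ≠ a → i ≠ b → i ≠ d → i ∈ T u := by
    intro i i1 i2 i3
    apply F.sub
    rw [hs]
    simp only [mem_compl_iff, mem_insert_iff, mem_singleton_iff, not_or]
    exact ⟨i1, i2, i3⟩
  have one : ∀ g, g ∈ T u → (∀ i ∈ T p, i ∈ T V ∨ i = g) →
      p ∈ closure (Ex T V {c, d}) := by
    intro g hg hgp
    by_contra hcd2
    refine h.not_eventually hpV hpu hne hne2 hg ?_
    filter_upwards [full_near4 h hV hcl hcd2, mem_nhdsWithin_of_mem_nhds (h.nhd p)] with y hy hyp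
    by_contra hgy
    refine hy fun i hi => ?_
    rcases hgp i (hyp hi) with h5 | h5
    · exact h5
    · exact absurd (h5 ▸ hi) hgy
  have hTV : ∀ i, i ∈ T V ↔ i = a ∨ i = b ∨ i = c ∨ i = d := by
    intro i; rw [hV.pal]; simp
  rcases A1 with ⟨p1, p2, p3⟩ | ⟨p1, p2, p3⟩ | ⟨p1, p2, p3⟩
  · left
    have hc1 := one e (cu e (Ne.symm hae) (Ne.symm hbe) (Ne.symm hde)) (by
      intro i hi
      rcases hall i with h9 | h9 | h9 | h9 | h9 | h9
      · exact Or.inl ((hTV i).2 (by tauto))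
      · exact Or.inl ((hTV i).2 (by tauto))
      · exact Or.inl ((hTV i).2 (by tauto))
      · exact Or.inl ((hTV i).2 (by tauto))
      · exact Or.inr h9
      · exact absurd (h9 ▸ hi) p3)
    have hcd' := sub_of_closure h hc1
    have hd : d ∈ T p := hcd' (by simp)
    refine ⟨hc1, Or.inl ⟨p2, p3⟩, ?_, p1, hd⟩
    rcases A2 with ⟨q1, q2, q3⟩ | ⟨q1, q2, q3⟩ | ⟨q1, q2, q3⟩
    · exact absurd hd q3
    · exact Or.inl ⟨q1, q2⟩
    · exact Or.inr ⟨q2, q1⟩
  · left
    have hc1 := one f (cu f (Ne.symm haf) (Ne.symm hbf) (Ne.symm hdf)) (by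
      intro i hi
      rcases hall i with h9 | h9 | h9 | h9 | h9 | h9
      · exact Or.inl ((hTV i).2 (by tauto))
      · exact Or.inl ((hTV i).2 (by tauto))
      · exact Or.inl ((hTV i).2 (by tauto))
      · exact Or.inl ((hTV i).2 (by tauto))
      · exact absurd (h9 ▸ hi) p2
      · exact Or.inr h9)
    have hcd' := sub_of_closure h hc1
    have hd : d ∈ T p := hcd' (by simp)
    refine ⟨hc1, Or.inr ⟨p3, p2⟩, ?_, p1, hd⟩
    rcases A2 with ⟨q1, q2, q3⟩ | ⟨q1, q2, q3⟩ | ⟨q1, q2, q3⟩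
    · exact absurd hd q3
    · exact Or.inl ⟨q1, q2⟩
    · exact Or.inr ⟨q2, q1⟩
  · right
    exact ⟨p2, p3, p1⟩

end Vale.Agent.P032.H383
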