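import Vale.Agent.P032.H383.Far3
import Vale.Agent.P032.H961.QF
import Vale.Agent.P032.S5.H767.RawT

/-!
# P032: faces complementary to a face of the next but one vertex, in the language of `QF`
-/

open Set Filter Topology Metric

noncomputable section

namespace Vale.Agent.P032.H383

open Vale.Agent.P032.Six Vale.Agent.P032.S5.H767 Vale.Agent.P032.H227 Vale.Agent.P032.H961

variable {U : Fin 6 → Set ℂ} {T : ℂ → Set (Fin 6)} {V V1 V2 : ℂ} {a b m n e f : Fin 6}

/-- the closure of the exact arcs of the connecting pair is the closed arc -/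
theorem qf_closure (H : QF0 T V a b m n e f V1 V2) : ∃ s t : ℝ, s < t ∧ t < s + 1 ∧
    (V1 = pt V t ∧ V2 = pt V s ∨ V1 = pt V s ∧ V2 = pt V t) ∧
    closure (Ex T V {a, b}) = pt V '' Icc s t := by
  obtain ⟨s, t, hst, hlt, hV, hex, hin⟩ := H.arc
  refine ⟨s, t, hst, hlt, hV, Subset.antisymm (closure_arc fun y hy => ?_) ?_⟩
  · have h1 := ex_self hy
    exact hin y hy.1 (by rw [h1]; simp) (by rw [h1]; simp)
  · have h1 : pt V '' Ioo s t ⊆ Ex T V {a, b} := by
      rintro _ ⟨u, hu, rfl⟩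
      exact mem_Ex_of V (mem_of_superset (Ioo_mem_nhds hu.1 hu.2) hex)
    rw [← closure_Ioo hst.ne]
    exact (image_closure_subset_closure_image (continuous_pt V)).trans (closure_mono h1)

/-- a contact of order at least four is an end of the arc -/
theorem qf_contact (H : QF0 T V a b m n e f V1 V2) {p : ℂ} (hp : dist p V = 1) :
    p ∈ closure (Ex T V {a, b}) ∨ (T p).ncard ≤ 3 := by
  by_cases h3 : (T p).ncard ≤ 3
  · exact Or.inr h3
  left
  obtain ⟨s, t, hst, -, hV, hcl⟩ := qf_closure H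
  rw [hcl]
  push Not at h3
  rcases H.ord p hp h3 with rfl | rfl <;> rcases hV with ⟨h1, h2⟩ | ⟨h1, h2⟩
  · rw [h1]; exact ⟨t, right_mem_Icc.2 hst.le, rfl⟩
  · rw [h1]; exact ⟨s, left_mem_Icc.2 hst.le, rfl⟩
  · rw [h2]; exact ⟨s, left_mem_Icc.2 hst.le, rfl⟩
  · rw [h2]; exact ⟨t, right_mem_Icc.2 hst.le, rfl⟩

/-- the closed arc is in the open unit disc of each of its ends -/
theorem qf_ends (H : QF0 T V a b m n e f V1 V2) {p : ℂ} (hp : p ∈ closure (Ex T V {a, b})) :
    dist V1 p < 1 ∧ dist V2 p < 1 := by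
  obtain ⟨s, t, hst, hlt, hV, hcl⟩ := qf_closure H
  rw [hcl] at hp
  obtain ⟨u, hu, rfl⟩ := hp
  have h1 : dist (pt V t) (pt V u) < 1 := dist_pt_lt V (abs_lt.2 ⟨by linarith [hu.2], by
    linarith [hu.1]⟩)
  have h2 : dist (pt V s) (pt V u) < 1 := dist_pt_lt V (abs_lt.2 ⟨by linarith [hu.2], by
    linarith [hu.1]⟩)
  rcases hV with ⟨rfl, rfl⟩ | ⟨rfl, rfl⟩
  exacts [⟨h1, h2⟩, ⟨h2, h1⟩]

/-- two points of the closed arc are at distance less than one -/
theorem qf_diam (H : QF0 T V a b m n e f V1 V2) {p q : ℂ} (hp : p ∈ closure (Ex T V {a, b}))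
    (hq : q ∈ closure (Ex T V {a, b})) : dist p q < 1 := by
  obtain ⟨s, t, hst, hlt, hV, hcl⟩ := qf_closure H
  rw [hcl] at hp hq
  obtain ⟨u, hu, rfl⟩ := hp
  obtain ⟨v, hv, rfl⟩ := hq
  exact dist_pt_lt V (abs_lt.2 ⟨by linarith [hu.1, hv.2], by linarith [hu.2, hv.1]⟩)

theorem qf_dist (H : QF0 T V a b m n e f V1 V2) : dist V1 V = 1 ∧ dist V2 V = 1 ∧
    dist V1 V2 < 1 := by
  obtain ⟨s, t, hst, hlt, hV, hcl⟩ := qf_closure H
  have h1 : dist (pt V t) (pt V s) < 1 := dist_pt_lt V (abs_lt.2 ⟨by linarith, by linarith⟩)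
  rcases hV with ⟨rfl, rfl⟩ | ⟨rfl, rfl⟩
  · exact ⟨dist_pt V t, dist_pt V s, h1⟩
  · exact ⟨dist_pt V s, dist_pt V t, by rw [dist_comm]; exact h1⟩

/-- **(B4) for the next but one vertex.** `W` a quasi-full point one of whose arc ends is `V1`, the
point `V0` is at distance one from `V1` and less than one from `W`.  A face complementary to a face of
`W` (three-point or harmless) is not in the closed disc of `V0`. -/
theorem qf_far2 (h : Irr U T) {W W' V1 V0 u : ℂ} {s : Set (Fin 6)}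
    (H : QF0 T W a b m n e f W' V1 ∨ QF0 T W a b m n e f V1 W') (hd : dist V0 V1 = 1)
    (hW : dist V0 W < 1) (F : Fc T u s)
    (hs : s = ({a, b, m} : Set (Fin 6))ᶜ ∨ s = ({a, b, n} : Set (Fin 6))ᶜ) : 1 < dist V0 u := by
  have key : ∀ d c : Fin 6, DPt T W a b c d → s = ({a, b, d} : Set (Fin 6))ᶜ → 1 < dist V0 u := by
    intro d c hD hsd
    refine far_two_fc_lt h hD F hsd (fun p _ hpW => ?_) (V1 := V1) (fun p hp => ?_) hd hW
    · rcases H with H | H
      · exact qf_contact H hpW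
      · exact qf_contact H hpW
    · rcases H with H | H
      · exact (qf_ends H hp).2
      · exact (qf_ends H hp).1
  have hD : DPt T W a b m n := by
    rcases H with H | H
    · exact H.dpt
    · exact H.dpt
  rcases hs with hs | hs
  · exact key m n hD.swap34 hs
  · exact key n m hD hs

/-- a face complementary to a face of `V` is at distance at least root three -/
theorem qf_three (h : Irr U T) {u : ℂ} {s : Set (Fin 6)} (H : QF0 T V a b m n e f V1 V2)
    (F : Fc T u s) (hs : s = ({a, b, m} : Set (Fin 6))ᶜ ∨ s = ({a, b, n} : Set (Fin 6))ᶜ) :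
    3 ≤ dist u V ^ 2 := by
  have key : ∀ d c : Fin 6, DPt T V a b c d → s = ({a, b, d} : Set (Fin 6))ᶜ → 3 ≤ dist u V ^ 2 := by
    intro d c hD hsd
    exact far_three_fc h hD F hsd (fun p _ hpV => qf_contact H hpV)
      fun p hp q hq => (qf_diam H hp hq).le
  rcases hs with hs | hs
  · exact key m n H.dpt.swap34 hs
  · exact key n m H.dpt hs

/-- the contacts of a face complementary to a face of `V` are in the closed arc -/
theorem qf_cv (h : Irr U T) {u p : ℂ} {s : Set (Fin 6)} (H : QF0 T V a b m n e f V1 V2)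
    (F : Fc T u s) (hs : s = ({a, b, m} : Set (Fin 6))ᶜ ∨ s = ({a, b, n} : Set (Fin 6))ᶜ)
    (hpu : dist p u = 1) (hpV : dist p V = 1) (hne : u + V ≠ 2 * p) :
    p ∈ closure (Ex T V {a, b}) := by
  rcases qf_contact H hpV with h3 | h3
  · exact h3
  rcases hs with hs | hs
  · exact contact_fc3 h H.dpt.swap34 F hs hpu hpV hne h3
  · exact contact_fc3 h H.dpt F hs hpu hpV hne h3

/-- **(B4) for the neighbour in the chain**, faces of harmless points included: a face complementary to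
a face of `V` is not in the open disc of an end of its arc -/
theorem qf_far1 (h : Irr U T) {u : ℂ} {s : Set (Fin 6)} (H : QF0 T V a b m n e f V1 V2)
    (F : Fc T u s) (hs : s = ({a, b, m} : Set (Fin 6))ᶜ ∨ s = ({a, b, n} : Set (Fin 6))ᶜ) :
    1 ≤ dist V1 u ∧ 1 ≤ dist V2 u := by
  obtain ⟨s', t, hst, hlt, hV, hcl⟩ := qf_closure H
  have hne : u ≠ V := by
    rcases hs with hs | hs
    · exact fc_ne F H.dpt.swap34 hs h
    · exact fc_ne F H.dpt hs h
  have key : ∀ r o : ℝ, (∀ v ∈ Icc s' t, |o - v| ≤ 1) → dist (pt V r) (pt V o) = 1 →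
      1 ≤ dist (pt V r) u := by
    intro r o ho hro
    by_contra hcon
    push Not at hcon
    have hlt2 : dist u V < 2 := by
      have h1 := dist_triangle u (pt V r) V
      have h2 := dist_pt V r
      rw [dist_comm u (pt V r)] at h1
      linarith
    obtain ⟨p, p', hpp, h1, h2, h1', h2', e, e'⟩ := exists_two hlt2 hne
    have g1 := qf_cv h H F hs h1 h2 e
    have g2 := qf_cv h H F hs h1' h2' e'
    rw [hcl] at g1 g2
    obtain ⟨v, hv, rfl⟩ := g1
    obtain ⟨v', hv', rfl⟩ := g2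
    have hoV : pt V o ≠ V := by
      intro h3
      have h4 := dist_pt V o
      rw [h3, dist_self] at h4
      exact zero_ne_one h4
    have := lens_half h1 h2 h1' h2' hpp hne (dist_pt_le V (ho v hv)) (dist_pt_le V (ho v' hv'))
      hoV hcon (dist_pt V r).le
    rw [hro] at this
    exact lt_irrefl _ this
  have k1 : 1 ≤ dist (pt V s') u := by
    refine key s' (s' + 1) (fun v hv => abs_le.2 ⟨by linarith [hv.2], by linarith [hv.1]⟩)
      (dist_pt_one V s')
  have k2 : 1 ≤ dist (pt V t) u := by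
    refine key t (t - 1) (fun v hv => abs_le.2 ⟨by linarith [hv.2], by linarith [hv.1]⟩) ?_
    have h3 := dist_pt_one V (t - 1)
    rw [sub_add_cancel] at h3
    rw [dist_comm]
    exact h3
  rcases hV with ⟨rfl, rfl⟩ | ⟨rfl, rfl⟩
  exacts [⟨k2, k1⟩, ⟨k1, k2⟩]

end Vale.Agent.P032.H383
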