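import Vale.Agent.P032.H383.RingG
import Vale.Agent.P032.H538.HexV
import Vale.Agent.P032.H538.Ring1

/-!
# P032, X.STATE.4: the odd ring at a three coloured point, one exceptional time

`RC.ringZ1` : `RC.ringZ` (H57) with the sixty degree rule at all times except `t₀` (mod 6), over
`HexW.ring_odd1` (H538).
`ringOdd_ofW` : the odd ring from the record `RC`, the letters `Qx`, `rx` (H180) as `HexW` and the rules
off one exceptional time.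
-/

open Set Filter Topology Metric

noncomputable section

namespace Vale.Agent.P032.S5.H57

open Vale.Agent.P032.Six Vale.Agent.P032.Carr Vale.Agent.P032.H538
open Vale.Agent.P032.H180 (f2 pt_six continuous_pt HexZ Qt)

variable {U : Fin 6 → Set ℂ} {T : ℂ → Set (Fin 6)} {Z : Set ℂ} {f : ℂ → Set (Fin 6)} {δ δ₀ : ℝ}
  {x : ℂ} {S : Set (Fin 6)} {d e g : Fin 6}

/-- the ring property with one exceptional time -/
theorem ringQ_of1 {Q : ℝ → Set (Fin 3)} {r : ℝ → Fin 3} (h : HexW Q r) (t₀ : ℝ)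
    (inc : ∀ t, (∀ n : ℤ, t ≠ t₀ + 6 * n) → ¬ Qt Q r t ⊆ Qt Q r (t + 1))
    (inc' : ∀ t, (∀ n : ℤ, t ≠ t₀ + 6 * n) → ¬ Qt Q r (t + 1) ⊆ Qt Q r t)
    (nbad : ∀ t, (∀ n : ℤ, t ≠ t₀ + 6 * n) → Q t = univ → Q (t + 1) = univ →
      ∀ᶠ s in 𝓝 t, ¬ (Q s = {r (t + 1)} ∧ Q (s + 1) = {r t}))
    (hnf : ¬ ((∀ t ∈ Icc (0 : ℝ) 6, (∀ n : ℤ, t ≠ t₀ + n) →
        ∀ l, l ∈ Qt Q r t ↔ l + 1 ∈ Qt Q r (t + 1)) ∨
      ∀ t ∈ Icc (0 : ℝ) 6, (∀ n : ℤ, t ≠ t₀ + n) →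
        ∀ l, l ∈ Qt Q r t ↔ l + 2 ∈ Qt Q r (t + 1))) : RingQ Q r :=
  fun _ hKne hKu hK1 hK2 hK3 => h.ring_odd1 t₀ inc inc' nbad hnf hKne hKu hK1 hK2 hK3

/-- **The apex rings are odd**, one exceptional time -/
theorem RC.ringZ1 (B : RC T Z f δ₀ x S) (hcov : ∀ i, i ∉ S ↔ i = d ∨ i = e ∨ i = g) (hde : d ≠ e)
    (heg : e ≠ g) (hdg : d ≠ g) {r : ℝ → Fin 3}
    (hr : ∀ t, Sᶜ ⊆ T (H180.pt x t) →
      (![d, e, g] : Fin 3 → Fin 6) (r t) = hp T f S (H180.pt x t))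
    (hX : HexW (S5.H180.Qx T x ![d, e, g]) r) (t₀ : ℝ)
    (inc : ∀ t, (∀ n : ℤ, t ≠ t₀ + 6 * n) →
      ¬ Qt (S5.H180.Qx T x ![d, e, g]) r t ⊆ Qt (S5.H180.Qx T x ![d, e, g]) r (t + 1))
    (inc' : ∀ t, (∀ n : ℤ, t ≠ t₀ + 6 * n) →
      ¬ Qt (S5.H180.Qx T x ![d, e, g]) r (t + 1) ⊆ Qt (S5.H180.Qx T x ![d, e, g]) r t)
    (nbad : ∀ t, (∀ n : ℤ, t ≠ t₀ + 6 * n) → S5.H180.Qx T x ![d, e, g] t = univ →
      S5.H180.Qx T x ![d, e, g] (t + 1) = univ →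
      ∀ᶠ s in 𝓝 t, ¬ (S5.H180.Qx T x ![d, e, g] s = {r (t + 1)} ∧
        S5.H180.Qx T x ![d, e, g] (s + 1) = {r t}))
    (hnf : ¬ ((∀ t ∈ Icc (0 : ℝ) 6, (∀ n : ℤ, t ≠ t₀ + n) →
        ∀ l, l ∈ Qt (S5.H180.Qx T x ![d, e, g]) r t ↔
          l + 1 ∈ Qt (S5.H180.Qx T x ![d, e, g]) r (t + 1)) ∨
      ∀ t ∈ Icc (0 : ℝ) 6, (∀ n : ℤ, t ≠ t₀ + n) →
        ∀ l, l ∈ Qt (S5.H180.Qx T x ![d, e, g]) r t ↔
          l + 2 ∈ Qt (S5.H180.Qx T x ![d, e, g]) r (t + 1))) :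
    ∀ᶠ δ in 𝓝[>] (0 : ℝ), ∀ᶠ j : ℕ in atTop, ∀ h : ℕ → Fin 6, h (6 * 2 ^ j) = h 0 →
      (∀ k ≤ 6 * 2 ^ j, h k ∈ apx T Z δ (hp T f S) (pt x j (2 ^ j) k) ∧ h k ∉ S) →
        ∑ k ∈ Finset.range (6 * 2 ^ j), eps (h k) (h (k + 1)) {d, e} = 1 :=
  B.ringG hcov hde heg hdg hr (fun t => hX.ne t) (ringQ_of1 hX t₀ inc inc' nbad hnf)

end Vale.Agent.P032.S5.H57

namespace Vale.Agent.P032.Six

open Vale.Agent.P032.S5 Vale.Agent.P032.Carr Vale.Agent.P032.S5.Tab Vale.Agent.P032.H538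
open Vale.Agent.P032.H180 (Frz HexZ Qt Qt_of_ne Qt_of_eq om)
open Vale.Agent.P032.S5.H180 (Qx rx)

variable {U : Fin 6 → Set ℂ} {T : ℂ → Set (Fin 6)} {f : ℂ → Set (Fin 6)} {Z : Set ℂ} {c : ℂ}
  {R δ₀ : ℝ} {x : ℂ}

/-- the record `RC` at a three coloured point of the state frame -/
theorem DSt.rc383 (D : DSt U T Z f c R δ₀) (hx : dist x c ≤ R - 1) (h3 : (T x).ncard = 3)
    (hap : ∀ z, dist z x = 1 → 4 ≤ (T z).ncard → ¬ T z \ f z ⊆ T x)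
    (hQ : ∀ y, dist y x = 1 → (T x)ᶜ ⊆ T y → 4 ≤ (T y).ncard ∧ f y ⊆ (T x)ᶜ) :
    H57.RC T Z f δ₀ x (T x) := by
  refine ⟨D.hm, h3, fun y hy hsub => D.df.irr.not_sub hy h3.le hsub,
    fun y hy hyZ hs => hyZ (D.memZ hx hy.le (hQ y hy hs).1), fun z _ hzx hs => (hQ z hzx hs).2,
    fun z hz hzx => ?_⟩
  obtain ⟨i, hi, hi'⟩ := Set.not_subset.1 (hap z hzx (D.zs.four z hz))
  exact ⟨i, hi.1, hi.2, hi'⟩

/-- the apex label at a full time -/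
theorem rx_spec383 (B : H57.RC T Z f δ₀ x (T x)) {col : Fin 3 → Fin 6}
    (hcol : ∀ i, i ∉ T x ↔ ∃ l, i = col l) {t : ℝ} (ht : (T x)ᶜ ⊆ T (H180.pt x t)) :
    col (rx T f (T x) x col t) = hp T f (T x) (H180.pt x t) := by
  have hz : H180.pt x t ∈ Z := by
    by_contra hcon
    exact B.nc _ (H180.dist_pt x t) hcon ht
  have h1 : hp T f (T x) (H180.pt x t) ∉ T x := pick_avoid (B.unp _ hz (H180.dist_pt x t))
  have hex : ∃ l, hp T f (T x) (H180.pt x t) = col l := (hcol _).1 h1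
  unfold rx
  rw [dif_pos hex]
  exact hex.choose_spec.symm

/-- **The odd ring**, from the ring property of the letters -/
theorem ringOdd_ofQ (B : H57.RC T Z f δ₀ x (T x))
    (hne : ∀ y, dist y x = 1 → ∃ i ∈ T y, i ∉ T x)
    (H : ∀ col : Fin 3 → Fin 6, (∀ i, i ∉ T x ↔ ∃ l, i = col l) → Function.Injective col →
      H57.RingQ (Qx T x col) (rx T f (T x) x col)) : RingOdd T Z f x := by
  intro d e hde hd he
  obtain ⟨g, hdg, heg, hcov⟩ := S5.H180.exists_compl B.three hd he hde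
  have hcov' : ∀ i, i ∉ T x ↔ ∃ l, i = (![d, e, g] : Fin 3 → Fin 6) l := S5.H180.col_three hcov
  have hinj : Function.Injective (![d, e, g] : Fin 3 → Fin 6) := S5.H180.inj_three hde heg hdg
  refine B.ringG hcov hde heg hdg (r := rx T f (T x) x ![d, e, g])
    (fun t ht => rx_spec383 B hcov' ht) (fun t => ?_) (H _ hcov' hinj)
  obtain ⟨i, hi, hi'⟩ := hne _ (H180.dist_pt x t)
  obtain ⟨l, rfl⟩ := (hcov' i).1 hi'
  exact ⟨l, hi⟩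

/-- **The odd ring**, rules off one exceptional time -/
theorem ringOdd_ofW (B : H57.RC T Z f δ₀ x (T x))
    (H : ∀ col : Fin 3 → Fin 6, (∀ i, i ∉ T x ↔ ∃ l, i = col l) → Function.Injective col →
      ∃ t₀ : ℝ, HexW (Qx T x col) (rx T f (T x) x col) ∧
        (∀ t, (∀ n : ℤ, t ≠ t₀ + 6 * n) → ¬ Qt (Qx T x col) (rx T f (T x) x col) t ⊆
          Qt (Qx T x col) (rx T f (T x) x col) (t + 1)) ∧
        (∀ t, (∀ n : ℤ, t ≠ t₀ + 6 * n) → ¬ Qt (Qx T x col) (rx T f (T x) x col) (t + 1) ⊆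
          Qt (Qx T x col) (rx T f (T x) x col) t) ∧
        (∀ t, (∀ n : ℤ, t ≠ t₀ + 6 * n) → Qx T x col t = univ → Qx T x col (t + 1) = univ →
          ∀ᶠ s in 𝓝 t, ¬ (Qx T x col s = {rx T f (T x) x col (t + 1)} ∧
            Qx T x col (s + 1) = {rx T f (T x) x col t})) ∧
        ¬ ((∀ t ∈ Icc (0 : ℝ) 6, (∀ n : ℤ, t ≠ t₀ + n) →
            ∀ l, l ∈ Qt (Qx T x col) (rx T f (T x) x col) t ↔
              l + 1 ∈ Qt (Qx T x col) (rx T f (T x) x col) (t + 1)) ∨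
          ∀ t ∈ Icc (0 : ℝ) 6, (∀ n : ℤ, t ≠ t₀ + n) →
            ∀ l, l ∈ Qt (Qx T x col) (rx T f (T x) x col) t ↔
              l + 2 ∈ Qt (Qx T x col) (rx T f (T x) x col) (t + 1))) : RingOdd T Z f x := by
  intro d e hde hd he
  obtain ⟨g, hdg, heg, hcov⟩ := S5.H180.exists_compl B.three hd he hde
  have hcov' : ∀ i, i ∉ T x ↔ ∃ l, i = (![d, e, g] : Fin 3 → Fin 6) l := S5.H180.col_three hcov
  have hinj : Function.Injective (![d, e, g] : Fin 3 → Fin 6) := S5.H180.inj_three hde heg hdg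
  obtain ⟨t₀, hX, inc, inc', nbad, hnf⟩ := H _ hcov' hinj
  exact B.ringZ1 hcov hde heg hdg (fun t ht => rx_spec383 B hcov' ht) hX t₀ inc inc' nbad hnf

end Vale.Agent.P032.Six
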