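import Vale.Agent.P032.H780.Special
import Vale.Agent.P032.H715.Common

/-!
# P032: the apex rule at a K-neighbour

`z = D(ab | cd)`, `v = D(ac | be)` on `S(z)`, free colour `f`, apex `p` (at distance one from both, at
most three colours).

* `k_sides`    : `S(z)` carries `ab` on one side of `v`, a palette `e` or `ce` on the other side;
* `kapex`      : of a palette of `S(z)` at `p` over the side of `ab` (`AbP`) and one over the side of
  `e` (`EeP`) at least one contains `f`, or both are `cd` and `T p = cdf`;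
* `kapex_seen` : the same in the angle form, both apexes;
* `kapex_f`    : `f` is a colour of `p`, and palettes with `f` are seen at `p` on `S(z)`;
* `not_all`    : the third centre rule for palettes at generic angles.
-/

open Set Filter Topology Metric

noncomputable section

namespace Vale.Agent.P032.H383

open Vale.Agent.P032.Six Vale.Agent.P032.S5.H767 Vale.Agent.P032.S5.H122 Vale.Agent.P032.Sweep
  Vale.Agent.P032.H780

variable {U : Fin 6 → Set ℂ} {T : ℂ → Set (Fin 6)}

theorem all_six383 {a b c d e f : Fin 6} (nd : [a, b, c, d, e, f].Nodup) (i : Fin 6) :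
    i = a ∨ i = b ∨ i = c ∨ i = d ∨ i = e ∨ i = f := by
  have h1 : ([a, b, c, d, e, f].toFinset).card = 6 := by
    rw [List.toFinset_card_of_nodup nd]; rfl
  have h2 : [a, b, c, d, e, f].toFinset = Finset.univ :=
    Finset.eq_univ_of_card _ (by rw [h1]; rfl)
  have h3 : i ∈ [a, b, c, d, e, f].toFinset := by rw [h2]; exact Finset.mem_univ i
  simpa using h3

/-- a point of `S(z)` does not have a single colour which is a colour of `z` -/
theorem not_single (h : Irr U T) {z q : ℂ} {i : Fin 6} (hq : dist q z = 1) (hi : i ∈ T z) :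
    T q ≠ {i} := by
  intro hs
  have h5 : q ∈ U i := h.mem_of_single (by rw [hs])
  exact h.mx.notMem' h5 hq (h.sub z hi)

theorem exists_Lc_left (h : Irr U T) {z : ℂ} {s : ℝ} {Q : ℝ → Prop} (hQ : ∀ᶠ w in 𝓝[<] s, Q w) :
    ∃ w ∈ Lc T z, Q w := by
  obtain ⟨c, hc, hsub⟩ := mem_nhdsLT_iff_exists_Ioo_subset.1 hQ
  have hc : c < s := hc
  obtain ⟨w, hw1, hw2⟩ := (Lc_dense h z).inter_open_nonempty (Ioo c s) isOpen_Ioo
    (nonempty_Ioo.2 hc)
  exact ⟨w, hw2, hsub hw1⟩

theorem exists_Lc_right (h : Irr U T) {z : ℂ} {s : ℝ} {Q : ℝ → Prop} (hQ : ∀ᶠ w in 𝓝[>] s, Q w) :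
    ∃ w ∈ Lc T z, Q w := by
  obtain ⟨c, hc, hsub⟩ := mem_nhdsGT_iff_exists_Ioo_subset.1 hQ
  have hc : s < c := hc
  obtain ⟨w, hw1, hw2⟩ := (Lc_dense h z).inter_open_nonempty (Ioo s c) isOpen_Ioo
    (nonempty_Ioo.2 hc)
  exact ⟨w, hw2, hsub hw1⟩

/-- the palettes of `S(z)` inside `T z`, at angles of `Lc` -/
theorem pair_Lc (h : Irr U T) {z : ℂ} {a b c d : Fin 6} (hz : DPt T z a b c d) {w : ℝ}
    (hw : w ∈ Lc T z) (hsub : T (pt z w) ⊆ T z) :
    T (pt z w) = {a, b} ∨ T (pt z w) = {c, d} :=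
  h.pairs715 hz (dist_pt z w) (Lc_circle hw) hsub

theorem sub_pair_left {z q : ℂ} (h : Irr U T) {a b : Fin 6} (ha : a ∈ T z) (hb : b ∈ T z)
    (hq : dist q z = 1) (hs : T q ⊆ {a, b}) : T q = {a, b} := by
  have na := not_single h hq ha
  have nb := not_single h hq hb
  obtain ⟨x, hx⟩ := h.ne q
  refine hs.antisymm ?_
  by_cases h1 : a ∈ T q <;> by_cases h2 : b ∈ T q
  · rintro y (rfl | rfl)
    · exact h1
    · exact h2
  · refine absurd (Subset.antisymm (fun y hy => ?_) (by rintro y rfl; exact h1)) na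
    rcases hs hy with rfl | rfl
    · rfl
    · exact absurd hy h2
  · refine absurd (Subset.antisymm (fun y hy => ?_) (by rintro y rfl; exact h2)) nb
    rcases hs hy with rfl | rfl
    · exact absurd hy h1
    · rfl
  · rcases hs hx with rfl | rfl
    · exact absurd hx h1
    · exact absurd hx h2

theorem mem_of_sub_pair (h : Irr U T) {z q : ℂ} {c e : Fin 6} (hc : c ∈ T z)
    (hq : dist q z = 1) (hs : T q ⊆ {c, e}) : e ∈ T q := by
  by_contra he
  refine not_single h hq hc (Subset.antisymm (fun y hy => ?_) ?_)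
  · rcases hs hy with rfl | rfl
    · rfl
    · exact absurd hy he
  · obtain ⟨x, hx⟩ := h.ne q
    rcases hs hx with rfl | rfl
    · rintro y rfl; exact hx
    · exact absurd hx he

/-- **the two sides of a K-neighbour** -/
theorem k_sides (h : Irr U T) {z : ℂ} {s : ℝ} {a b c d e f : Fin 6} (hz : DPt T z a b c d)
    (hv : DPt T (pt z s) a c b e) (nd : [a, b, c, d, e, f].Nodup) :
    ((∀ᶠ w in 𝓝[<] s, T (pt z w) = {a, b}) ∧
        ∀ᶠ w in 𝓝[>] s, e ∈ T (pt z w) ∧ T (pt z w) ⊆ {c, e}) ∨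
      ((∀ᶠ w in 𝓝[>] s, T (pt z w) = {a, b}) ∧
        ∀ᶠ w in 𝓝[<] s, e ∈ T (pt z w) ∧ T (pt z w) ⊆ {c, e}) := by
  have haz : a ∈ T z := by rw [hz.pal]; simp
  have hbz : b ∈ T z := by rw [hz.pal]; simp
  have hcz : c ∈ T z := by rw [hz.pal]; simp
  simp only [List.nodup_cons, List.mem_cons, List.not_mem_nil, or_false, not_or, List.nodup_nil,
    and_true, not_false_eq_true] at nd
  obtain ⟨⟨ab, ac, ad, ae, af⟩, ⟨bc, bd, be, bf⟩, ⟨cd, ce, cf⟩, ⟨de, df⟩, ef⟩ := nd
  have bad : ∀ w ∈ Lc T z, ¬ T (pt z w) ⊆ {c, b} := by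
    intro w hw hs
    have h1 : T (pt z w) ⊆ T z := hs.trans (by
      rintro y (rfl | rfl)
      · exact hcz
      · exact hbz)
    rcases pair_Lc h hz hw h1 with h2 | h2
    · have : a ∈ ({c, b} : Set (Fin 6)) := hs (by rw [h2]; simp)
      simp only [mem_insert_iff, mem_singleton_iff] at this
      tauto
    · have : d ∈ ({c, b} : Set (Fin 6)) := hs (by rw [h2]; simp)
      simp only [mem_insert_iff, mem_singleton_iff] at this
      rcases this with h3 | h3
      · exact cd h3.symm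
      · exact bd h3.symm
  obtain ⟨X, Y, hXY, hL, hR⟩ := split_ang h hv
  rcases hXY with ⟨rfl, rfl⟩ | ⟨rfl, rfl⟩ | ⟨rfl, rfl⟩ | ⟨rfl, rfl⟩
  · left
    refine ⟨?_, ?_⟩
    · filter_upwards [hL] with w hw
      exact sub_pair_left h haz hbz (dist_pt z w) hw
    · filter_upwards [hR] with w hw
      exact ⟨mem_of_sub_pair h hcz (dist_pt z w) hw, hw⟩
  · right
    refine ⟨?_, ?_⟩
    · filter_upwards [hR] with w hw
      exact sub_pair_left h haz hbz (dist_pt z w) hw
    · filter_upwards [hL] with w hw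
      exact ⟨mem_of_sub_pair h hcz (dist_pt z w) hw, hw⟩
  · obtain ⟨w, hw1, hw2⟩ := exists_Lc_right h (z := z) hR
    exact absurd hw2 (bad w hw1)
  · obtain ⟨w, hw1, hw2⟩ := exists_Lc_left h (z := z) hL
    exact absurd hw2 (bad w hw1)

/-- palettes of `S(z)` at `p` over the side of `ab` -/
def AbP (a b c d e f : Fin 6) (P : Set (Fin 6)) : Prop :=
  a ∉ P ∧ b ∉ P ∧ (f ∉ P → e ∉ P → P = {c, d})

/-- palettes of `S(z)` at `p` over the side of `e` -/
def EeP (a b c d e f : Fin 6) (P : Set (Fin 6)) : Prop :=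
  e ∉ P ∧ (f ∉ P → P = {a, b} ∨ P = {c, d})

/-- a colour of `y` is not in all the palettes of another circle near a point of `S(y)` -/
theorem not_all (h : Irr U T) {v y : ℂ} {s : ℝ} {i : Fin 6}
    (hall : ∀ᶠ w in 𝓝 s, w ∈ Lc T v → i ∈ T (pt v w)) (hy : dist (pt v s) y = 1) (hi : i ∈ T y)
    (h1 : y ≠ v) (h2 : y + v ≠ 2 * pt v s) : False := by
  obtain ⟨N, hN, hNo, hsN⟩ := _root_.mem_nhds_iff.1 hall
  have hcl : IsClosed {w : ℝ | i ∈ T (pt v w)} := (h.closed i).preimage (continuous_pt v)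
  have hall2 : ∀ w ∈ N, i ∈ T (pt v w) := by
    intro w hw
    have h5 : w ∈ closure (N ∩ Lc T v) := (Lc_dense h v).open_subset_closure_inter hNo hw
    exact closure_minimal (fun x hx => hN hx.1 hx.2) hcl h5
  have hcirc : ∀ᶠ q in 𝓝[sphere v 1] (pt v s), i ∈ T q :=
    ev_circle v (p := fun q => i ∈ T q)
      (by filter_upwards [hNo.mem_nhds hsN] with w hw using hall2 w hw)
  rcases h.third (dist_pt v s) hcirc hy hi with h7 | h7
  · exact h1 h7
  · exact h2 h7

/-- **the apex rule**: `P` over the side of `ab`, `P'` over the side of `e` -/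
theorem kapex (h : Irr U T) {z v p : ℂ} {a b c d e f : Fin 6} (hz : DPt T z a b c d)
    (hv : DPt T v a c b e) (nd : [a, b, c, d, e, f].Nodup)
    (hpz : dist p z = 1) (hpv : dist p v = 1) (hne : z ≠ v) (hline : z + v ≠ 2 * p)
    (h3 : (T p).ncard ≤ 3) {P P' : Set (Fin 6)}
    (hP : P ⊆ T p) (hP' : P' ⊆ T p) (h1 : AbP a b c d e f P) (h2 : EeP a b c d e f P') :
    f ∈ P ∨ f ∈ P' ∨ (P = {c, d} ∧ P' = {c, d} ∧ T p = {c, d, f}) := by
  have hbz : b ∈ T z := by rw [hz.pal]; simp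
  have hdz : d ∈ T z := by rw [hz.pal]; simp
  have hcv : c ∈ T v := by rw [hv.pal]; simp
  have nd6 := nd
  simp only [List.nodup_cons, List.mem_cons, List.not_mem_nil, or_false, not_or, List.nodup_nil,
    and_true, not_false_eq_true] at nd
  obtain ⟨⟨ab, ac, ad, ae, af⟩, ⟨bc, bd, be, bf⟩, ⟨cd, ce, cf⟩, ⟨de, df⟩, ef⟩ := nd
  by_cases hf : f ∈ P
  · exact Or.inl hf
  by_cases hf' : f ∈ P'
  · exact Or.inr (Or.inl hf')
  refine Or.inr (Or.inr ?_)
  -- three colours of `p` exhaust the palette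
  have full : ∀ i j k : Fin 6, i ≠ j → i ≠ k → j ≠ k → i ∈ T p → j ∈ T p → k ∈ T p →
      T p = {i, j, k} := by
    intro i j k hij hik hjk hi hj hk
    have hs : ({i, j, k} : Set (Fin 6)) ⊆ T p := by
      rintro m (rfl | rfl | rfl)
      · exact hi
      · exact hj
      · exact hk
    have hc : ({i, j, k} : Set (Fin 6)).ncard = 3 := ncard_eq_three.2 ⟨i, j, k, hij, hik, hjk, rfl⟩
    exact (Set.eq_of_subset_of_ncard_le hs (by rw [hc]; exact h3) (Set.toFinite _)).symm
  have hno : ¬ T p ⊆ {c, d, e} := by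
    intro hT
    obtain ⟨s, hs⟩ := Vale.Agent.P032.S5.H349.exists_pt hpv
    subst hs
    refine not_all h (v := v) (i := d) ?_ hpz hdz hne hline
    filter_upwards [nhd_ang h v s] with w hw hLc
    by_contra hd
    have h1 : T (pt v w) ⊆ {c, e} := by
      intro y hy
      rcases hT (hw hy) with rfl | rfl | rfl
      · exact Or.inl rfl
      · exact absurd hy hd
      · exact Or.inr rfl
    have h2 : T (pt v w) ⊆ T v := by
      refine h1.trans ?_
      rw [hv.pal]
      rintro y (rfl | rfl)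
      · simp
      · simp
    rcases pair_Lc h hv hLc h2 with h3 | h3
    · have : a ∈ ({c, e} : Set (Fin 6)) := h1 (by rw [h3]; simp)
      simp only [mem_insert_iff, mem_singleton_iff] at this
      tauto
    · have : b ∈ ({c, e} : Set (Fin 6)) := h1 (by rw [h3]; simp)
      simp only [mem_insert_iff, mem_singleton_iff] at this
      tauto
  have hcde : c ∈ T p → d ∈ T p → e ∉ T p := by
    intro hc hd he
    exact hno (full c d e cd ce de hc hd he).subset
  rcases h2.2 hf' with rfl | rfl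
  · -- `ab` after
    exfalso
    have ha : a ∈ T p := hP' (by simp)
    have hb : b ∈ T p := hP' (by simp)
    by_cases he : e ∈ P
    · have hT := full a b e ab ae be ha hb (hP he)
      obtain ⟨s, hs⟩ := Vale.Agent.P032.S5.H349.exists_pt hpv
      subst hs
      refine not_all h (v := v) (i := b) ?_ hpz hbz hne hline
      filter_upwards [nhd_ang h v s] with w hw hLc
      rw [hT] at hw
      have h2 : T (pt v w) ⊆ T v := by
        refine hw.trans ?_
        rw [hv.pal]
        rintro y (rfl | rfl | rfl)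
        · simp
        · simp
        · simp
      rcases pair_Lc h hv hLc h2 with h3 | h3
      · have : c ∈ ({a, b, e} : Set (Fin 6)) := hw (by rw [h3]; simp)
        simp only [mem_insert_iff, mem_singleton_iff] at this
        rcases this with h4 | h4 | h4
        · exact absurd h4.symm ac
        · exact absurd h4.symm bc
        · exact absurd h4 ce
      · rw [h3]; simp
    · have hPc := h1.2.2 hf he
      have hc : c ∈ T p := hP (by rw [hPc]; simp)
      have hd : d ∈ T p := hP (by rw [hPc]; simp)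
      have hT := full a b c ab ac bc ha hb hc
      rw [hT] at hd
      rcases hd with rfl | rfl | rfl
      · exact ad rfl
      · exact bd rfl
      · exact cd rfl
  · -- `cd` after
    have hc : c ∈ T p := hP' (by simp)
    have hd : d ∈ T p := hP' (by simp)
    by_cases he : e ∈ P
    · exact absurd (hP he) (hcde hc hd)
    · refine ⟨h1.2.2 hf he, rfl, ?_⟩
      by_cases hfT : f ∈ T p
      · exact full c d f cd cf df hc hd hfT
      exfalso
      -- `T p` is a subset of `T z`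
      have heT := hcde hc hd
      obtain ⟨s, hs⟩ := Vale.Agent.P032.S5.H349.exists_pt hpz
      subst hs
      refine not_all h (v := z) (i := c) ?_ hpv hcv hne.symm (by rw [add_comm]; exact hline)
      filter_upwards [nhd_ang h z s] with w hw hLc
      have hall : ∀ x : Fin 6, x = a ∨ x = b ∨ x = c ∨ x = d ∨ x = e ∨ x = f :=
        all_six383 nd6
      have h2 : T (pt z w) ⊆ T z := by
        intro y hy
        rw [hz.pal]
        rcases hall y with rfl | rfl | rfl | rfl | rfl | rfl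
        · simp
        · simp
        · simp
        · simp
        · exact absurd (hw hy) heT
        · exact absurd (hw hy) hfT
      rcases pair_Lc h hz hLc h2 with h3 | h3
      · exfalso
        have ha : a ∈ T (pt z s) := hw (by rw [h3]; simp)
        have hb : b ∈ T (pt z s) := hw (by rw [h3]; simp)
        have hT := full a b c ab ac bc ha hb hc
        rw [hT] at hd
        rcases hd with rfl | rfl | rfl
        · exact ad rfl
        · exact bd rfl
        · exact cd rfl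
      · rw [h3]; simp

/-! ### Seen palettes -/

theorem exists_seenL (h : Irr U T) (z : ℂ) (s : ℝ) : ∃ P, SeenL T z s P := by
  by_contra hcon
  push Not at hcon
  have h1 : ∀ᶠ w in 𝓝[<] s, ∀ P : Set (Fin 6), ¬ (w ∈ Lc T z ∧ T (pt z w) = P) :=
    eventually_all.2 fun P => not_frequently.1 (hcon P)
  obtain ⟨w, hw, h2⟩ := exists_Lc_left h (z := z) h1
  exact h2 _ ⟨hw, rfl⟩

theorem exists_seenR (h : Irr U T) (z : ℂ) (s : ℝ) : ∃ P, SeenR T z s P := by
  by_contra hcon
  push Not at hcon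
  have h1 : ∀ᶠ w in 𝓝[>] s, ∀ P : Set (Fin 6), ¬ (w ∈ Lc T z ∧ T (pt z w) = P) :=
    eventually_all.2 fun P => not_frequently.1 (hcon P)
  obtain ⟨w, hw, h2⟩ := exists_Lc_right h (z := z) h1
  exact h2 _ ⟨hw, rfl⟩

/-- the 60-rule in both directions -/
theorem dj_tau (h : Irr U T) {z : ℂ} {w τ : ℝ} (hτ : τ = 1 ∨ τ = -1) (hw : w ∈ Lc T z) :
    Disjoint (T (pt z (w - τ))) (T (pt z w)) := by
  rcases hτ with rfl | rfl
  · have h1 := dj_sixty' h (z := z) (s := w - 1) (by rw [sub_add_cancel]; exact hw)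
    rwa [sub_add_cancel] at h1
  · have h1 := (dj_sixty h hw).symm
    rwa [show w - -1 = w + 1 by ring]

theorem SeenL.back {z : ℂ} {s τ : ℝ} {P : Set (Fin 6)} (hP : SeenL T z (s + τ) P) {Q : ℝ → Prop}
    (hQ : ∀ᶠ w in 𝓝[<] s, Q w) : ∃ w, w ∈ Lc T z ∧ T (pt z w) = P ∧ Q (w - τ) := by
  have ht : Tendsto (fun w : ℝ => w - τ) (𝓝[<] (s + τ)) (𝓝[<] s) := by
    refine tendsto_nhdsWithin_iff.2 ⟨?_, ?_⟩
    · have hc : Continuous fun w : ℝ => w - τ := by fun_prop
      have := (hc.tendsto (s + τ)).mono_left (nhdsWithin_le_nhds (s := Iio (s + τ)))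
      simpa using this
    · filter_upwards [self_mem_nhdsWithin] with w hw
      have hw : w < s + τ := hw
      show w - τ < s
      linarith
  obtain ⟨w, ⟨h1, h2⟩, h3⟩ := (Frequently.and_eventually hP (ht.eventually hQ)).exists
  exact ⟨w, h1, h2, h3⟩

theorem SeenR.back {z : ℂ} {s τ : ℝ} {P : Set (Fin 6)} (hP : SeenR T z (s + τ) P) {Q : ℝ → Prop}
    (hQ : ∀ᶠ w in 𝓝[>] s, Q w) : ∃ w, w ∈ Lc T z ∧ T (pt z w) = P ∧ Q (w - τ) := by
  have ht : Tendsto (fun w : ℝ => w - τ) (𝓝[>] (s + τ)) (𝓝[>] s) := by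
    refine tendsto_nhdsWithin_iff.2 ⟨?_, ?_⟩
    · have hc : Continuous fun w : ℝ => w - τ := by fun_prop
      have := (hc.tendsto (s + τ)).mono_left (nhdsWithin_le_nhds (s := Ioi (s + τ)))
      simpa using this
    · filter_upwards [self_mem_nhdsWithin] with w hw
      have hw : s + τ < w := hw
      show s < w - τ
      linarith
  obtain ⟨w, ⟨h1, h2⟩, h3⟩ := (Frequently.and_eventually hP (ht.eventually hQ)).exists
  exact ⟨w, h1, h2, h3⟩

theorem abP_of (h : Irr U T) {z : ℂ} {w τ : ℝ} {a b c d e f : Fin 6} (hz : DPt T z a b c d)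
    (nd : [a, b, c, d, e, f].Nodup) (hτ : τ = 1 ∨ τ = -1) (hw : w ∈ Lc T z)
    (hQ : T (pt z (w - τ)) = {a, b}) : AbP a b c d e f (T (pt z w)) := by
  have h1 := dj_tau h hτ hw
  rw [hQ, Set.disjoint_left] at h1
  have ha : a ∉ T (pt z w) := h1 (by simp)
  have hb : b ∉ T (pt z w) := h1 (by simp)
  refine ⟨ha, hb, fun hf he => ?_⟩
  have hsub : T (pt z w) ⊆ T z := by
    intro y hy
    rw [hz.pal]
    rcases all_six383 nd y with rfl | rfl | rfl | rfl | rfl | rfl
    · simp
    · simp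
    · simp
    · simp
    · exact absurd hy he
    · exact absurd hy hf
  rcases pair_Lc h hz hw hsub with h3 | h3
  · exact absurd (by rw [h3]; simp) ha
  · exact h3

theorem eeP_of (h : Irr U T) {z : ℂ} {w τ : ℝ} {a b c d e f : Fin 6} (hz : DPt T z a b c d)
    (nd : [a, b, c, d, e, f].Nodup) (hτ : τ = 1 ∨ τ = -1) (hw : w ∈ Lc T z)
    (hQ : e ∈ T (pt z (w - τ))) : EeP a b c d e f (T (pt z w)) := by
  have h1 := dj_tau h hτ hw
  rw [Set.disjoint_left] at h1
  have he : e ∉ T (pt z w) := h1 hQ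
  refine ⟨he, fun hf => ?_⟩
  have hsub : T (pt z w) ⊆ T z := by
    intro y hy
    rw [hz.pal]
    rcases all_six383 nd y with rfl | rfl | rfl | rfl | rfl | rfl
    · simp
    · simp
    · simp
    · simp
    · exact absurd hy he
    · exact absurd hy hf
  exact pair_Lc h hz hw hsub

/-- the conclusion of the apex rule for one pair of palettes -/
def KA (a b c d e f : Fin 6) (X P P' : Set (Fin 6)) : Prop :=
  AbP a b c d e f P ∧ EeP a b c d e f P' ∧
    (f ∈ P ∨ f ∈ P' ∨ (P = {c, d} ∧ P' = {c, d} ∧ X = {c, d, f}))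

theorem apex_geo {z : ℂ} {s τ : ℝ} (hτ : τ = 1 ∨ τ = -1) :
    dist (pt z (s + τ)) (pt z s) = 1 ∧ z ≠ pt z s ∧ z + pt z s ≠ 2 * pt z (s + τ) := by
  have h1 : dist (pt z (s + τ)) (pt z s) = 1 := by
    rcases hτ with rfl | rfl
    · rw [dist_comm]; exact dist_pt_one z s
    · have := dist_pt_one z (s + -1)
      rwa [show s + -1 + 1 = s by ring] at this
  have h2 : z ≠ pt z s := by
    intro hz
    have := dist_pt z s
    rw [← hz, dist_self] at this
    exact zero_ne_one this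
  refine ⟨h1, h2, ?_⟩
  have h3 := (tri (dist_pt z (s + τ)) (dist_pt z s)).2
  exact h3

/-- **THE APEX RULE AT A K-NEIGHBOUR**, angle form, both apexes (`τ = 1, -1`) -/
theorem kapex_seen (h : Irr U T) {z : ℂ} {s τ : ℝ} {a b c d e f : Fin 6} (hz : DPt T z a b c d)
    (hv : DPt T (pt z s) a c b e) (nd : [a, b, c, d, e, f].Nodup) (hτ : τ = 1 ∨ τ = -1)
    (h3 : (T (pt z (s + τ))).ncard ≤ 3) :
    ((∀ᶠ w in 𝓝[<] s, T (pt z w) = {a, b}) ∧
        (∀ᶠ w in 𝓝[>] s, e ∈ T (pt z w) ∧ T (pt z w) ⊆ {c, e}) ∧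
        ∀ P P', SeenL T z (s + τ) P → SeenR T z (s + τ) P' →
          KA a b c d e f (T (pt z (s + τ))) P P') ∨
      ((∀ᶠ w in 𝓝[>] s, T (pt z w) = {a, b}) ∧
        (∀ᶠ w in 𝓝[<] s, e ∈ T (pt z w) ∧ T (pt z w) ⊆ {c, e}) ∧
        ∀ P P', SeenR T z (s + τ) P → SeenL T z (s + τ) P' →
          KA a b c d e f (T (pt z (s + τ))) P P') := by
  obtain ⟨g1, g2, g3⟩ := apex_geo (z := z) (s := s) hτ
  rcases k_sides h hz hv nd with ⟨h1, h2⟩ | ⟨h1, h2⟩
  · refine Or.inl ⟨h1, h2, fun P P' hP hP' => ?_⟩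
    obtain ⟨w, hw, hwP, hwQ⟩ := SeenL.back hP h1
    obtain ⟨w', hw', hwP', hwQ'⟩ := SeenR.back hP' h2
    have k1 := abP_of h hz nd hτ hw hwQ
    have k2 := eeP_of h hz nd hτ hw' hwQ'.1
    rw [hwP] at k1
    rw [hwP'] at k2
    exact ⟨k1, k2, kapex h hz hv nd (dist_pt z _) g1 g2 g3 h3 (hP.sub_self h) (hP'.sub_self h)
      k1 k2⟩
  · refine Or.inr ⟨h1, h2, fun P P' hP hP' => ?_⟩
    obtain ⟨w, hw, hwP, hwQ⟩ := SeenR.back hP h1
    obtain ⟨w', hw', hwP', hwQ'⟩ := SeenL.back hP' h2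
    have k1 := abP_of h hz nd hτ hw hwQ
    have k2 := eeP_of h hz nd hτ hw' hwQ'.1
    rw [hwP] at k1
    rw [hwP'] at k2
    exact ⟨k1, k2, kapex h hz hv nd (dist_pt z _) g1 g2 g3 h3 (hP.sub_self h) (hP'.sub_self h)
      k1 k2⟩

/-- the free colour is a colour of both apexes, and palettes with it are seen on `S(z)` there -/
theorem kapex_f (h : Irr U T) {z : ℂ} {s τ : ℝ} {a b c d e f : Fin 6} (hz : DPt T z a b c d)
    (hv : DPt T (pt z s) a c b e) (nd : [a, b, c, d, e, f].Nodup) (hτ : τ = 1 ∨ τ = -1)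
    (h3 : (T (pt z (s + τ))).ncard ≤ 3) :
    f ∈ T (pt z (s + τ)) ∧ ∃ P, f ∈ P ∧ (SeenL T z (s + τ) P ∨ SeenR T z (s + τ) P) := by
  obtain ⟨g1, g2, g3⟩ := apex_geo (z := z) (s := s) hτ
  have hcv : c ∈ T (pt z s) := by rw [hv.pal]; simp
  have key : ∃ P, f ∈ P ∧ (SeenL T z (s + τ) P ∨ SeenR T z (s + τ) P) := by
    obtain ⟨Q, hcQ, hQ⟩ := third_seen h g1 hcv g2.symm (by rw [add_comm]; exact g3)
    obtain ⟨L, hL⟩ := exists_seenL h z (s + τ)
    obtain ⟨R, hR⟩ := exists_seenR h z (s + τ)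
    have hne : Q ≠ {c, d} := by
      rintro rfl
      exact hcQ (by simp)
    rcases kapex_seen h hz hv nd hτ h3 with ⟨-, -, hk⟩ | ⟨-, -, hk⟩
    · rcases hQ with hQ | hQ
      · rcases (hk Q R hQ hR).2.2 with k | k | k
        · exact ⟨Q, k, Or.inl hQ⟩
        · exact ⟨R, k, Or.inr hR⟩
        · exact absurd k.1 hne
      · rcases (hk L Q hL hQ).2.2 with k | k | k
        · exact ⟨L, k, Or.inl hL⟩
        · exact ⟨Q, k, Or.inr hQ⟩
        · exact absurd k.2.1 hne
    · rcases hQ with hQ | hQ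
      · rcases (hk R Q hR hQ).2.2 with k | k | k
        · exact ⟨R, k, Or.inr hR⟩
        · exact ⟨Q, k, Or.inl hQ⟩
        · exact absurd k.2.1 hne
      · rcases (hk Q L hQ hL).2.2 with k | k | k
        · exact ⟨Q, k, Or.inr hQ⟩
        · exact ⟨L, k, Or.inl hL⟩
        · exact absurd k.1 hne
  obtain ⟨P, hfP, hP⟩ := key
  refine ⟨?_, P, hfP, hP⟩
  rcases hP with hP | hP
  · exact hP.sub_self h hfP
  · exact hP.sub_self h hfP

end Vale.Agent.P032.H383
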