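import Vale.Agent.P032.H383.Sweep
import Vale.Agent.P032.H187.Product
import Vale.Agent.P032.S5.H122.Cnt5

/-!
# P032: the letters of several circles (from `Irr` to `Sweep.Sw`)

Angles in units of 60 degrees (`pt` of `S5/H767/Raw`).

* `Lc T z` : the angles near which `T` is constant on `S(z)` (open, dense);
* `Xl T z φ lt (c, j) l` : the times `u` such that the angle `φ + u + j` is a limit of angles `s` of
  `Lc T (z c)` with `lt c (T (pt (z c) s)) = l`;
* `sw_of` : the structure `Sw`; legality is only asked at times of a dense set where all the slots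
  are angles of `Lc`;
* `Sw.and`, `Sw.imp` : combination of rules;
* `dj_sixty`, `dj_prod`, `two_out`, `anti_two` : the rules for the palettes at such times;
* `sw_basic` : 60-rule and product rule for all pairs of centres at distance one;
* `Xl_pal` : a letter which is available comes from a palette contained in the palette of the point,
  and the point is a limit of exact arcs with this palette.
-/

open Set Filter Topology Metric

noncomputable section

namespace Vale.Agent.P032.Sweep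

open Vale.Agent.P032.Six Vale.Agent.P032.S5.H767 Vale.Agent.P032.S5.H122

variable {U : Fin 6 → Set ℂ} {T : ℂ → Set (Fin 6)}

/-! ### Combination of rules -/

section comb

variable {ι Λ : Type*} {X : ι → Λ → Set ℝ} {L L' : (ι → Λ) → Prop}

theorem Sw.imp (w : Sw X L) (hLL : ∀ g, L g → L' g) : Sw X L' :=
  ⟨w.closed, w.cover, w.gen, fun u hu g hg => hLL g (w.leg u hu g hg)⟩

theorem Sw.and (w : Sw X L) (w' : Sw X L') : Sw X fun g => L g ∧ L' g :=
  ⟨w.closed, w.cover, w.gen, fun u hu g hg => ⟨w.leg u hu g hg, w'.leg u hu g hg⟩⟩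

/-- legality on a dense set of times is enough -/
theorem Sw.of_dense [Finite ι] [Finite Λ] (hc : ∀ i l, IsClosed (X i l))
    (hcov : ∀ i u, ∃ l, u ∈ X i l) (hgen : ∀ i, Dense {u : ℝ | ∀ l m, u ∈ X i l → u ∈ X i m → l = m})
    {D : Set ℝ} (hD : Dense D) (hleg : ∀ u ∈ D, u ∈ Gn X → ∀ h, Av X u h → L h) : Sw X L := by
  have w : Sw X fun _ => True := ⟨hc, hcov, hgen, fun _ _ _ _ => trivial⟩
  refine ⟨hc, hcov, hgen, fun u hu h hh => ?_⟩
  have hop : ∀ᶠ v in 𝓝 u, v ∈ Gn X := by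
    filter_upwards [w.near u] with v hv i l m h1 h2
    exact hu i l m (hv i l h1) (hv i m h2)
  obtain ⟨N, hN, hNo, huN⟩ := _root_.mem_nhds_iff.1 (hop.and (w.near u))
  obtain ⟨v, hvN, hvD⟩ := hD.inter_open_nonempty N hNo ⟨u, huN⟩
  have h1 := hN hvN
  refine hleg v hvD h1.1 h fun i => ?_
  obtain ⟨l, hl⟩ := hcov i v
  rwa [hu i (h i) l (hh i) (h1.2 i l hl)]

end comb

/-! ### Angles with constant palette -/

/-- the angles near which `T` is constant on `S(z)` -/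
def Lc (T : ℂ → Set (Fin 6)) (z : ℂ) : Set ℝ := {s | ∀ᶠ v in 𝓝 s, T (pt z v) = T (pt z s)}

theorem Lc_open (z : ℂ) : IsOpen (Lc T z) := by
  rw [isOpen_iff_mem_nhds]
  intro s hs
  filter_upwards [eventually_eventually_nhds.2 hs, hs] with v h1 h2
  show ∀ᶠ w in 𝓝 v, T (pt z w) = T (pt z v)
  filter_upwards [h1] with w hw
  rw [hw, h2]

theorem Lc_dense (h : Irr U T) (z : ℂ) : Dense (Lc T z) := dense_const h z

theorem Lc_per (z : ℂ) (s : ℝ) : s + 6 ∈ Lc T z ↔ s ∈ Lc T z := by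
  have key : ∀ (c : ℝ) {s : ℝ}, (∀ v, pt z (v + c) = pt z v) → s ∈ Lc T z → s + c ∈ Lc T z := by
    intro c s hc hs
    show ∀ᶠ v in 𝓝 (s + c), T (pt z v) = T (pt z (s + c))
    have h1 : Tendsto (fun v : ℝ => v - c) (𝓝 (s + c)) (𝓝 s) := by
      have : Continuous fun v : ℝ => v - c := by fun_prop
      have h2 := this.tendsto (s + c)
      simpa using h2
    have hs : ∀ᶠ v in 𝓝 s, T (pt z v) = T (pt z s) := hs
    filter_upwards [h1.eventually hs] with v hv
    rw [← hc (v - c)] at hv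
    rw [hc s]
    simpa using hv
  refine ⟨fun hs => ?_, key 6 (pt_six z)⟩
  have := key (-6) (fun v => by rw [← pt_six z (v + -6)]; congr 1; ring) hs
  simpa using this

/-- the circle near an angle of `Lc` -/
theorem Lc_circle {z : ℂ} {s : ℝ} (hs : s ∈ Lc T z) :
    ∀ᶠ q in 𝓝[sphere z 1] (pt z s), T q = T (pt z s) := ev_circle z hs

theorem Lc_Ex {z : ℂ} {s : ℝ} (hs : s ∈ Lc T z) : pt z s ∈ Ex T z (T (pt z s)) := mem_Ex_of z hs

variable {κ Λ : Type}

/-- angles of the letter `l` -/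
def Oc (T : ℂ → Set (Fin 6)) (z : ℂ) (f : Set (Fin 6) → Λ) (l : Λ) : Set ℝ :=
  {s | s ∈ Lc T z ∧ f (T (pt z s)) = l}

theorem Oc_open (z : ℂ) (f : Set (Fin 6) → Λ) (l : Λ) : IsOpen (Oc T z f l) := by
  rw [isOpen_iff_mem_nhds]
  intro s hs
  have hs1 : ∀ᶠ v in 𝓝 s, T (pt z v) = T (pt z s) := hs.1
  filter_upwards [(Lc_open z).mem_nhds hs.1, hs1] with v h1 h2
  exact ⟨h1, by rw [h2]; exact hs.2⟩

theorem Oc_per (z : ℂ) (f : Set (Fin 6) → Λ) (l : Λ) (s : ℝ) :
    s + 6 ∈ Oc T z f l ↔ s ∈ Oc T z f l := by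
  unfold Oc
  simp only [mem_ofPred_eq, pt_six, Lc_per]

theorem cl_Oc_per (z : ℂ) (f : Set (Fin 6) → Λ) (l : Λ) (s : ℝ) :
    s + 6 ∈ closure (Oc T z f l) ↔ s ∈ closure (Oc T z f l) := by
  have hpre : (fun v : ℝ => v + 6) ⁻¹' (Oc T z f l) = Oc T z f l := by
    ext v; exact Oc_per z f l v
  have h1 := (Homeomorph.addRight (6 : ℝ)).preimage_closure (Oc T z f l)
  have h2 : (⇑(Homeomorph.addRight (6 : ℝ))) = fun v : ℝ => v + 6 := rfl
  rw [h2, hpre] at h1
  conv_rhs => rw [← h1]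
  exact Iff.rfl

theorem cl_Oc_Lc {z : ℂ} {f : Set (Fin 6) → Λ} {l : Λ} {s : ℝ} (hs : s ∈ Lc T z) :
    s ∈ closure (Oc T z f l) ↔ f (T (pt z s)) = l := by
  constructor
  · intro h
    have hs1 : ∀ᶠ v in 𝓝 s, T (pt z v) = T (pt z s) := hs
    obtain ⟨v, hv1, hv2⟩ := mem_closure_iff_nhds.1 h _ hs1
    have hv1 : T (pt z v) = T (pt z s) := hv1
    rw [← hv1]; exact hv2.2
  · intro h
    exact subset_closure ⟨hs, h⟩

/-- **The letter sets of the slots** -/
def Xl (T : ℂ → Set (Fin 6)) (z : κ → ℂ) (φ : ℝ) (lt : κ → Set (Fin 6) → Λ) (s : κ × Fin 6)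
    (l : Λ) : Set ℝ := {u | φ + u + (s.2.val : ℝ) ∈ closure (Oc T (z s.1) (lt s.1) l)}

/-- the rotation of the slots -/
def rt (κ : Type) : Equiv.Perm (κ × Fin 6) := Equiv.prodCongr (Equiv.refl κ) (Equiv.addRight 1)

theorem rt_apply (c : κ) (j : Fin 6) : rt κ (c, j) = (c, j + 1) := rfl

section slots

variable {z : κ → ℂ} {φ : ℝ} {lt : κ → Set (Fin 6) → Λ}

theorem Xl_closed (s : κ × Fin 6) (l : Λ) : IsClosed (Xl T z φ lt s l) := by
  have hc : Continuous fun u : ℝ => φ + u + (s.2.val : ℝ) := by fun_prop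
  exact isClosed_closure.preimage hc

/-- **the period** -/
theorem Xl_per (s : κ × Fin 6) (l : Λ) (u : ℝ) :
    u + 1 ∈ Xl T z φ lt s l ↔ u ∈ Xl T z φ lt (rt κ s) l := by
  obtain ⟨c, j⟩ := s
  show φ + (u + 1) + (j.val : ℝ) ∈ closure (Oc T (z c) (lt c) l) ↔
    φ + u + ((j + 1 : Fin 6).val : ℝ) ∈ closure (Oc T (z c) (lt c) l)
  by_cases hj : j.val < 5
  · have h1 : (j + 1 : Fin 6).val = j.val + 1 := by
      have : ∀ j : Fin 6, j.val < 5 → (j + 1 : Fin 6).val = j.val + 1 := by decide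
      exact this j hj
    rw [h1]
    push_cast
    rw [show φ + (u + 1) + (j.val : ℝ) = φ + u + ((j.val : ℝ) + 1) by ring]
  · have h1 : (j + 1 : Fin 6).val = 0 ∧ j.val = 5 := by
      have : ∀ j : Fin 6, ¬ j.val < 5 → (j + 1 : Fin 6).val = 0 ∧ j.val = 5 := by decide
      exact this j hj
    rw [h1.1, h1.2]
    rw [show φ + (u + 1) + ((5 : ℕ) : ℝ) = φ + u + ((0 : ℕ) : ℝ) + 6 by push_cast; ring]
    exact cl_Oc_per (z c) (lt c) l _

theorem preimage_dense {E : Set ℝ} (hE : Dense E) (c : ℝ) : Dense {u : ℝ | φ + u + c ∈ E} := by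
  have h1 := hE.preimage (f := fun u : ℝ => u + (φ + c)) (Homeomorph.addRight (φ + c)).isOpenMap
  refine h1.mono fun u hu => ?_
  show φ + u + c ∈ E
  rw [show φ + u + c = u + (φ + c) by ring]
  exact hu

theorem Xl_cover [Finite Λ] (h : Irr U T) (s : κ × Fin 6) (u : ℝ) : ∃ l, u ∈ Xl T z φ lt s l := by
  have h1 : (univ : Set ℝ) ⊆ ⋃ l, closure (Oc T (z s.1) (lt s.1) l) := by
    have h2 : IsClosed (⋃ l, closure (Oc T (z s.1) (lt s.1) l)) :=
      isClosed_iUnion_of_finite fun l => isClosed_closure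
    have h3 := (Lc_dense h (z s.1)).mono
      (s₂ := ⋃ l, closure (Oc T (z s.1) (lt s.1) l)) fun v hv =>
      mem_iUnion.2 ⟨lt s.1 (T (pt (z s.1) v)), subset_closure ⟨hv, rfl⟩⟩
    rw [← h2.closure_eq, h3.closure_eq]
  obtain ⟨l, hl⟩ := mem_iUnion.1 (h1 (mem_univ (φ + u + (s.2.val : ℝ))))
  exact ⟨l, hl⟩

/-- the letter at an angle of `Lc` -/
theorem Xl_Lc {s : κ × Fin 6} {l : Λ} {u : ℝ} (hu : φ + u + (s.2.val : ℝ) ∈ Lc T (z s.1)) :
    u ∈ Xl T z φ lt s l ↔ lt s.1 (T (pt (z s.1) (φ + u + (s.2.val : ℝ)))) = l := cl_Oc_Lc hu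

theorem Xl_gen (h : Irr U T) (s : κ × Fin 6) :
    Dense {u : ℝ | ∀ l m, u ∈ Xl T z φ lt s l → u ∈ Xl T z φ lt s m → l = m} := by
  refine (preimage_dense (φ := φ) (Lc_dense h (z s.1)) (s.2.val : ℝ)).mono fun u hu l m h1 h2 => ?_
  rw [← (Xl_Lc hu).1 h1, ← (Xl_Lc hu).1 h2]

/-- the times such that all slots are angles of `Lc` -/
def Lall (T : ℂ → Set (Fin 6)) (z : κ → ℂ) (φ : ℝ) : Set ℝ :=
  {u | ∀ s : κ × Fin 6, φ + u + (s.2.val : ℝ) ∈ Lc T (z s.1)}

theorem Lall_eq : Lall T z φ = ⋂ s : κ × Fin 6, {u : ℝ | φ + u + (s.2.val : ℝ) ∈ Lc T (z s.1)} := by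
  ext u; simp only [Lall, mem_iInter, mem_ofPred_eq]

theorem Lall_slot_open (s : κ × Fin 6) :
    IsOpen {u : ℝ | φ + u + (s.2.val : ℝ) ∈ Lc T (z s.1)} := by
  have hc : Continuous fun u : ℝ => φ + u + (s.2.val : ℝ) := by fun_prop
  exact (Lc_open (z s.1)).preimage hc

theorem Lall_open [Finite κ] : IsOpen (Lall T z φ) := by
  rw [Lall_eq]
  exact isOpen_iInter_of_finite fun s => Lall_slot_open s

theorem Lall_dense [Finite κ] (h : Irr U T) : Dense (Lall T z φ) := by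
  rw [Lall_eq]
  exact dense_iInter_of_isOpen (fun s => Lall_slot_open s) fun s =>
    preimage_dense (Lc_dense h (z s.1)) _

/-- **From `Irr` to `Sw`.** -/
theorem sw_of [Finite κ] [Finite Λ] (h : Irr U T) {L : (κ × Fin 6 → Λ) → Prop} {D : Set ℝ}
    (hD : Dense D) (hleg : ∀ u ∈ D, u ∈ Lall T z φ →
      L fun s => lt s.1 (T (pt (z s.1) (φ + u + (s.2.val : ℝ))))) : Sw (Xl T z φ lt) L := by
  refine Sw.of_dense Xl_closed (Xl_cover h) (Xl_gen h)
    (hD.inter_of_isOpen_right (Lall_dense (z := z) (φ := φ) h) Lall_open)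
    fun u hu _ g hg => ?_
  have e : g = fun s => lt s.1 (T (pt (z s.1) (φ + u + (s.2.val : ℝ)))) := by
    funext s
    exact ((Xl_Lc (hu.2 s)).1 (hg s)).symm
  rw [e]
  exact hleg u hu.1 hu.2

/-- the palettes behind an available letter -/
theorem Xl_pal {s : κ × Fin 6} {l : Λ} {u : ℝ} (hu : u ∈ Xl T z φ lt s l) :
    ∃ P : Set (Fin 6), lt s.1 P = l ∧
      φ + u + (s.2.val : ℝ) ∈ closure {v | v ∈ Lc T (z s.1) ∧ T (pt (z s.1) v) = P} ∧
      pt (z s.1) (φ + u + (s.2.val : ℝ)) ∈ closure (Ex T (z s.1) P) := by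
  have h1 : Oc T (z s.1) (lt s.1) l ⊆ ⋃ P : {P : Set (Fin 6) // lt s.1 P = l},
      {v | v ∈ Lc T (z s.1) ∧ T (pt (z s.1) v) = P.1} := by
    intro v hv
    exact mem_iUnion.2 ⟨⟨T (pt (z s.1) v), hv.2⟩, hv.1, rfl⟩
  have h2 := closure_mono h1 hu
  rw [closure_iUnion_of_finite] at h2
  obtain ⟨P, hP⟩ := mem_iUnion.1 h2
  refine ⟨P.1, P.2, hP, ?_⟩
  have h3 := (continuous_pt (z s.1)).closure_preimage_subset (Ex T (z s.1) P.1)
  refine h3 (closure_mono (fun v hv => ?_) hP)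
  have h4 := Lc_Ex hv.1
  rw [hv.2] at h4
  exact h4

theorem Xl_sub (h : Irr U T) {s : κ × Fin 6} {l : Λ} {u : ℝ} (hu : u ∈ Xl T z φ lt s l) :
    ∃ P : Set (Fin 6), lt s.1 P = l ∧ P ⊆ T (pt (z s.1) (φ + u + (s.2.val : ℝ))) := by
  obtain ⟨P, h1, -, h2⟩ := Xl_pal hu
  exact ⟨P, h1, sub_of_closure h h2⟩

end slots

/-! ### The rules at angles of `Lc` -/

/-- **60-rule** -/
theorem dj_sixty (h : Irr U T) {z : ℂ} {s : ℝ} (hs : s ∈ Lc T z) :
    Disjoint (T (pt z s)) (T (pt z (s + 1))) := by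
  rw [Set.disjoint_left]
  intro i hi hi'
  have ha : pt z s ∈ H187.Cr U z (T (pt z s)) :=
    H187.Cr_of_T h (dist_pt z s) ((Lc_circle hs).mono fun q hq => hq.ge)
  exact H187.sixty h.mx ha hi (dist_pt z (s + 1)) (dist_pt_one z s) (h.sub _ hi')

/-- the 60-rule in the other direction -/
theorem dj_sixty' (h : Irr U T) {z : ℂ} {s : ℝ} (hs : s + 1 ∈ Lc T z) :
    Disjoint (T (pt z s)) (T (pt z (s + 1))) := by
  rw [Set.disjoint_right]
  intro i hi hi'
  have ha : pt z (s + 1) ∈ H187.Cr U z (T (pt z (s + 1))) :=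
    H187.Cr_of_T h (dist_pt z (s + 1)) ((Lc_circle hs).mono fun q hq => hq.ge)
  exact H187.sixty h.mx ha hi (dist_pt z s) (by rw [dist_comm]; exact dist_pt_one z s)
    (h.sub _ hi')

/-- **product rule** -/
theorem dj_prod (h : Irr U T) {z y : ℂ} (hzy : dist z y = 1) {s : ℝ} (hs : s ∈ Lc T z)
    (h1 : pt z s ≠ y) (h2 : pt z (s + 3) ≠ y) : Disjoint (T (pt z s)) (T (pt y s)) := by
  rw [Set.disjoint_left]
  intro i hi hi'
  have ha : pt z s ∈ H187.Cr U z (T (pt z s)) :=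
    H187.Cr_of_T h (dist_pt z s) ((Lc_circle hs).mono fun q hq => hq.ge)
  refine H187.product_pt h.mx (y := y) (by rw [dist_comm]; exact hzy) ha hi h1 ?_ (h.sub _ hi')
  intro h3
  rw [pt_three] at h2
  exact h2 (by linear_combination -h3)

/-- **letter rule**: a constant palette inside `T z` has at least two colours and misses at least two
colours of `T z` -/
theorem two_out (h : Irr U T) {z : ℂ} {s : ℝ} (hs : s ∈ Lc T z) (hsub : T (pt z s) ⊆ T z) :
    2 ≤ (T (pt z s)).ncard ∧ 2 ≤ (T z \ T (pt z s)).ncard := by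
  have hz : z ∈ XX U := by
    obtain ⟨i, hi⟩ := h.ne (pt z s)
    exact h.mem_XX (by rw [dist_comm]; exact dist_pt z s) (hsub hi) (h.sub _ hi)
  refine ⟨?_, h.gap_two hz (dist_pt z s) ((Lc_circle hs).mono fun q hq => ?_)⟩
  · by_contra hcon
    obtain ⟨i, hi⟩ := h.ne (pt z s)
    have h2 : T (pt z s) ⊆ {i} := fun m hm =>
      (Set.ncard_le_one (Set.toFinite _)).1 (by omega) m hm i hi
    exact h.mx.notMem' (h.mem_of_single h2) (dist_pt z s) (h.sub z (hsub hi))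
  · rw [← hq]; exact h.sub q

/-- centres with at most three colours: every constant palette has a colour outside `T z` -/
theorem out_three (h : Irr U T) {z : ℂ} (h3 : (T z).ncard ≤ 3) (s : ℝ) :
    ∃ i ∈ T (pt z s), i ∉ T z := h.not_sub' (dist_pt z s) h3

/-- centres with four colours: a constant palette inside `T z` is a pair -/
theorem pair_four (h : Irr U T) {z : ℂ} (h4 : (T z).ncard = 4) {s : ℝ} (hs : s ∈ Lc T z)
    (hsub : T (pt z s) ⊆ T z) : (T (pt z s)).ncard = 2 ∧ (T z \ T (pt z s)).ncard = 2 := by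
  obtain ⟨h1, h2⟩ := two_out h hs hsub
  have h5 := Set.ncard_sdiff_add_ncard_of_subset hsub
  omega

/-- **antipodal rule**: two antipodal constant palettes leave at least two colours of `T z` -/
theorem anti_two (h : Irr U T) {z : ℂ} (hz : z ∈ XX U) {s : ℝ} (hs : s ∈ Lc T z)
    (hs' : s + 3 ∈ Lc T z) : 2 ≤ (T z \ (T (pt z s) ∪ T (pt z (s + 3)))).ncard := by
  by_contra hcon
  have h1 : (T z \ (T (pt z s) ∪ T (pt z (s + 3)))).ncard ≤ 1 := by omega
  have hins : ∃ l, T z ⊆ insert l (T (pt z s) ∪ T (pt z (s + 3))) := by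
    rcases Set.eq_empty_or_nonempty (T z \ (T (pt z s) ∪ T (pt z (s + 3)))) with he | ⟨l, hl⟩
    · obtain ⟨i, -⟩ := h.ne z
      exact ⟨i, (sdiff_eq_empty.1 he).trans (subset_insert _ _)⟩
    · refine ⟨l, fun m hm => ?_⟩
      by_cases hmq : m ∈ T (pt z s) ∪ T (pt z (s + 3))
      · exact Or.inr hmq
      · left
        exact (Set.ncard_le_one (Set.toFinite _)).1 h1 m ⟨hm, hmq⟩ l hl
  obtain ⟨l, hl⟩ := hins
  refine anti_open h hz (dist_pt z s) (P := T (pt z s)) (P' := T (pt z (s + 3))) (x := l)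
    ((Lc_circle hs).mono fun q hq => hq.ge) ?_ hl
  rw [← pt_three]
  exact (Lc_circle hs').mono fun q hq => hq.ge

/-! ### The basic structure: 60-rule and product rule -/

/-- the times without direction between the centres -/
def Dir (z : κ → ℂ) (φ : ℝ) : Set ℝ :=
  {u | ∀ c c' (j : Fin 6), pt (z c) (φ + u + (j.val : ℝ)) ≠ z c'}

theorem Dir_dense [Finite κ] (z : κ → ℂ) (φ : ℝ) : Dense (Dir z φ) := by
  have e : Dir z φ = ⋂ p : κ × κ × Fin 6,
      {u : ℝ | pt (z p.1) (φ + u + (p.2.2.val : ℝ)) ≠ z p.2.1} := by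
    ext u
    simp only [Dir, mem_iInter, mem_ofPred_eq, Prod.forall]
  rw [e]
  have hc : ∀ p : κ × κ × Fin 6,
      Continuous fun u : ℝ => pt (z p.1) (φ + u + (p.2.2.val : ℝ)) := fun p =>
    (continuous_pt (z p.1)).comp (by fun_prop)
  refine dense_iInter_of_isOpen (fun p => isOpen_ne.preimage (hc p)) fun p => ?_
  intro u
  rw [mem_closure_iff_nhds]
  intro N hN
  obtain ⟨ε, hε, hball⟩ := Metric.mem_nhds_iff.1 hN
  by_cases h1 : pt (z p.1) (φ + u + (p.2.2.val : ℝ)) = z p.2.1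
  · have hδ : 0 < min (ε / 2) 1 := by positivity
    refine ⟨u + min (ε / 2) 1, hball ?_, ?_⟩
    · rw [mem_ball, Real.dist_eq, add_sub_cancel_left, abs_of_pos hδ]
      exact lt_of_le_of_lt (min_le_left _ _) (by linarith)
    · intro h2
      obtain ⟨n, hn⟩ := pt_eq_iff (h2.trans h1.symm)
      have h3 : min (ε / 2) 1 = 6 * (n : ℝ) := by linarith
      have h4 : (0 : ℝ) < 6 * (n : ℝ) := h3 ▸ hδ
      have h5 : 6 * (n : ℝ) ≤ 1 := h3 ▸ min_le_right _ _
      have h6 : (0 : ℝ) < (n : ℝ) := by linarith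
      have h7 : (1 : ℤ) ≤ n := by exact_mod_cast h6
      have h8 : (1 : ℝ) ≤ (n : ℝ) := by exact_mod_cast h7
      linarith
  · exact ⟨u, mem_of_mem_nhds hN, h1⟩

/-- the basic rules for the palettes of all the slots at the time `u` -/
structure Bas (U : Fin 6 → Set ℂ) (T : ℂ → Set (Fin 6)) (z : κ → ℂ) (g : κ × Fin 6 → Set (Fin 6)) :
    Prop where
  sixty : ∀ c j, Disjoint (g (c, j)) (g (c, j + 1))
  prod : ∀ c c', dist (z c) (z c') = 1 → ∀ j, Disjoint (g (c, j)) (g (c', j))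
  ne : ∀ s, (g s).Nonempty
  two : ∀ c j, g (c, j) ⊆ T (z c) → 2 ≤ (g (c, j)).ncard ∧ 2 ≤ (T (z c) \ g (c, j)).ncard
  anti : ∀ c, z c ∈ XX U → ∀ j, 2 ≤ (T (z c) \ (g (c, j) ∪ g (c, j + 3))).ncard

/-- the palettes of the slots -/
def pals (T : ℂ → Set (Fin 6)) (z : κ → ℂ) (φ u : ℝ) : κ × Fin 6 → Set (Fin 6) :=
  fun s => T (pt (z s.1) (φ + u + (s.2.val : ℝ)))

theorem pt_succ (z : ℂ) (φ u : ℝ) (j : Fin 6) :
    pt z (φ + u + ((j + 1 : Fin 6).val : ℝ)) = pt z (φ + u + (j.val : ℝ) + 1) := by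
  by_cases hj : j.val < 5
  · have h1 : (j + 1 : Fin 6).val = j.val + 1 := by
      have : ∀ j : Fin 6, j.val < 5 → (j + 1 : Fin 6).val = j.val + 1 := by decide
      exact this j hj
    rw [h1]
    push_cast
    rw [show φ + u + ((j.val : ℝ) + 1) = φ + u + (j.val : ℝ) + 1 by ring]
  · have h1 : (j + 1 : Fin 6).val = 0 ∧ j.val = 5 := by
      have : ∀ j : Fin 6, ¬ j.val < 5 → (j + 1 : Fin 6).val = 0 ∧ j.val = 5 := by decide
      exact this j hj
    rw [h1.1, h1.2, ← pt_six z (φ + u + ((0 : ℕ) : ℝ))]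
    congr 1
    push_cast; ring

theorem pt_add3 (z : ℂ) (φ u : ℝ) (j : Fin 6) :
    pt z (φ + u + ((j + 3 : Fin 6).val : ℝ)) = pt z (φ + u + (j.val : ℝ) + 3) := by
  by_cases hj : j.val < 3
  · have h1 : (j + 3 : Fin 6).val = j.val + 3 := by
      have : ∀ j : Fin 6, j.val < 3 → (j + 3 : Fin 6).val = j.val + 3 := by decide
      exact this j hj
    rw [h1]
    push_cast
    rw [show φ + u + ((j.val : ℝ) + 3) = φ + u + (j.val : ℝ) + 3 by ring]
  · have h1 : (j + 3 : Fin 6).val + 3 = j.val := by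
      have : ∀ j : Fin 6, ¬ j.val < 3 → (j + 3 : Fin 6).val + 3 = j.val := by decide
      exact this j hj
    have h2 : (j.val : ℝ) = ((j + 3 : Fin 6).val : ℝ) + 3 := by
      rw [← h1]; push_cast; ring
    rw [h2, ← pt_six z (φ + u + ((j + 3 : Fin 6).val : ℝ))]
    congr 1
    ring

theorem Lc_add3 {z : κ → ℂ} {φ u : ℝ} (hu : u ∈ Lall T z φ) (c : κ) (j : Fin 6) :
    φ + u + (j.val : ℝ) + 3 ∈ Lc T (z c) := by
  have h1 := hu (c, j + 3)
  by_cases hj : j.val < 3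
  · have h2 : (j + 3 : Fin 6).val = j.val + 3 := by
      have : ∀ j : Fin 6, j.val < 3 → (j + 3 : Fin 6).val = j.val + 3 := by decide
      exact this j hj
    have h1 : φ + u + ((j + 3 : Fin 6).val : ℝ) ∈ Lc T (z c) := h1
    rw [h2] at h1
    push_cast at h1
    rwa [show φ + u + (j.val : ℝ) + 3 = φ + u + ((j.val : ℝ) + 3) by ring]
  · have h2 : (j + 3 : Fin 6).val + 3 = j.val := by
      have : ∀ j : Fin 6, ¬ j.val < 3 → (j + 3 : Fin 6).val + 3 = j.val := by decide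
      exact this j hj
    have h3 : (j.val : ℝ) = ((j + 3 : Fin 6).val : ℝ) + 3 := by
      rw [← h2]; push_cast; ring
    have h1 : φ + u + ((j + 3 : Fin 6).val : ℝ) ∈ Lc T (z c) := h1
    rw [h3, show φ + u + (((j + 3 : Fin 6).val : ℝ) + 3) + 3 =
      φ + u + ((j + 3 : Fin 6).val : ℝ) + 6 by ring]
    exact (Lc_per _ _).2 h1

/-- **the rules at generic times** -/
theorem bas_of (h : Irr U T) {z : κ → ℂ} {φ u : ℝ} (hu : u ∈ Lall T z φ) (hd : u ∈ Dir z φ) :
    Bas U T z (pals T z φ u) where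
  sixty := fun c j => by
    show Disjoint (T (pt (z c) (φ + u + (j.val : ℝ))))
      (T (pt (z c) (φ + u + ((j + 1 : Fin 6).val : ℝ))))
    rw [pt_succ]
    exact dj_sixty h (hu (c, j))
  prod := fun c c' hcc j => by
    show Disjoint (T (pt (z c) (φ + u + (j.val : ℝ)))) (T (pt (z c') (φ + u + (j.val : ℝ))))
    refine dj_prod h hcc (hu (c, j)) (hd c c' j) ?_
    rw [← pt_add3]
    exact hd c c' (j + 3)
  ne := fun s => h.ne _
  two := fun c j hsub => two_out h (hu (c, j)) hsub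
  anti := fun c hc j => by
    show 2 ≤ (T (z c) \ (T (pt (z c) (φ + u + (j.val : ℝ))) ∪
      T (pt (z c) (φ + u + ((j + 3 : Fin 6).val : ℝ))))).ncard
    rw [pt_add3]
    exact anti_two h hc (hu (c, j)) (Lc_add3 hu c j)

/-- **From `Irr` to `Sw`, basic rules.**  The letter functions `lt`; legality has to follow from the
rules for the palettes. -/
theorem sw_bas [Finite κ] [Finite Λ] (h : Irr U T) {z : κ → ℂ} {φ : ℝ} {lt : κ → Set (Fin 6) → Λ}
    {L : (κ × Fin 6 → Λ) → Prop} (hL : ∀ g, Bas U T z g → L fun s => lt s.1 (g s)) :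
    Sw (Xl T z φ lt) L :=
  sw_of h (Dir_dense z φ) fun _ hd hu => hL _ (bas_of h hu hd)

/-- letters = palettes -/
theorem sw_pal [Finite κ] (h : Irr U T) (z : κ → ℂ) (φ : ℝ) :
    Sw (Xl T z φ fun (_ : κ) (P : Set (Fin 6)) => P) (Bas U T z) :=
  sw_bas h fun _ hg => hg

end Vale.Agent.P032.Sweep
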