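import Vale.Agent.P032.H227.Cont
import Vale.Agent.P032.S5.H767.Raw

/-!
# P032: complements of the faces of the next but one vertex of a chain

`V` a two-pair point with the pairs `ab | cd`, `u` a three-point with the palette complementary to the
face `{a, b, d}` of `V`, both contacts of `S(u)` and `S(V)` in the closure of the exact `ab`-arcs of
`S(V)`.  If this closure is in the unit disc of `V1`, every point of the disc of `V` at distance one
from `V1` has distance at least one from `u` (`far_two`).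
-/

open Set Filter Topology Metric

noncomputable section

namespace Vale.Agent.P032.H383

open Vale.Agent.P032.Six Vale.Agent.P032.S5.H767 Vale.Agent.P032.H227

variable {U : Fin 6 → Set ℂ} {T : ℂ → Set (Fin 6)}

/-- real form of `lens_half` -/
theorem lens_real_half {t ξ η ω ζ : ℝ} (h1 : ξ ^ 2 + (η - t) ^ 2 < 1 + t ^ 2)
    (h2 : ξ ^ 2 + (η + t) ^ 2 ≤ 1 + t ^ 2) (h3 : (ω - 1) ^ 2 + ζ ^ 2 ≤ 1 + t ^ 2)
    (h4 : (ω + 1) ^ 2 + ζ ^ 2 ≤ 1 + t ^ 2) (hne : ¬ (ω = 0 ∧ ζ = -t)) :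
    (ξ - ω) ^ 2 + (η - ζ) ^ 2 < 1 + t ^ 2 := by
  have k1 : ξ ^ 2 + η ^ 2 < 1 + 2 * (η * t) := by nlinarith
  have k2 : ξ ^ 2 + η ^ 2 ≤ 1 - 2 * (η * t) := by nlinarith
  have k3 : ω ^ 2 + ζ ^ 2 + 2 * |ω| ≤ t ^ 2 := by
    rcases abs_cases ω with ⟨h5, _⟩ | ⟨h5, _⟩ <;> rw [h5] <;> nlinarith
  have k4 : ξ ^ 2 + η ^ 2 ≤ 1 - 2 * |η * t| := by
    rcases abs_cases (η * t) with ⟨h5, _⟩ | ⟨h5, _⟩ <;> rw [h5] <;> linarith
  have hξ : |ξ| < 1 := by
    rw [← sq_lt_one_iff_abs_lt_one]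
    nlinarith [sq_nonneg η]
  have hζ : |ζ| ≤ |t| := by
    rw [← sq_le_sq]
    nlinarith [sq_nonneg ω, abs_nonneg ω]
  have k5 : -|ω| ≤ ξ * ω := by
    have h5 : |ξ * ω| ≤ |ω| := by
      rw [abs_mul]
      nlinarith [abs_nonneg ω]
    linarith [neg_abs_le (ξ * ω)]
  have k6 : -|η * t| ≤ η * ζ := by
    have h5 : |η * ζ| ≤ |η * t| := by
      rw [abs_mul, abs_mul]
      exact mul_le_mul_of_nonneg_left hζ (abs_nonneg η)
    linarith [neg_abs_le (η * ζ)]
  by_cases hω : ω = 0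
  · subst hω
    rw [abs_zero] at k3
    by_contra hcon
    push Not at hcon
    have h6 : η * ζ = -|η * t| := by nlinarith
    have h7 : ξ ^ 2 + η ^ 2 = 1 - 2 * |η * t| := by nlinarith
    have h8 : ζ ^ 2 = t ^ 2 := by nlinarith
    have hη : 0 < η * t := by
      by_contra hη
      push Not at hη
      rw [abs_of_nonpos hη] at h7
      linarith
    rw [abs_of_pos hη] at h6
    have h9 : η * (ζ + t) = 0 := by linarith
    rcases mul_eq_zero.1 h9 with h10 | h10
    · rw [h10, zero_mul] at hη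
      exact lt_irrefl _ hη
    · exact hne ⟨rfl, by linarith⟩
  · have h5 : -|ω| < ξ * ω := by
      have h6 : |ξ * ω| < |ω| := by
        rw [abs_mul]
        have := abs_pos.2 hω
        nlinarith
      linarith [neg_abs_le (ξ * ω)]
    nlinarith

/-- **the lens of the discs of `u` and `v` without the circle of `u` is in every other open unit disc
which contains its corners in its closure** -/
theorem lens_half {u v p p' o x : ℂ} (hpu : dist p u = 1) (hpv : dist p v = 1)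
    (hpu' : dist p' u = 1) (hpv' : dist p' v = 1) (hpp : p ≠ p') (huv : u ≠ v)
    (ho : dist o p ≤ 1) (ho' : dist o p' ≤ 1) (hov : o ≠ v) (hx : dist x u < 1)
    (hx' : dist x v ≤ 1) : dist x o < 1 := by
  obtain ⟨m, A, t, hA, rfl, rfl, rfl, rfl, hN⟩ := lens_coord hpu hpv hpu' hpv' hpp huv
  have hA2 : 0 < Complex.normSq A := Complex.normSq_pos.2 hA
  obtain ⟨r, rfl⟩ : ∃ r, x = m + r * A := ⟨(x - m) / A, by field_simp; ring⟩
  obtain ⟨s, rfl⟩ : ∃ s, o = m + s * A := ⟨(o - m) / A, by field_simp; ring⟩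
  have k1 := (key_lt hA2 hN (r - t * Complex.I)).1 (by
    rw [show (r - t * Complex.I) * A = m + r * A - (m + t * Complex.I * A) by ring]
    exact H227.dist_lt_one_iff.1 hx)
  have k2 := (key_le hA2 hN (r + t * Complex.I)).1 (by
    rw [show (r + t * Complex.I) * A = m + r * A - (m - t * Complex.I * A) by ring]
    exact dist_le_one_iff.1 hx')
  have k3 := (key_le hA2 hN (s - 1)).1 (by
    rw [show (s - 1) * A = m + s * A - (m + A) by ring]
    exact dist_le_one_iff.1 ho)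
  have k4 := (key_le hA2 hN (s + 1)).1 (by
    rw [show (s + 1) * A = m + s * A - (m - A) by ring]
    exact dist_le_one_iff.1 ho')
  rw [H227.dist_lt_one_iff, show m + r * A - (m + s * A) = (r - s) * A by ring]
  refine (key_lt hA2 hN (r - s)).2 ?_
  rw [ns1] at k1
  rw [ns2] at k2
  rw [ns3] at k3
  rw [ns4] at k4
  rw [ns5]
  refine lens_real_half k1 k2 k3 k4 ?_
  rintro ⟨h1, h2⟩
  refine hov ?_
  have h3 : s = -(t * Complex.I) := by
    apply Complex.ext
    · rw [h1]; simp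
    · rw [h2]; simp
  rw [h3]
  ring

/-- **the next but one vertex** -/
theorem far_two (h : Irr U T) {u V V1 w : ℂ} {a b c d : Fin 6} (hV : DPt T V a b c d)
    (h3 : (T u).ncard ≤ 3) (hu : T u = ({a, b, d} : Set (Fin 6))ᶜ)
    (hcon : ∀ p, dist p u = 1 → dist p V = 1 → p ∈ closure (Ex T V {a, b}) ∨ (T p).ncard ≤ 3)
    (ho : ∀ p ∈ closure (Ex T V {a, b}), dist V1 p ≤ 1) (hne1 : V1 ≠ V)
    (hw1 : dist w V1 = 1) (hwV : dist w V ≤ 1) : 1 ≤ dist w u := by
  by_contra hcl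
  push Not at hcl
  have hlt : dist u V < 2 := by
    have := dist_triangle u w V
    rw [dist_comm u w] at this
    linarith
  have hne : u ≠ V := by
    rintro rfl
    have h1 : a ∈ T u := by rw [hV.pal]; simp
    rw [hu] at h1
    exact h1 (by simp)
  obtain ⟨p, p', hpp, h1, h2, h1', h2', e, e'⟩ := exists_two hlt hne
  have key : ∀ q, dist q u = 1 → dist q V = 1 → u + V ≠ 2 * q → dist V1 q ≤ 1 := by
    intro q g1 g2 g3
    refine ho q ?_
    rcases hcon q g1 g2 with h4 | h4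
    · exact h4
    · exact contact_three h hV h3 hu g1 g2 g3 h4
  have := lens_half h1 h2 h1' h2' hpp hne (key p h1 h2 e) (key p' h1' h2' e') hne1 hcl hwV
  rw [hw1] at this
  exact lt_irrefl _ this

/-! ### Arcs -/

theorem sq_dist_pt (z : ℂ) (s t : ℝ) :
    dist (pt z s) (pt z t) ^ 2 = 2 - 2 * Real.cos ((s - t) * (Real.pi / 3)) := by
  have h1 : pt z s - pt z t = cis (t * (Real.pi / 3)) * (cis ((s - t) * (Real.pi / 3)) - 1) := by
    unfold pt
    have h2 : cis (s * (Real.pi / 3)) = cis (t * (Real.pi / 3)) * cis ((s - t) * (Real.pi / 3)) := by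
      rw [← Six.cis_add]
      ring_nf
    rw [h2]
    ring
  have h3 := Real.sin_sq_add_cos_sq ((s - t) * (Real.pi / 3))
  rw [dist_eq_norm, h1, norm_mul, norm_cis, one_mul, Complex.sq_norm, Complex.normSq_apply]
  simp only [Complex.sub_re, Complex.one_re, Complex.sub_im, Complex.one_im]
  unfold cis
  rw [Complex.exp_ofReal_mul_I_re, Complex.exp_ofReal_mul_I_im]
  nlinarith

/-- points of a unit circle at angle at most 60 degrees -/
theorem dist_pt_le (z : ℂ) {s t : ℝ} (h : |s - t| ≤ 1) : dist (pt z s) (pt z t) ≤ 1 := by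
  have hpi := Real.pi_pos
  have h1 : 1 / 2 ≤ Real.cos ((s - t) * (Real.pi / 3)) := by
    rw [← Real.cos_pi_div_three, ← Real.cos_abs ((s - t) * (Real.pi / 3))]
    refine Real.cos_le_cos_of_nonneg_of_le_pi (abs_nonneg _) (by linarith) ?_
    rw [abs_mul, abs_of_pos (by positivity : 0 < Real.pi / 3)]
    nlinarith
  have h2 := sq_dist_pt z s t
  have h3 : 0 ≤ dist (pt z s) (pt z t) := dist_nonneg
  nlinarith

/-- the closed exact arcs in one closed arc -/
theorem closure_arc {V : ℂ} {P : Set (Fin 6)} {s t : ℝ} (hG : Ex T V P ⊆ pt V '' Icc s t) :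
    closure (Ex T V P) ⊆ pt V '' Icc s t :=
  closure_minimal hG (isCompact_Icc.image (continuous_pt V)).isClosed

/-- **the next but one vertex, arc form**: the exact `ab`-arcs of `S(V)` are in the closed arc from
`pt V s` to `pt V t` of at most 60 degrees, `V1` is one of its ends -/
theorem far_two_arc (h : Irr U T) {u V V1 w : ℂ} {a b c d : Fin 6} {s t : ℝ}
    (hV : DPt T V a b c d) (h3 : (T u).ncard ≤ 3) (hu : T u = ({a, b, d} : Set (Fin 6))ᶜ)
    (hcon : ∀ p, dist p u = 1 → dist p V = 1 → p ∈ closure (Ex T V {a, b}) ∨ (T p).ncard ≤ 3)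
    (hG : Ex T V {a, b} ⊆ pt V '' Icc s t) (hlen : t ≤ s + 1) (hV1 : V1 ∈ pt V '' Icc s t)
    (hw1 : dist w V1 = 1) (hwV : dist w V ≤ 1) : 1 ≤ dist w u := by
  obtain ⟨r, hr, rfl⟩ := hV1
  refine far_two h hV h3 hu hcon ?_ ?_ hw1 hwV
  · intro p hp
    obtain ⟨v, hv, rfl⟩ := closure_arc hG hp
    refine dist_pt_le V (abs_le.2 ⟨?_, ?_⟩)
    · linarith [hr.1, hv.2]
    · linarith [hr.2, hv.1]
  · intro e
    have := dist_pt V r
    rw [e, dist_self] at this
    exact zero_ne_one this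

/-! ### Arcs of less than 60 degrees -/

/-- real form of `lens_in` -/
theorem lens_real_in {t ξ η ω ζ : ℝ} (h1 : ξ ^ 2 + (η - t) ^ 2 ≤ 1 + t ^ 2)
    (h2 : ξ ^ 2 + (η + t) ^ 2 ≤ 1 + t ^ 2) (h3 : (ω - 1) ^ 2 + ζ ^ 2 < 1 + t ^ 2)
    (h4 : (ω + 1) ^ 2 + ζ ^ 2 < 1 + t ^ 2) : (ξ - ω) ^ 2 + (η - ζ) ^ 2 < 1 + t ^ 2 := by
  have k1 : ξ ^ 2 + η ^ 2 ≤ 1 + 2 * (η * t) := by nlinarith
  have k2 : ξ ^ 2 + η ^ 2 ≤ 1 - 2 * (η * t) := by nlinarith
  have k3 : ω ^ 2 + ζ ^ 2 + 2 * |ω| < t ^ 2 := by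
    rcases abs_cases ω with ⟨h5, _⟩ | ⟨h5, _⟩ <;> rw [h5] <;> nlinarith
  have k4 : ξ ^ 2 + η ^ 2 ≤ 1 - 2 * |η * t| := by
    rcases abs_cases (η * t) with ⟨h5, _⟩ | ⟨h5, _⟩ <;> rw [h5] <;> linarith
  have hξ : |ξ| ≤ 1 := by
    rw [← sq_le_one_iff_abs_le_one]
    nlinarith [sq_nonneg η]
  have hζ : |ζ| ≤ |t| := by
    rw [← sq_le_sq]
    nlinarith [sq_nonneg ω, abs_nonneg ω]
  have k5 : -|ω| ≤ ξ * ω := by
    have h5 : |ξ * ω| ≤ |ω| := by
      rw [abs_mul]
      nlinarith [abs_nonneg ω]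
    linarith [neg_abs_le (ξ * ω)]
  have k6 : -|η * t| ≤ η * ζ := by
    have h5 : |η * ζ| ≤ |η * t| := by
      rw [abs_mul, abs_mul]
      exact mul_le_mul_of_nonneg_left hζ (abs_nonneg η)
    linarith [neg_abs_le (η * ζ)]
  nlinarith

/-- the closed lens is in every open unit disc which contains its corners -/
theorem lens_in {u v p p' o x : ℂ} (hpu : dist p u = 1) (hpv : dist p v = 1)
    (hpu' : dist p' u = 1) (hpv' : dist p' v = 1) (hpp : p ≠ p') (huv : u ≠ v)
    (ho : dist o p < 1) (ho' : dist o p' < 1) (hx : dist x u ≤ 1)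
    (hx' : dist x v ≤ 1) : dist x o < 1 := by
  obtain ⟨m, A, t, hA, rfl, rfl, rfl, rfl, hN⟩ := lens_coord hpu hpv hpu' hpv' hpp huv
  have hA2 : 0 < Complex.normSq A := Complex.normSq_pos.2 hA
  obtain ⟨r, rfl⟩ : ∃ r, x = m + r * A := ⟨(x - m) / A, by field_simp; ring⟩
  obtain ⟨s, rfl⟩ : ∃ s, o = m + s * A := ⟨(o - m) / A, by field_simp; ring⟩
  have k1 := (key_le hA2 hN (r - t * Complex.I)).1 (by
    rw [show (r - t * Complex.I) * A = m + r * A - (m + t * Complex.I * A) by ring]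
    exact dist_le_one_iff.1 hx)
  have k2 := (key_le hA2 hN (r + t * Complex.I)).1 (by
    rw [show (r + t * Complex.I) * A = m + r * A - (m - t * Complex.I * A) by ring]
    exact dist_le_one_iff.1 hx')
  have k3 := (key_lt hA2 hN (s - 1)).1 (by
    rw [show (s - 1) * A = m + s * A - (m + A) by ring]
    exact H227.dist_lt_one_iff.1 ho)
  have k4 := (key_lt hA2 hN (s + 1)).1 (by
    rw [show (s + 1) * A = m + s * A - (m - A) by ring]
    exact H227.dist_lt_one_iff.1 ho')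
  rw [H227.dist_lt_one_iff, show m + r * A - (m + s * A) = (r - s) * A by ring]
  refine (key_lt hA2 hN (r - s)).2 ?_
  rw [ns1] at k1
  rw [ns2] at k2
  rw [ns3] at k3
  rw [ns4] at k4
  rw [ns5]
  exact lens_real_in k1 k2 k3 k4

/-- **the next but one vertex, closed disc** -/
theorem far_two_lt (h : Irr U T) {u V V1 w : ℂ} {a b c d : Fin 6} (hV : DPt T V a b c d)
    (h3 : (T u).ncard ≤ 3) (hu : T u = ({a, b, d} : Set (Fin 6))ᶜ)
    (hcon : ∀ p, dist p u = 1 → dist p V = 1 → p ∈ closure (Ex T V {a, b}) ∨ (T p).ncard ≤ 3)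
    (ho : ∀ p ∈ closure (Ex T V {a, b}), dist V1 p < 1)
    (hw1 : dist w V1 = 1) (hwV : dist w V ≤ 1) (hlt : dist u V < 2) : 1 < dist w u := by
  by_contra hcl
  push Not at hcl
  have hne : u ≠ V := by
    rintro rfl
    have h1 : a ∈ T u := by rw [hV.pal]; simp
    rw [hu] at h1
    exact h1 (by simp)
  obtain ⟨p, p', hpp, h1, h2, h1', h2', e, e'⟩ := exists_two hlt hne
  have key : ∀ q, dist q u = 1 → dist q V = 1 → u + V ≠ 2 * q → dist V1 q < 1 := by
    intro q g1 g2 g3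
    refine ho q ?_
    rcases hcon q g1 g2 with h4 | h4
    · exact h4
    · exact contact_three h hV h3 hu g1 g2 g3 h4
  have := lens_in h1 h2 h1' h2' hpp hne (key p h1 h2 e) (key p' h1' h2' e') hcl hwV
  rw [hw1] at this
  exact lt_irrefl _ this

/-- points of a unit circle at angle less than 60 degrees -/
theorem dist_pt_lt (z : ℂ) {s t : ℝ} (h : |s - t| < 1) : dist (pt z s) (pt z t) < 1 := by
  have hpi := Real.pi_pos
  have h1 : 1 / 2 < Real.cos ((s - t) * (Real.pi / 3)) := by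
    rw [← Real.cos_pi_div_three, ← Real.cos_abs ((s - t) * (Real.pi / 3))]
    refine Real.cos_lt_cos_of_nonneg_of_le_pi (abs_nonneg _) (by linarith) ?_
    rw [abs_mul, abs_of_pos (by positivity : 0 < Real.pi / 3)]
    nlinarith
  have h2 := sq_dist_pt z s t
  have h3 : 0 ≤ dist (pt z s) (pt z t) := dist_nonneg
  nlinarith

/-- **the next but one vertex, arc form, closed disc** -/
theorem far_two_arc_lt (h : Irr U T) {u V V1 w : ℂ} {a b c d : Fin 6} {s t : ℝ}
    (hV : DPt T V a b c d) (h3 : (T u).ncard ≤ 3) (hu : T u = ({a, b, d} : Set (Fin 6))ᶜ)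
    (hcon : ∀ p, dist p u = 1 → dist p V = 1 → p ∈ closure (Ex T V {a, b}) ∨ (T p).ncard ≤ 3)
    (hG : Ex T V {a, b} ⊆ pt V '' Icc s t) (hlen : t < s + 1) (hV1 : V1 ∈ pt V '' Icc s t)
    (hw1 : dist w V1 = 1) (hwV : dist w V < 1) : 1 < dist w u := by
  obtain ⟨r, hr, rfl⟩ := hV1
  rcases lt_or_ge (dist u V) 2 with h2 | h2
  · refine far_two_lt h hV h3 hu hcon ?_ hw1 hwV.le h2
    intro p hp
    obtain ⟨v, hv, rfl⟩ := closure_arc hG hp
    refine dist_pt_lt V (abs_lt.2 ⟨?_, ?_⟩)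
    · linarith [hr.1, hv.2]
    · linarith [hr.2, hv.1]
  · have := dist_triangle u w V
    rw [dist_comm u w] at this
    linarith

/-! ### Distance to the vertex itself -/

/-- the contacts are at distance at most one: the centres are at distance at least root three -/
theorem three_le {u v p p' : ℂ} (hpu : dist p u = 1) (hpv : dist p v = 1)
    (hpu' : dist p' u = 1) (hpv' : dist p' v = 1) (hpp : p ≠ p') (huv : u ≠ v)
    (hd : dist p p' ≤ 1) : 3 ≤ dist u v ^ 2 := by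
  obtain ⟨m, A, t, hA, rfl, rfl, rfl, rfl, hN⟩ := lens_coord hpu hpv hpu' hpv' hpp huv
  have h1 : dist (m + A) (m - A) ^ 2 = 4 * Complex.normSq A := by
    rw [dist_eq_norm, show m + A - (m - A) = 2 * A by ring, Complex.sq_norm, Complex.normSq_mul]
    norm_num [Complex.normSq_apply]
  have h2 : dist (m + t * Complex.I * A) (m - t * Complex.I * A) ^ 2 =
      4 * (Complex.normSq A * t ^ 2) := by
    rw [dist_eq_norm, show m + t * Complex.I * A - (m - t * Complex.I * A) =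
      2 * (t * Complex.I * A) by ring, Complex.sq_norm, Complex.normSq_mul, Complex.normSq_mul,
      Complex.normSq_mul, Complex.normSq_I, Complex.normSq_ofReal,
      show Complex.normSq 2 = 4 by norm_num [Complex.normSq_apply]]
    ring
  have h3 : dist (m + A) (m - A) ^ 2 ≤ 1 := by
    have : 0 ≤ dist (m + A) (m - A) := dist_nonneg
    nlinarith
  rw [h2]
  nlinarith

/-- **a complementary three-point is at distance at least root three** -/
theorem far_three (h : Irr U T) {u V : ℂ} {a b c d : Fin 6} {s t : ℝ}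
    (hV : DPt T V a b c d) (h3 : (T u).ncard ≤ 3) (hu : T u = ({a, b, d} : Set (Fin 6))ᶜ)
    (hcon : ∀ p, dist p u = 1 → dist p V = 1 → p ∈ closure (Ex T V {a, b}) ∨ (T p).ncard ≤ 3)
    (hG : Ex T V {a, b} ⊆ pt V '' Icc s t) (hlen : t ≤ s + 1) : 3 ≤ dist u V ^ 2 := by
  rcases lt_or_ge (dist u V) 2 with h2 | h2
  swap
  · nlinarith
  have hne : u ≠ V := by
    rintro rfl
    have h1 : a ∈ T u := by rw [hV.pal]; simp
    rw [hu] at h1
    exact h1 (by simp)
  obtain ⟨p, p', hpp, h1, h4, h1', h4', e, e'⟩ := exists_two h2 hne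
  have key : ∀ q, dist q u = 1 → dist q V = 1 → u + V ≠ 2 * q → q ∈ pt V '' Icc s t := by
    intro q g1 g2 g3
    refine closure_arc hG ?_
    rcases hcon q g1 g2 with h5 | h5
    · exact h5
    · exact contact_three h hV h3 hu g1 g2 g3 h5
  obtain ⟨r, hr, rfl⟩ := key p h1 h4 e
  obtain ⟨r', hr', rfl⟩ := key p' h1' h4' e'
  refine three_le h1 h4 h1' h4' hpp hne (dist_pt_le V (abs_le.2 ⟨?_, ?_⟩))
  · linarith [hr.1, hr'.2]
  · linarith [hr.2, hr'.1]

end Vale.Agent.P032.H383
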