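import Vale.Agent.P032.S5.H824.Two

/-!
# P032: two circles through a two-pair point alternate

`p` a two-pair point with the pairs `t1 r1 | t2 r2`; two unit circles `S(V)`, `S(u)` through `p`, not
tangent.  If near `p` every point of `S(V)` has the colour `t1` or `t2`, and every point of `S(u)` has the
colour `r1` or `r2`, then `r1` and `r2` are not both colours of `V`.
-/

open Set Filter Topology Metric

noncomputable section

namespace Vale.Agent.P032.H383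

open Vale.Agent.P032.Six

variable {k : ℕ} {U : Fin k → Set ℂ} {T : ℂ → Set (Fin k)}

/-- the branch of the circle about `c` at `z` -/
def br (c z : ℂ) (τ t : ℝ) : ℂ := c + (z - c) * cis (τ * t)

theorem br_eq (c z : ℂ) (τ t : ℝ) :
    2 * z - (2 * z - c) + ((2 * z - c) - z) * cis (τ * t) = br c z τ t := by
  unfold br; ring

theorem br_zero (c z : ℂ) (τ : ℝ) : br c z τ 0 = z := by
  unfold br; simp [cis]

theorem dist_br {c z : ℂ} (hc : dist c z = 1) (τ t : ℝ) : dist (br c z τ t) c = 1 := by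
  unfold br
  rw [dist_eq_norm, add_sub_cancel_left, norm_mul, norm_cis, mul_one, ← dist_eq_norm, dist_comm]
  exact hc

theorem br_cont (c z : ℂ) (τ : ℝ) : Continuous fun t : ℝ => br c z τ t := by
  unfold br
  exact continuous_const.add (continuous_const.mul (continuous_cis.comp
    (continuous_const.mul continuous_id)))

theorem br_tendsto (c z : ℂ) (τ : ℝ) : Tendsto (fun t : ℝ => br c z τ t) (𝓝[>] 0) (𝓝 z) := by
  have h2 := (br_cont c z τ).tendsto 0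
  rw [br_zero] at h2
  exact h2.mono_left nhdsWithin_le_nhds

theorem br_within {c z : ℂ} (hc : dist c z = 1) (τ : ℝ) :
    Tendsto (fun t : ℝ => br c z τ t) (𝓝[>] 0) (𝓝[sphere c 1] z) :=
  tendsto_nhdsWithin_iff.2 ⟨br_tendsto c z τ, Eventually.of_forall fun t => dist_br hc τ t⟩

theorem br_in {c z g : ℂ} (hgz : dist g z = 1) {τ : ℝ} (hs : 0 < τ * cr (z - c) (g - z)) :
    ∀ᶠ t : ℝ in 𝓝[>] 0, dist (br c z τ t) g < 1 := by
  have h1 := branch_in (z := z) (V := 2 * z - c) (g := g) hgz (τ := τ) (by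
    rw [show 2 * z - c - z = z - c by ring]; exact hs)
  filter_upwards [h1] with t ht
  rwa [br_eq] at ht

theorem br_out {c z g : ℂ} (hgz : dist g z = 1) {τ : ℝ} (hs : τ * cr (z - c) (g - z) < 0) :
    ∀ᶠ t : ℝ in 𝓝[>] 0, 1 < dist (br c z τ t) g := by
  have h1 := branch_out (z := z) (V := 2 * z - c) (g := g) hgz (τ := τ) (by
    rw [show 2 * z - c - z = z - c by ring]; exact hs)
  filter_upwards [h1] with t ht
  rwa [br_eq] at ht

/-- near the centre of an exact `ab`-arc: where `b` is absent on a branch -/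
theorem absent_br (h : Irr U T) {z g1 u1 c : ℂ} {a b : Fin k} {τ : ℝ} (hg : Arc T z g1 {a, b})
    (r1 : Ray (U a) z u1) (r2 : Ray (U b) z (-u1))
    (hs : 0 < (τ * cr (z - c) (g1 - z)) * ip u1 (g1 - z)) :
    ∀ᶠ t : ℝ in 𝓝[>] 0, b ∉ Pal U (br c z τ t) := by
  rcases lt_trichotomy (ip u1 (g1 - z)) 0 with h1 | h1 | h1
  · have h2 : τ * cr (z - c) (g1 - z) < 0 := by nlinarith
    have h3 := h.sd_center (a := b) (b := a) (by rwa [pair_comm]) (h.mx.sd_of_rays' r1 r2 hg.1 h1)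
    filter_upwards [(br_tendsto c z τ).eventually h3, br_out hg.1 h2] with r h4 h5
    exact h4.1 h5
  · rw [h1, mul_zero] at hs
    exact absurd hs (lt_irrefl _)
  · have h2 : 0 < τ * cr (z - c) (g1 - z) := by
      by_contra hcon
      push Not at hcon
      nlinarith
    have h3 := h.sd_center hg (h.mx.sd_of_rays r1 r2 hg.1 h1)
    filter_upwards [(br_tendsto c z τ).eventually h3, br_in hg.1 h2] with r h4 h5
    exact h4.2 h5

/-- the same for `a` -/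
theorem absent_br' (h : Irr U T) {z g1 u1 c : ℂ} {a b : Fin k} {τ : ℝ} (hg : Arc T z g1 {a, b})
    (r1 : Ray (U a) z u1) (r2 : Ray (U b) z (-u1))
    (hs : (τ * cr (z - c) (g1 - z)) * ip u1 (g1 - z) < 0) :
    ∀ᶠ t : ℝ in 𝓝[>] 0, a ∉ Pal U (br c z τ t) :=
  absent_br h (a := b) (b := a) (u1 := -u1) (by rwa [pair_comm]) r2 (by rwa [neg_neg]) (by
    rw [ip_neg]; linarith)

/-- a ray and a branch in the same colour are on the same side of every circle about a point with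
this colour -/
theorem same_side (h : Mx U) {x : Fin k} {z c q w : ℂ} {τ : ℝ} (hq : dist q z = 1)
    (hray : Ray (U x) z w) (hbr : ∀ᶠ t : ℝ in 𝓝[>] 0, x ∈ Pal U (br c z τ t))
    (hx : x ∈ Pal U q) : ¬ (ip w (q - z) * (τ * cr (z - c) (q - z)) < 0) := by
  intro hs
  have hzq : dist z q = 1 := by rw [dist_comm]; exact hq
  obtain ⟨δ, hδ, hd⟩ := hray.exists_delta
  obtain ⟨δ', hδ', hd'⟩ := mem_nhdsGT_iff_exists_Ioo_subset.1 hbr
  rw [mem_Ioi] at hδ'
  have hzx : z ∈ closure (U x) := mem_closure_of_tendsto (tendsto_ray z w) hray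
  have core : ∀ r t : ℝ, 0 < r → r < δ → 0 < t → t < δ' →
      (dist (z + r * w) q < 1 ∧ 1 < dist (br c z τ t) q ∨
        dist (br c z τ t) q < 1 ∧ 1 < dist (z + r * w) q) → False := by
    intro r t hr0 hrδ ht0 htδ hcase
    obtain ⟨A, hA⟩ : ∃ A : Set ℂ, A = (fun s : ℝ => z + s * w) '' Icc 0 r := ⟨_, rfl⟩
    obtain ⟨B, hB⟩ : ∃ B : Set ℂ, B = (fun s : ℝ => br c z τ s) '' Icc 0 t := ⟨_, rfl⟩
    have hApre : IsPreconnected A := by
      rw [hA]; exact isPreconnected_Icc.image _ (by fun_prop)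
    have hBpre : IsPreconnected B := by
      rw [hB]; exact isPreconnected_Icc.image _ (br_cont c z τ).continuousOn
    have hzA : z ∈ A := by rw [hA]; exact ⟨0, ⟨le_rfl, hr0.le⟩, by simp⟩
    have hzB : z ∈ B := by rw [hB]; exact ⟨0, ⟨le_rfl, ht0.le⟩, br_zero c z τ⟩
    have hAB : IsPreconnected (A ∪ B) := hApre.union z hzA hzB hBpre
    have hsub : A ∪ B ⊆ closure (U x) := by
      rw [hA, hB]
      rintro y (⟨s, hs, rfl⟩ | ⟨s, hs, rfl⟩)
      · rcases hs.1.eq_or_lt with h8 | h8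
        · rw [← h8]; simpa using hzx
        · exact subset_closure (hd s h8 (lt_of_le_of_lt hs.2 hrδ))
      · rcases hs.1.eq_or_lt with h8 | h8
        · rw [← h8]
          simp only [br_zero]
          exact hzx
        · exact hd' ⟨h8, lt_of_le_of_lt hs.2 htδ⟩
    have hrA : z + r * w ∈ A ∪ B := Or.inl (by rw [hA]; exact ⟨r, ⟨hr0.le, le_rfl⟩, rfl⟩)
    have htB : br c z τ t ∈ A ∪ B := Or.inr (by rw [hB]; exact ⟨t, ⟨ht0.le, le_rfl⟩, rfl⟩)
    rcases hcase with ⟨h1, h2⟩ | ⟨h1, h2⟩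
    · exact h.wlemma hAB hsub hrA htB h1 h2 hx
    · exact h.wlemma hAB hsub htB hrA h1 h2 hx
  have hr : ∀ᶠ r : ℝ in 𝓝[>] 0, 0 < r ∧ r < δ := by
    filter_upwards [self_mem_nhdsWithin, mem_nhdsWithin_of_mem_nhds (Iio_mem_nhds hδ)] with r h1 h2
    exact ⟨h1, h2⟩
  have ht : ∀ᶠ t : ℝ in 𝓝[>] 0, 0 < t ∧ t < δ' := by
    filter_upwards [self_mem_nhdsWithin, mem_nhdsWithin_of_mem_nhds (Iio_mem_nhds hδ')] with t h1 h2
    exact ⟨h1, h2⟩
  rcases mul_neg_iff.1 hs with ⟨h1, h2⟩ | ⟨h1, h2⟩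
  · obtain ⟨r, ⟨a1, a2⟩, a3⟩ := (hr.and (ray_in hzq h1)).exists
    obtain ⟨t, ⟨b1, b2⟩, b3⟩ := (ht.and (br_out (c := c) hq h2)).exists
    exact core r t a1 a2 b1 b2 (Or.inl ⟨a3, b3⟩)
  · obtain ⟨r, ⟨a1, a2⟩, a3⟩ := (hr.and (ray_out hzq h1)).exists
    obtain ⟨t, ⟨b1, b2⟩, b3⟩ := (ht.and (br_in (c := c) hq h2)).exists
    exact core r t a1 a2 b1 b2 (Or.inr ⟨b3, a3⟩)

theorem sq_one {s : ℝ} (hs : s = 1 ∨ s = -1) : s * s = 1 := by
  rcases hs with rfl | rfl <;> norm_num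

/-- **Alternation.** -/
theorem alt (h : Irr U T) {p V u : ℂ} {t1 r1 t2 r2 : Fin k} (hp : DPt T p t1 r1 t2 r2)
    (hV : dist V p = 1) (hu : dist u p = 1) (hne : u ≠ V) (hne2 : u + V ≠ 2 * p)
    (v1 : r1 ∈ T V) (v2 : r2 ∈ T V) (HV : ∀ᶠ y in 𝓝[sphere V 1] p, t1 ∈ T y ∨ t2 ∈ T y)
    (Hu : ∀ᶠ y in 𝓝[sphere u 1] p, r1 ∈ T y ∨ r2 ∈ T y) : False := by
  obtain ⟨p1, hp1⟩ := hp.arc1
  obtain ⟨g1, hg1, g1V, g1V2, g1u, g1u2⟩ := hp1.exists_off_two (y := V) (y' := u)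
  obtain ⟨p2, hp2⟩ := hp.arc2
  obtain ⟨g2, hg2, g2V, g2V2, g2u, g2u2⟩ := hp2.exists_off_two (y := V) (y' := u)
  obtain ⟨s1, hs1, ra, rb⟩ := h.d0_sign hp hg2
  obtain ⟨s2, hs2, rc, rd⟩ := h.d0_sign hp.swap hg1
  -- the two directions are not parallel
  have g12 : g2 ≠ g1 := by
    intro e
    have h1 : T g1 = {t1, r1} := hg1.mem
    have h2 : T g2 = {t2, r2} := hg2.mem
    have h3 : t1 ∈ ({t2, r2} : Set (Fin k)) := by rw [← h2, e, h1]; simp
    rcases h3 with h3 | h3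
    · exact hp.ac h3
    · exact hp.ad h3
  have g12' : g2 + g1 ≠ 2 * p := by
    intro e
    have h1 : T g1 = {t1, r1} := hg1.mem
    have h2 : T g2 = {t2, r2} := hg2.mem
    have e2 : 2 * p - g1 = g2 := by linear_combination -e
    refine h.anti hp hg1.1 (h.sub _ (by rw [h1]; simp)) (h.sub _ (by rw [h1]; simp)) ?_ ?_
    · rw [e2]; exact h.sub _ (by rw [h2]; simp)
    · rw [e2]; exact h.sub _ (by rw [h2]; simp)
  have c3 : cr (g2 - p) (g1 - p) ≠ 0 := cr_ne_of hg2.1 hg1.1 g12 g12'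
  have cV1 : cr (g1 - p) (V - p) ≠ 0 := cr_ne_of hg1.1 hV g1V g1V2
  have cV2 : cr (g2 - p) (V - p) ≠ 0 := cr_ne_of hg2.1 hV g2V g2V2
  have cu1 : cr (g1 - p) (u - p) ≠ 0 := cr_ne_of hg1.1 hu g1u g1u2
  have cu2 : cr (g2 - p) (u - p) ≠ 0 := cr_ne_of hg2.1 hu g2u g2u2
  have cuV : cr (u - p) (V - p) ≠ 0 := cr_ne_of hu hV hne hne2
  have q1 := sq_one hs1
  have q2 := sq_one hs2
  have e1 : ip (s1 * (Complex.I * (g2 - p))) (g1 - p) = s1 * cr (g2 - p) (g1 - p) := by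
    rw [ip_smul, ip_I]
  have e2 : ip (s2 * (Complex.I * (g1 - p))) (g2 - p) = -(s2 * cr (g2 - p) (g1 - p)) := by
    rw [ip_smul, ip_I, cr_swap (g1 - p) (g2 - p)]
    ring
  -- signs of the branches of a circle about `c`
  have main : ∀ c : ℂ, dist c p = 1 → cr (g1 - p) (c - p) ≠ 0 → cr (g2 - p) (c - p) ≠ 0 →
      ∀ (x1 x2 : Fin k), (x1 = t1 ∧ x2 = t2 ∨ x1 = r1 ∧ x2 = r2) →
      (∀ᶠ y in 𝓝[sphere c 1] p, x1 ∈ T y ∨ x2 ∈ T y) →
      0 < s1 * s2 * (cr (g1 - p) (c - p) * cr (g2 - p) (c - p)) := by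
    intro c hc h1 h2 x1 x2 hx H
    by_contra hcon
    push Not at hcon
    have hs12 : s1 * s2 ≠ 0 := by
      intro h0
      have : (s1 * s1) * (s2 * s2) = 0 := by
        rw [show (s1 * s1) * (s2 * s2) = (s1 * s2) * (s1 * s2) by ring, h0, zero_mul]
      rw [q1, q2] at this
      norm_num at this
    have hlt : s1 * s2 * (cr (g1 - p) (c - p) * cr (g2 - p) (c - p)) < 0 :=
      lt_of_le_of_ne hcon (mul_ne_zero hs12 (mul_ne_zero h1 h2))
    have f1 : cr (p - c) (g1 - p) = cr (g1 - p) (c - p) := by unfold cr; simp; ring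
    have f2 : cr (p - c) (g2 - p) = cr (g2 - p) (c - p) := by unfold cr; simp; ring
    have hw1 : s1 * cr (g2 - p) (g1 - p) ≠ 0 := mul_ne_zero (by
      intro h0; rw [h0] at q1; norm_num at q1) c3
    -- the product of the two side numbers is positive
    have hpos : 0 < (cr (g1 - p) (c - p) * (s1 * cr (g2 - p) (g1 - p))) *
        (cr (g2 - p) (c - p) * (-(s2 * cr (g2 - p) (g1 - p)))) := by
      have h3 : (cr (g1 - p) (c - p) * (s1 * cr (g2 - p) (g1 - p))) *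
        (cr (g2 - p) (c - p) * (-(s2 * cr (g2 - p) (g1 - p)))) =
        -(s1 * s2 * (cr (g1 - p) (c - p) * cr (g2 - p) (c - p))) *
          (cr (g2 - p) (g1 - p) * cr (g2 - p) (g1 - p)) := by ring
      rw [h3]
      exact mul_pos (by linarith) (mul_self_pos.2 c3)
    -- on one branch both colours are absent
    have fin : ∀ τ : ℝ, (∀ᶠ t : ℝ in 𝓝[>] 0, x1 ∉ Pal U (br c p τ t)) →
        (∀ᶠ t : ℝ in 𝓝[>] 0, x2 ∉ Pal U (br c p τ t)) → False := by
      intro τ k1 k2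
      obtain ⟨t, ⟨k3, k4⟩, k5⟩ := ((k1.and k2).and ((br_within hc τ).eventually H)).exists
      rcases k5 with k5 | k5
      · exact k3 (h.sub _ k5)
      · exact k4 (h.sub _ k5)
    obtain ⟨A, hA⟩ : ∃ A, A = cr (g1 - p) (c - p) * (s1 * cr (g2 - p) (g1 - p)) := ⟨_, rfl⟩
    obtain ⟨B, hB⟩ : ∃ B, B = cr (g2 - p) (c - p) * (-(s2 * cr (g2 - p) (g1 - p))) := ⟨_, rfl⟩
    rw [← hA, ← hB] at hpos
    rcases hx with ⟨rfl, rfl⟩ | ⟨rfl, rfl⟩
    · -- absent where the numbers are negative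
      have k1 : ∀ τ : ℝ, τ * A < 0 → ∀ᶠ t : ℝ in 𝓝[>] 0, x1 ∉ Pal U (br c p τ t) := by
        intro τ hτ
        refine absent_br' h hg1 ra rb ?_
        rw [e1, f1]
        calc _ = τ * A := by rw [hA]; ring
          _ < 0 := hτ
      have k2 : ∀ τ : ℝ, τ * B < 0 → ∀ᶠ t : ℝ in 𝓝[>] 0, x2 ∉ Pal U (br c p τ t) := by
        intro τ hτ
        refine absent_br' h hg2 rc rd ?_
        rw [e2, f2]
        calc _ = τ * B := by rw [hB]; ring
          _ < 0 := hτ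
      rcases mul_pos_iff.1 hpos with ⟨h5, h6⟩ | ⟨h5, h6⟩
      · exact fin (-1) (k1 _ (by linarith)) (k2 _ (by linarith))
      · exact fin 1 (k1 _ (by linarith)) (k2 _ (by linarith))
    · have k1 : ∀ τ : ℝ, 0 < τ * A → ∀ᶠ t : ℝ in 𝓝[>] 0, x1 ∉ Pal U (br c p τ t) := by
        intro τ hτ
        refine absent_br h hg1 ra rb ?_
        rw [e1, f1]
        calc 0 < τ * A := hτ
          _ = _ := by rw [hA]; ring
      have k2 : ∀ τ : ℝ, 0 < τ * B → ∀ᶠ t : ℝ in 𝓝[>] 0, x2 ∉ Pal U (br c p τ t) := by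
        intro τ hτ
        refine absent_br h hg2 rc rd ?_
        rw [e2, f2]
        calc 0 < τ * B := hτ
          _ = _ := by rw [hB]; ring
      rcases mul_pos_iff.1 hpos with ⟨h5, h6⟩ | ⟨h5, h6⟩
      · exact fin 1 (k1 _ (by linarith)) (k2 _ (by linarith))
      · exact fin (-1) (k1 _ (by linarith)) (k2 _ (by linarith))
  have CV := main V hV cV1 cV2 t1 t2 (Or.inl ⟨rfl, rfl⟩) HV
  have CU := main u hu cu1 cu2 r1 r2 (Or.inr ⟨rfl, rfl⟩) Hu
  -- on one branch of `S(u)` the colour `r1`, on the other `r2`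
  have f1 : cr (p - u) (g1 - p) = cr (g1 - p) (u - p) := by unfold cr; simp; ring
  have f2 : cr (p - u) (g2 - p) = cr (g2 - p) (u - p) := by unfold cr; simp; ring
  have f3 : cr (p - u) (V - p) = -cr (u - p) (V - p) := by unfold cr; simp; ring
  obtain ⟨A, hA⟩ : ∃ A, A = cr (g1 - p) (u - p) * (s1 * cr (g2 - p) (g1 - p)) := ⟨_, rfl⟩
  obtain ⟨B, hB⟩ : ∃ B, B = cr (g2 - p) (u - p) * (-(s2 * cr (g2 - p) (g1 - p))) := ⟨_, rfl⟩
  have hAB : A * B < 0 := by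
    have h3 : A * B = -(s1 * s2 * (cr (g1 - p) (u - p) * cr (g2 - p) (u - p)) *
        (cr (g2 - p) (g1 - p) * cr (g2 - p) (g1 - p))) := by rw [hA, hB]; ring
    rw [h3]
    have := mul_pos CU (mul_self_pos.2 c3)
    linarith
  have k1 : ∀ τ : ℝ, 0 < τ * A → ∀ᶠ t : ℝ in 𝓝[>] 0, r1 ∉ Pal U (br u p τ t) := by
    intro τ hτ
    refine absent_br h hg1 ra rb ?_
    rw [e1, f1]
    calc 0 < τ * A := hτ
      _ = _ := by rw [hA]; ring
  have k2 : ∀ τ : ℝ, 0 < τ * B → ∀ᶠ t : ℝ in 𝓝[>] 0, r2 ∉ Pal U (br u p τ t) := by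
    intro τ hτ
    refine absent_br h hg2 rc rd ?_
    rw [e2, f2]
    calc 0 < τ * B := hτ
      _ = _ := by rw [hB]; ring
  have l1 : ∀ τ : ℝ, 0 < τ * B → ∀ᶠ t : ℝ in 𝓝[>] 0, r1 ∈ Pal U (br u p τ t) := by
    intro τ hτ
    filter_upwards [k2 τ hτ, (br_within hu τ).eventually Hu] with t h5 h6
    rcases h6 with h6 | h6
    · exact h.sub _ h6
    · exact absurd (h.sub _ h6) h5
  have l2 : ∀ τ : ℝ, 0 < τ * A → ∀ᶠ t : ℝ in 𝓝[>] 0, r2 ∈ Pal U (br u p τ t) := by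
    intro τ hτ
    filter_upwards [k1 τ hτ, (br_within hu τ).eventually Hu] with t h5 h6
    rcases h6 with h6 | h6
    · exact absurd (h.sub _ h6) h5
    · exact h.sub _ h6
  have e3 : ip (-(s1 * (Complex.I * (g2 - p)))) (V - p) = -(s1 * cr (g2 - p) (V - p)) := by
    rw [ip_neg, ip_smul, ip_I]
  have e4 : ip (-(s2 * (Complex.I * (g1 - p)))) (V - p) = -(s2 * cr (g1 - p) (V - p)) := by
    rw [ip_neg, ip_smul, ip_I]
  -- the choice of the branches
  have conc : ∀ τ : ℝ, (τ = 1 ∨ τ = -1) → 0 < τ * B → 0 < -τ * A → False := by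
    intro τ hτ hB' hA'
    have m1 := same_side h.mx hV rb (l1 τ hB') (h.sub V v1)
    have m2 := same_side h.mx hV rd (l2 (-τ) hA') (h.sub V v2)
    rw [e3, f3] at m1
    rw [e4, f3] at m2
    push Not at m1 m2
    have hτ0 : τ ≠ 0 := by rcases hτ with rfl | rfl <;> norm_num
    have n1 : s1 ≠ 0 := by intro h0; rw [h0] at q1; norm_num at q1
    have n2 : s2 ≠ 0 := by intro h0; rw [h0] at q2; norm_num at q2
    have m1' : 0 < -(s1 * cr (g2 - p) (V - p)) * (τ * -cr (u - p) (V - p)) :=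
      lt_of_le_of_ne m1 (Ne.symm (mul_ne_zero (neg_ne_zero.2 (mul_ne_zero n1 cV2))
        (mul_ne_zero hτ0 (neg_ne_zero.2 cuV))))
    have m2' : 0 < -(s2 * cr (g1 - p) (V - p)) * (-τ * -cr (u - p) (V - p)) :=
      lt_of_le_of_ne m2 (Ne.symm (mul_ne_zero (neg_ne_zero.2 (mul_ne_zero n2 cV1))
        (mul_ne_zero (neg_ne_zero.2 hτ0) (neg_ne_zero.2 cuV))))
    have m3 := mul_pos m1' m2'
    have m4 : -(s1 * cr (g2 - p) (V - p)) * (τ * -cr (u - p) (V - p)) *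
        (-(s2 * cr (g1 - p) (V - p)) * (-τ * -cr (u - p) (V - p))) =
        -(s1 * s2 * (cr (g1 - p) (V - p) * cr (g2 - p) (V - p)) *
          ((τ * cr (u - p) (V - p)) * (τ * cr (u - p) (V - p)))) := by ring
    rw [m4] at m3
    have m5 := mul_pos CV (mul_self_pos.2 (mul_ne_zero hτ0 cuV))
    linarith
  rcases mul_neg_iff.1 hAB with ⟨h5, h6⟩ | ⟨h5, h6⟩
  · exact conc (-1) (Or.inr rfl) (by linarith) (by linarith)
  · exact conc 1 (Or.inl rfl) (by linarith) (by linarith)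

end Vale.Agent.P032.H383
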