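import Mathlib

/-!
# P032: the common point of two moving unit circles (plane geometry for the side rule)

`n`, `h` at distance one from `x`; the centres `A s`, `B t` of two unit circles move, `A 0 = n`,
`B 0 = h`.  The common point `F (s, t)` near `x` is differentiable at `0`; its distance to `z` (with
`dist x z = 1`) is compared with one for `s < 0 < t`.
-/

open Set Filter Topology Metric Complex

noncomputable section

namespace Vale.Agent.P032.H383

/-- the product of the vectors -/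
def dt (a b : ℂ) : ℝ := a.re * b.re + a.im * b.im

theorem nsq (a : ℂ) : ‖a‖ ^ 2 = dt a a := by
  rw [Complex.sq_norm, Complex.normSq_apply]; rfl

theorem dt_add (a b c : ℂ) : dt a (b + c) = dt a b + dt a c := by
  unfold dt; simp only [add_re, add_im]; ring

theorem dt_sub (a b c : ℂ) : dt a (b - c) = dt a b - dt a c := by
  unfold dt; simp only [sub_re, sub_im]; ring

/-- the third point -/
def Fp (ρ : ℝ) (a b : ℂ) : ℂ :=
  (a + b) / 2 + (ρ : ℂ) * (I * (b - a)) * ((Real.sqrt (1 / Complex.normSq (b - a) - 1 / 4) : ℝ) : ℂ)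

theorem norm_Fp {ρ : ℝ} (hρ : ρ ^ 2 = 1) {a b : ℂ} (h0 : 0 < Complex.normSq (b - a))
    (h4 : Complex.normSq (b - a) < 4) : ‖Fp ρ a b - a‖ = 1 ∧ ‖Fp ρ a b - b‖ = 1 := by
  set r := Real.sqrt (1 / Complex.normSq (b - a) - 1 / 4) with hr
  have hr2 : r ^ 2 = 1 / Complex.normSq (b - a) - 1 / 4 := by
    rw [hr, Real.sq_sqrt]
    rw [sub_nonneg, div_le_div_iff₀ (by norm_num) h0]
    linarith
  have key : r ^ 2 * Complex.normSq (b - a) = 1 - Complex.normSq (b - a) / 4 := by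
    rw [hr2]; field_simp
  have hn : Complex.normSq (b - a) = (b.re - a.re) ^ 2 + (b.im - a.im) ^ 2 := by
    rw [Complex.normSq_apply]; simp only [sub_re, sub_im]; ring
  rw [hn] at key
  constructor
  · have h1 : ‖Fp ρ a b - a‖ ^ 2 = 1 := by
      rw [nsq]
      unfold dt Fp
      rw [← hr]
      simp only [sub_re, sub_im, add_re, add_im, mul_re, mul_im, div_ofNat_re, div_ofNat_im,
        ofReal_re, ofReal_im, I_re, I_im]
      have e : ρ ^ 2 * (r ^ 2 * ((b.re - a.re) ^ 2 + (b.im - a.im) ^ 2)) =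
        1 - ((b.re - a.re) ^ 2 + (b.im - a.im) ^ 2) / 4 := by rw [hρ, key]; ring
      linear_combination e
    have h2 := norm_nonneg (Fp ρ a b - a)
    nlinarith
  · have h1 : ‖Fp ρ a b - b‖ ^ 2 = 1 := by
      rw [nsq]
      unfold dt Fp
      rw [← hr]
      simp only [sub_re, sub_im, add_re, add_im, mul_re, mul_im, div_ofNat_re, div_ofNat_im,
        ofReal_re, ofReal_im, I_re, I_im]
      have e : ρ ^ 2 * (r ^ 2 * ((b.re - a.re) ^ 2 + (b.im - a.im) ^ 2)) =
        1 - ((b.re - a.re) ^ 2 + (b.im - a.im) ^ 2) / 4 := by rw [hρ, key]; ring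
      linear_combination e
    have h2 := norm_nonneg (Fp ρ a b - b)
    nlinarith

/-- the point `x` is one of the two third points -/
theorem exists_rho {x n h : ℂ} (hn : ‖x - n‖ = 1) (hh : ‖x - h‖ = 1) (hne : n ≠ h)
    (hne2 : n + h ≠ 2 * x) : ∃ ρ : ℝ, ρ ^ 2 = 1 ∧ Fp ρ n h = x ∧ 0 < Complex.normSq (h - n) ∧
      Complex.normSq (h - n) < 4 := by
  set D := h - n with hD
  set P := x - (n + h) / 2 with hP
  have hD0 : D ≠ 0 := by rw [hD]; exact sub_ne_zero.2 hne.symm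
  have hP0 : P ≠ 0 := by
    rw [hP]; intro h0; apply hne2; linear_combination -2 * h0
  have e1 : dt (x - n) (x - n) = 1 := by rw [← nsq, hn]; norm_num
  have e2 : dt (x - h) (x - h) = 1 := by rw [← nsq, hh]; norm_num
  have hPD : dt P D = 0 := by
    rw [hP, hD]; unfold dt at *
    simp only [sub_re, sub_im, add_re, add_im, div_ofNat_re, div_ofNat_im] at *
    linear_combination (e1 - e2) / 2
  have hPP : dt P P + dt D D / 4 = 1 := by
    rw [hP, hD]; unfold dt at *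
    simp only [sub_re, sub_im, add_re, add_im, div_ofNat_re, div_ofNat_im] at *
    linear_combination (e1 + e2) / 2
  have hDp : 0 < Complex.normSq D := Complex.normSq_pos.2 hD0
  have hPp : 0 < dt P P := by rw [← nsq]; positivity
  have hDD : Complex.normSq D = dt D D := by rw [Complex.normSq_apply]; rfl
  have hlt : Complex.normSq D < 4 := by rw [hDD]; linarith
  -- `P = t I D`
  set t : ℝ := (D.re * P.im - D.im * P.re) / Complex.normSq D with ht
  have hDne := hDp.ne'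
  have hPre : P.re = -(t * D.im) := by
    rw [ht]; field_simp
    rw [Complex.normSq_apply]
    unfold dt at hPD
    linear_combination D.re * hPD
  have hPim : P.im = t * D.re := by
    rw [ht]; field_simp
    rw [Complex.normSq_apply]
    unfold dt at hPD
    linear_combination D.im * hPD
  have ht2 : t ^ 2 * Complex.normSq D = dt P P := by
    unfold dt; rw [hPre, hPim, Complex.normSq_apply]; ring
  have ht2' : t ^ 2 = 1 / Complex.normSq D - 1 / 4 := by
    have : dt P P = 1 - Complex.normSq D / 4 := by rw [hDD]; linarith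
    field_simp
    linarith
  have ht0 : t ≠ 0 := by
    intro h0; rw [h0] at ht2; simp at ht2; linarith
  have hs : Real.sqrt (1 / Complex.normSq D - 1 / 4) = |t| := by rw [← ht2', Real.sqrt_sq_eq_abs]
  refine ⟨t / |t|, ?_, ?_, hDp, hlt⟩
  · rw [div_pow, sq_abs]
    exact div_self (pow_ne_zero 2 ht0)
  · have hx : x = (n + h) / 2 + P := by rw [hP]; ring
    unfold Fp
    rw [← hD, hs]
    have habs : |t| ≠ 0 := abs_ne_zero.2 ht0
    have e3 : ((t / |t| : ℝ) : ℂ) * (I * D) * ((|t| : ℝ) : ℂ) = P := by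
      have e4 : ((t / |t| : ℝ) : ℂ) * ((|t| : ℝ) : ℂ) = (t : ℂ) := by
        rw [← ofReal_mul, div_mul_cancel₀ _ habs]
      have e5 : P = (t : ℂ) * (I * D) := by
        apply Complex.ext
        · simp only [mul_re, ofReal_re, ofReal_im, I_re, I_im, mul_im]; rw [hPre]; ring
        · simp only [mul_re, ofReal_re, ofReal_im, I_re, I_im, mul_im]; rw [hPim]; ring
      rw [e5, ← e4]; ring
    rw [e3]; exact hx.symm

theorem diff_Fp (ρ : ℝ) {a b : ℂ} (h0 : 0 < Complex.normSq (b - a))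
    (h4 : Complex.normSq (b - a) < 4) :
    DifferentiableAt ℝ (fun p : ℂ × ℂ => Fp ρ p.1 p.2) (a, b) := by
  have h1 : DifferentiableAt ℝ (fun p : ℂ × ℂ => Complex.normSq (p.2 - p.1)) (a, b) := by
    have : (fun p : ℂ × ℂ => Complex.normSq (p.2 - p.1)) = fun p : ℂ × ℂ => ‖p.2 - p.1‖ ^ 2 := by
      funext p; rw [Complex.sq_norm]
    rw [this]
    exact (differentiableAt_snd.sub differentiableAt_fst).norm_sq ℝ
  have h2 : DifferentiableAt ℝ (fun p : ℂ × ℂ => 1 / Complex.normSq (p.2 - p.1) - 1 / 4) (a, b) := by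
    refine DifferentiableAt.sub ?_ (differentiableAt_const _)
    have h5 : DifferentiableAt ℝ (fun p : ℂ × ℂ => (Complex.normSq (p.2 - p.1))⁻¹) (a, b) :=
      DifferentiableAt.fun_inv h1 h0.ne'
    simpa only [one_div] using h5
  have h3 : DifferentiableAt ℝ
      (fun p : ℂ × ℂ => Real.sqrt (1 / Complex.normSq (p.2 - p.1) - 1 / 4)) (a, b) := by
    refine h2.sqrt (ne_of_gt ?_)
    show 0 < 1 / Complex.normSq (b - a) - 1 / 4
    rw [sub_pos, div_lt_div_iff₀ (by norm_num) h0]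
    linarith
  have h4 : DifferentiableAt ℝ (fun p : ℂ × ℂ =>
      ((Real.sqrt (1 / Complex.normSq (p.2 - p.1) - 1 / 4) : ℝ) : ℂ)) (a, b) :=
    Complex.ofRealCLM.differentiableAt.comp (a, b) h3
  unfold Fp
  refine DifferentiableAt.add ?_ (DifferentiableAt.mul ?_ h4)
  · fun_prop
  · fun_prop

/-- **the common point of the moving circles** -/
theorem geo {x z n h m A' B' : ℂ} {A B : ℝ → ℂ} {α β : ℝ} (hA : HasDerivAt A A' 0)
    (hB : HasDerivAt B B' 0) (hA0 : A 0 = n) (hB0 : B 0 = h) (hn : ‖x - n‖ = 1) (hh : ‖x - h‖ = 1)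
    (hne : n ≠ h) (hne2 : n + h ≠ 2 * x) (hxz : ‖x - z‖ = 1)
    (hζ : z - x = α * (h - x) + β * (n - x)) (hm : dt (z - x) m = 0)
    (hmA : dt (n - x) A' = dt (n - x) m) (hmB : dt (h - x) B' = dt (h - x) m) :
    ∃ F : ℝ × ℝ → ℂ, Tendsto F (𝓝 0) (𝓝 x) ∧
      (∀ᶠ s in 𝓝 (0 : ℝ × ℝ), ‖F s - A s.1‖ = 1 ∧ ‖F s - B s.2‖ = 1) ∧
      (0 < α * dt (h - x) m → ∀ᶠ s in 𝓝 (0 : ℝ × ℝ), s.1 < 0 → 0 < s.2 → ‖F s - z‖ < 1) ∧
      (α * dt (h - x) m < 0 → ∀ᶠ s in 𝓝 (0 : ℝ × ℝ), s.1 < 0 → 0 < s.2 → 1 < ‖F s - z‖) := by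
  obtain ⟨ρ, hρ, hx, hp, h4⟩ := exists_rho hn hh hne hne2
  set F : ℝ × ℝ → ℂ := fun s => Fp ρ (A s.1) (B s.2) with hF
  have hF0 : F 0 = x := by
    show Fp ρ (A 0) (B 0) = x
    rw [hA0, hB0, hx]
  -- derivatives
  set fst := ContinuousLinearMap.fst ℝ ℝ ℝ
  set snd := ContinuousLinearMap.snd ℝ ℝ ℝ
  have dA : HasFDerivAt (fun s : ℝ × ℝ => A s.1) (fst.smulRight A') (0 : ℝ × ℝ) := by
    have h1 : HasFDerivAt (fun s : ℝ × ℝ => s.1) fst (0 : ℝ × ℝ) := hasFDerivAt_fst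
    have h2 : HasFDerivAt A _ ((0 : ℝ × ℝ).1) := HasDerivAt.hasFDerivAt hA
    refine (h2.comp (0 : ℝ × ℝ) h1).congr_fderiv ?_
    ext <;> simp [fst]
  have dB : HasFDerivAt (fun s : ℝ × ℝ => B s.2) (snd.smulRight B') (0 : ℝ × ℝ) := by
    have h1 : HasFDerivAt (fun s : ℝ × ℝ => s.2) snd (0 : ℝ × ℝ) := hasFDerivAt_snd
    have h2 : HasFDerivAt B _ ((0 : ℝ × ℝ).2) := HasDerivAt.hasFDerivAt hB
    refine (h2.comp (0 : ℝ × ℝ) h1).congr_fderiv ?_
    ext <;> simp [snd]
  have dF : DifferentiableAt ℝ F 0 := by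
    have h1 : DifferentiableAt ℝ (fun p : ℂ × ℂ => Fp ρ p.1 p.2)
        ((fun s : ℝ × ℝ => (A s.1, B s.2)) 0) := by
      show DifferentiableAt ℝ (fun p : ℂ × ℂ => Fp ρ p.1 p.2) (A 0, B 0)
      rw [hA0, hB0]; exact diff_Fp ρ hp h4
    exact h1.comp (0 : ℝ × ℝ) (dA.differentiableAt.prodMk dB.differentiableAt)
  obtain ⟨F', hF'⟩ := dF
  -- the identities
  have cA : Tendsto (fun s : ℝ × ℝ => A s.1) (𝓝 0) (𝓝 n) := by
    have := dA.continuousAt.tendsto
    simpa [hA0] using this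
  have cB : Tendsto (fun s : ℝ × ℝ => B s.2) (𝓝 0) (𝓝 h) := by
    have := dB.continuousAt.tendsto
    simpa [hB0] using this
  have hid : ∀ᶠ s in 𝓝 (0 : ℝ × ℝ), ‖F s - A s.1‖ = 1 ∧ ‖F s - B s.2‖ = 1 := by
    have h1 : Tendsto (fun s : ℝ × ℝ => Complex.normSq (B s.2 - A s.1)) (𝓝 0)
        (𝓝 (Complex.normSq (h - n))) :=
      (Complex.continuous_normSq.tendsto _).comp (cB.sub cA)
    filter_upwards [h1.eventually (Ioi_mem_nhds hp), h1.eventually (Iio_mem_nhds h4)] with s k1 k2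
    exact norm_Fp hρ k1 k2
  -- derivative of the squares
  have key : ∀ {C : ℝ × ℝ → ℂ} {C' : ℝ × ℝ →L[ℝ] ℂ}, HasFDerivAt C C' 0 →
      (∀ᶠ s in 𝓝 (0 : ℝ × ℝ), ‖F s - C s‖ = 1) → ∀ v, dt (F 0 - C 0) (F' v) =
        dt (F 0 - C 0) (C' v) := by
    intro C C' hC hev v
    have h1 : HasFDerivAt (fun s => ‖F s - C s‖ ^ 2) _ 0 := (hF'.sub hC).norm_sq
    have h2 : (fun s => ‖F s - C s‖ ^ 2) =ᶠ[𝓝 0] fun _ => (1 : ℝ) := by
      filter_upwards [hev] with s hs
      rw [hs]; norm_num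
    have h3 : HasFDerivAt (fun s => ‖F s - C s‖ ^ 2) (0 : ℝ × ℝ →L[ℝ] ℝ) 0 :=
      (hasFDerivAt_const (1 : ℝ) (0 : ℝ × ℝ)).congr_of_eventuallyEq h2
    have h4 := congrArg (fun L : ℝ × ℝ →L[ℝ] ℝ => L v) (h1.unique h3)
    simp at h4
    unfold dt
    simp only [sub_re, sub_im]
    linear_combination h4
  have kA : ∀ v : ℝ × ℝ, dt (n - x) (F' v) = v.1 * dt (n - x) m := by
    intro v
    have h1 := key dA (hid.mono fun s hs => hs.1) v
    have e : (fst.smulRight A') v = (v.1 : ℂ) * A' := by simp [fst]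
    rw [e, hF0] at h1
    simp only [Prod.fst_zero, hA0] at h1
    rw [← hmA]
    unfold dt at *
    simp only [sub_re, sub_im, mul_re, mul_im, ofReal_re, ofReal_im] at *
    linear_combination -h1
  have kB : ∀ v : ℝ × ℝ, dt (h - x) (F' v) = v.2 * dt (h - x) m := by
    intro v
    have h1 := key dB (hid.mono fun s hs => hs.2) v
    have e : (snd.smulRight B') v = (v.2 : ℂ) * B' := by simp [snd]
    rw [e, hF0] at h1
    simp only [Prod.snd_zero, hB0] at h1
    rw [← hmB]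
    unfold dt at *
    simp only [sub_re, sub_im, mul_re, mul_im, ofReal_re, ofReal_im] at *
    linear_combination -h1
  set κ := α * dt (h - x) m with hκ
  have hβ : β * dt (n - x) m = -κ := by
    rw [hζ] at hm
    rw [hκ]
    unfold dt at *
    simp only [sub_re, sub_im, add_re, add_im, mul_re, mul_im, ofReal_re, ofReal_im] at *
    linear_combination hm
  have kL : ∀ v : ℝ × ℝ, dt (x - z) (F' v) = -κ * (v.2 - v.1) := by
    intro v
    have e : dt (x - z) (F' v) = -(α * dt (h - x) (F' v) + β * dt (n - x) (F' v)) := by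
      have h1 : dt (z - x) (F' v) = α * dt (h - x) (F' v) + β * dt (n - x) (F' v) := by
        rw [hζ]; unfold dt
        simp only [sub_re, sub_im, add_re, add_im, mul_re, mul_im, ofReal_re, ofReal_im]
        ring
      rw [← h1]; unfold dt; simp only [sub_re, sub_im]; ring
    rw [e, kA, kB]
    linear_combination -(v.2 * hκ) - v.1 * hβ
  have hG : HasFDerivAt (fun s => ‖F s - z‖ ^ 2) _ 0 := (hF'.sub_const z).norm_sq
  have hG0 : ‖F 0 - z‖ ^ 2 = 1 := by rw [hF0, hxz]; norm_num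
  have hlo := hG.isLittleO
  have hest : ∀ c > 0, ∀ᶠ s in 𝓝 (0 : ℝ × ℝ),
      |‖F s - z‖ ^ 2 - 1 + 2 * κ * (s.2 - s.1)| ≤ c * ‖s‖ := by
    intro c hc
    filter_upwards [hlo.def hc] with s hs
    simp only [sub_zero] at hs
    have e : ‖F s - z‖ ^ 2 - ‖F 0 - z‖ ^ 2 - (2 • ((innerSL ℝ) (F 0 - z)).comp F') s =
        ‖F s - z‖ ^ 2 - 1 + 2 * κ * (s.2 - s.1) := by
      rw [hG0]
      have e1 : (2 • ((innerSL ℝ) (F 0 - z)).comp F') s = 2 * dt (x - z) (F' s) := by
        rw [hF0]; simp [dt]; ring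
      rw [e1, kL]; ring
    rw [e] at hs
    rwa [Real.norm_eq_abs] at hs
  have hnm : ∀ s : ℝ × ℝ, s.1 < 0 → 0 < s.2 → ‖s‖ ≤ s.2 - s.1 ∧ 0 < s.2 - s.1 := by
    intro s h1 h2
    refine ⟨?_, by linarith⟩
    rw [Prod.norm_def, Real.norm_eq_abs, Real.norm_eq_abs, abs_of_neg h1, abs_of_pos h2]
    exact max_le (by linarith) (by linarith)
  refine ⟨F, ?_, hid, fun hpos => ?_, fun hneg => ?_⟩
  · have := hF'.continuousAt.tendsto
    rwa [hF0] at this
  · filter_upwards [hest κ hpos] with s hs h1 h2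
    obtain ⟨h3, h4⟩ := hnm s h1 h2
    have h5 := (abs_le.1 hs).2
    have h6 : ‖F s - z‖ ^ 2 < 1 := by nlinarith
    have h7 := norm_nonneg (F s - z)
    nlinarith
  · filter_upwards [hest (-κ) (by linarith)] with s hs h1 h2
    obtain ⟨h3, h4⟩ := hnm s h1 h2
    have h5 := (abs_le.1 hs).1
    have h6 : 1 < ‖F s - z‖ ^ 2 := by nlinarith
    have h7 := norm_nonneg (F s - z)
    nlinarith

end Vale.Agent.P032.H383
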