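import Vale.Agent.P032.H383.Sweep
import Mathlib.Order.WellFounded
import Mathlib.Data.Fintype.Order

/-!
# P032: two legal columns without conflict cycle are joined by legal updates of one slot

Legality `D i j (g i) (g j)` for all ordered pairs of slots.  `Cf D g g' i j`: the old letter of `i`
and the new letter of `j` are not compatible, so `i` has to change before `j`.

* `reach_of_acyclic`: if `Cf` has no directed cycle, then `g'` is reached from `g`;
* `acyclic_of_rank`: a rank function excludes cycles.
-/

open Set Filter Topology

namespace Vale.Agent.P032.Sweep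

variable {ι Λ : Type*}

/-- the slot `i` has to change before the slot `j` -/
def Cf (D : ι → ι → Λ → Λ → Prop) (g g' : ι → Λ) (i j : ι) : Prop :=
  i ≠ j ∧ (¬ D i j (g i) (g' j) ∨ ¬ D j i (g' j) (g i))

/-- only slots which change are in conflict (old slot) -/
theorem Cf.ne_left {D : ι → ι → Λ → Λ → Prop} {g g' : ι → Λ} {i j : ι}
    (hg' : ∀ i j, D i j (g' i) (g' j)) (h : Cf D g g' i j) : g i ≠ g' i := by
  intro he
  rcases h.2 with h1 | h1
  · rw [he] at h1; exact h1 (hg' i j)
  · rw [he] at h1; exact h1 (hg' j i)

/-- only slots which change are in conflict (new slot) -/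
theorem Cf.ne_right {D : ι → ι → Λ → Λ → Prop} {g g' : ι → Λ} {i j : ι}
    (hg : ∀ i j, D i j (g i) (g j)) (h : Cf D g g' i j) : g j ≠ g' j := by
  intro he
  rcases h.2 with h1 | h1
  · rw [← he] at h1; exact h1 (hg i j)
  · rw [← he] at h1; exact h1 (hg j i)

open Classical in
/-- the column after the change of the slots of `C` -/
noncomputable def mixC (g g' : ι → Λ) (C : Set ι) : ι → Λ := fun i => if i ∈ C then g' i else g i

theorem mixC_legal {D : ι → ι → Λ → Λ → Prop} {g g' : ι → Λ} (hg : ∀ i j, D i j (g i) (g j))
    (hg' : ∀ i j, D i j (g' i) (g' j)) {C : Set ι} (hC : ∀ i j, Cf D g g' i j → j ∈ C → i ∈ C)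
    (i j : ι) : D i j (mixC g g' C i) (mixC g g' C j) := by
  unfold mixC
  by_cases hi : i ∈ C <;> by_cases hj : j ∈ C
  · simp only [hi, hj, if_true]; exact hg' i j
  · simp only [hi, hj, if_true, if_false]
    by_contra hcon
    exact hj (hC j i ⟨fun h => hj (h ▸ hi), Or.inr hcon⟩ hi)
  · simp only [hi, hj, if_true, if_false]
    by_contra hcon
    exact hi (hC i j ⟨fun h => hi (h ▸ hj), Or.inl hcon⟩ hj)
  · simp only [hi, hj, if_false]; exact hg i j

/-- **No conflict cycle: legal updates of one slot.** -/
theorem reach_of_acyclic [Finite ι] {D : ι → ι → Λ → Λ → Prop} {g g' : ι → Λ}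
    (hg : ∀ i j, D i j (g i) (g j)) (hg' : ∀ i j, D i j (g' i) (g' j))
    (hac : ∀ i, ¬ Relation.TransGen (Cf D g g') i i) :
    Relation.ReflTransGen (Upd fun h => ∀ i j, D i j (h i) (h j)) g g' := by
  classical
  have := Fintype.ofFinite ι
  have hirr : Std.Irrefl (Relation.TransGen (Cf D g g')) := ⟨hac⟩
  have htr : IsTrans ι (Relation.TransGen (Cf D g g')) := ⟨fun _ _ _ => Relation.TransGen.trans⟩
  have hwf : WellFounded (Relation.TransGen (Cf D g g')) :=
    Finite.wellFounded_of_trans_of_irrefl _
  -- enlarge the set of the changed slots one by one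
  have key : ∀ n : ℕ, n ≤ Fintype.card ι → ∃ C : Finset ι, C.card = n ∧
      (∀ i j, Cf D g g' i j → j ∈ C → i ∈ C) ∧
      Relation.ReflTransGen (Upd fun h => ∀ i j, D i j (h i) (h j)) g (mixC g g' (C : Set ι)) := by
    intro n
    induction n with
    | zero =>
      intro _
      refine ⟨∅, rfl, fun i j _ h => absurd h (Finset.notMem_empty j), ?_⟩
      have e : mixC g g' ((∅ : Finset ι) : Set ι) = g := by
        funext i; simp [mixC]
      rw [e]
    | succ n ih =>
      intro hn
      obtain ⟨C, hcard, hdown, hreach⟩ := ih (by omega)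
      have hne : ({i | i ∉ C} : Set ι).Nonempty := by
        by_contra hcon
        rw [Set.not_nonempty_iff_eq_empty] at hcon
        have h1 : C = Finset.univ := by
          ext i
          simp only [Finset.mem_univ, iff_true]
          by_contra hi
          have : i ∈ ({i | i ∉ C} : Set ι) := hi
          rw [hcon] at this
          exact this
        rw [h1, Finset.card_univ] at hcard
        omega
      obtain ⟨m, hm, hmin⟩ := hwf.has_min _ hne
      have hm : m ∉ C := hm
      have hdown' : ∀ i j, Cf D g g' i j → j ∈ insert m C → i ∈ insert m C := by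
        intro i j hij hj
        rcases Finset.mem_insert.1 hj with rfl | hj
        · by_contra hi
          have hi : i ∉ C := fun h => hi (Finset.mem_insert_of_mem h)
          exact hmin i hi (Relation.TransGen.single hij)
        · exact Finset.mem_insert_of_mem (hdown i j hij hj)
      refine ⟨insert m C, by rw [Finset.card_insert_of_notMem hm, hcard], hdown', ?_⟩
      refine hreach.tail ⟨fun i j => mixC_legal hg hg' (fun i j h1 h2 => ?_) i j,
        fun i j => mixC_legal hg hg' (fun i j h1 h2 => ?_) i j, m, fun j hj => ?_⟩
      · exact hdown i j h1 h2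
      · exact hdown' i j h1 h2
      · unfold mixC
        by_cases hjC : j ∈ (C : Set ι)
        · have h1 : j ∈ ((insert m C : Finset ι) : Set ι) := by
            rw [Finset.coe_insert]; exact Or.inr hjC
          rw [if_pos h1, if_pos hjC]
        · have h1 : j ∉ ((insert m C : Finset ι) : Set ι) := by
            rw [Finset.coe_insert]
            rintro (h2 | h2)
            · exact hj h2
            · exact hjC h2
          rw [if_neg h1, if_neg hjC]
  obtain ⟨C, hcard, -, hreach⟩ := key (Fintype.card ι) le_rfl
  have hC : C = Finset.univ := (Finset.card_eq_iff_eq_univ C).1 hcard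
  have e : mixC g g' (C : Set ι) = g' := by
    funext i; simp [mixC, hC]
  rwa [e] at hreach

/-- a rank function excludes cycles -/
theorem acyclic_of_rank {r : ι → ι → Prop} (f : ι → ℕ) (hf : ∀ i j, r i j → f i < f j) (i : ι) :
    ¬ Relation.TransGen r i i := by
  intro h
  have key : ∀ j, Relation.TransGen r i j → f i < f j := by
    intro j hj
    induction hj with
    | single h1 => exact hf _ _ h1
    | tail _ h1 ih => exact ih.trans (hf _ _ h1)
  exact lt_irrefl _ (key i h)

/-- a set which is left by every edge and never entered is not on a cycle: slots which have no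
predecessor (or no successor) can be removed -/
theorem acyclic_of_sub {r r' : ι → ι → Prop} (hr : ∀ i j, r i j → (∃ k, r j k) → (∃ k, r k i) →
    r' i j) (hac : ∀ i, ¬ Relation.TransGen r' i i) (i : ι) : ¬ Relation.TransGen r i i := by
  intro h
  -- on a cycle every vertex has a predecessor and a successor
  have hpre : ∀ a b, Relation.TransGen r a b → ∃ k, r k b := by
    intro a b hab
    induction hab with
    | single h1 => exact ⟨_, h1⟩
    | tail _ h1 _ => exact ⟨_, h1⟩
  have hsuc : ∀ a b, Relation.TransGen r a b → ∃ k, r a k := by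
    intro a b hab
    induction hab with
    | single h1 => exact ⟨_, h1⟩
    | tail _ _ ih => exact ih
  have key : ∀ j, Relation.TransGen r i j → Relation.TransGen r j i →
      Relation.TransGen r' i j := by
    intro j hj
    induction hj with
    | single h1 =>
      intro h2
      exact Relation.TransGen.single (hr _ _ h1 (hsuc _ _ h2) (hpre _ _ h))
    | tail h0 h1 ih =>
      intro h2
      refine Relation.TransGen.tail (ih (Relation.TransGen.head h1 h2))
        (hr _ _ h1 (hsuc _ _ h2) (hpre _ _ h0))
  exact hac i (key i h h)

end Vale.Agent.P032.Sweep
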