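import Vale.Agent.P032.H383.Far2
import Vale.Agent.P032.H383.Loc
import Vale.Agent.P032.S5.Clopen

/-!
# P032: the free border at a two-pair point stays in its disc

`V` a two-pair point with the pairs `a b | m n`.  If no point with three colours is joined to `V` inside
the closed disc of `V` by points with the colours `b, m`, then every connected set of points with the
colours `b, m` which contains `V` is in this disc (`near_border`), hence has no point with three
colours.
-/

open Set Filter Topology Metric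

noncomputable section

namespace Vale.Agent.P032.H383

open Vale.Agent.P032.Six Vale.Agent.P032.S5.H767 Vale.Agent.P032.H227

variable {U : Fin 6 → Set ℂ} {T : ℂ → Set (Fin 6)} {a b m n : Fin 6} {V x : ℂ}

/-- the points with the colours `b` and `m` -/
def BE (T : ℂ → Set (Fin 6)) (b m : Fin 6) : Set ℂ := {x | b ∈ T x ∧ m ∈ T x}

theorem BE_closed (h : Irr U T) : IsClosed (BE T b m) := (h.closed b).inter (h.closed m)

/-- colours of different pairs are no palette of the circle -/
theorem ne_cross (h : Irr U T) (hV : DPt T V a b m n) (hx : dist x V = 1) : T x ≠ {b, m} := by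
  intro hT
  have hb : b ∈ T V := by rw [hV.pal]; simp
  have hm : m ∈ T V := by rw [hV.pal]; simp
  have hsub : T x ⊆ T V := by
    rw [hT]
    rintro i (rfl | rfl)
    exacts [hb, hm]
  have hloc : ∀ᶠ y in 𝓝[sphere V 1] x, T y = T x := by
    filter_upwards [mem_nhdsWithin_of_mem_nhds (h.nhd x), self_mem_nhdsWithin] with y hy hyV
    have hyV : dist y V = 1 := hyV
    have h1 := ne_single h hb hyV
    have h2 := ne_single h hm hyV
    rw [hT] at hy ⊢
    obtain ⟨i, hi⟩ := h.ne y
    by_cases h3 : b ∈ T y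
    · by_cases h4 : m ∈ T y
      · exact Subset.antisymm hy (by rintro j (rfl | rfl) <;> assumption)
      · exfalso
        refine h1 (Subset.antisymm (fun j hj => ?_) (by rintro j rfl; exact h3))
        rcases hy hj with h5 | h5
        · exact h5
        · rw [mem_singleton_iff] at h5
          exact absurd (h5 ▸ hj) h4
    · exfalso
      refine h2 (Subset.antisymm (fun j hj => ?_) ?_)
      · rcases hy hj with h5 | h5
        · exact absurd (h5 ▸ hj) h3
        · exact h5
      · rintro j rfl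
        rcases hy hi with h5 | h5
        · exact absurd (h5 ▸ hi) h3
        · rw [mem_singleton_iff] at h5
          exact h5 ▸ hi
  rcases h.twoPairs hV x hx hloc hsub with h1 | h1
  · have h2 : m ∈ ({a, b} : Set (Fin 6)) := by rw [← h1, hT]; simp
    rcases h2 with h2 | h2
    · exact hV.ac h2.symm
    · exact hV.bc h2.symm
  · have h2 : b ∈ ({m, n} : Set (Fin 6)) := by rw [← h1, hT]; simp
    rcases h2 with h2 | h2
    · exact hV.bc h2
    · exact hV.bd h2

/-- a point of `S(V)` with the colours `b, m` has three colours or at least four -/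
theorem three_or (h : Irr U T) (hV : DPt T V a b m n) (hx : dist x V = 1) (hE : x ∈ BE T b m) :
    (T x).ncard = 3 ∨ 4 ≤ (T x).ncard := by
  have h1 : ({b, m} : Set (Fin 6)) ⊆ T x := by
    rintro i (rfl | rfl)
    exacts [hE.1, hE.2]
  have h2 := Set.ncard_le_ncard h1 (Set.toFinite _)
  rw [Set.ncard_pair hV.bc] at h2
  have h3 : (T x).ncard ≠ 2 := by
    intro h4
    refine ne_cross h hV hx (Set.eq_of_subset_of_ncard_le h1 ?_ (Set.toFinite _)).symm
    rw [Set.ncard_pair hV.bc]; omega
  omega

/-- **THE NEAR LEMMA**, in any closed set of points with the colours `b, m` -/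
theorem near_set (h : Irr U T) (hV : DPt T V a b m n) {E : Set ℂ} (hEc : IsClosed E)
    (hEB : E ⊆ BE T b m) (hVE : V ∈ E)
    (iso : ∀ x, dist x V = 1 → 4 ≤ (T x).ncard → ∀ᶠ y in 𝓝[≠] x, (T y).ncard ≤ 3)
    (h3 : ∀ C ⊆ E ∩ closedBall V 1, IsPreconnected C → V ∈ C → ∀ x ∈ C, (T x).ncard ≠ 3) :
    ∀ C ⊆ E, IsPreconnected C → V ∈ C → C ⊆ closedBall V 1 := by
  classical
  obtain ⟨K, hK⟩ : ∃ K : Set ℂ, K = E ∩ closedBall V 1 := ⟨_, rfl⟩
  have hKc : IsCompact K := by
    rw [hK]
    exact (isCompact_closedBall V 1).inter_left hEc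
  have hVK : V ∈ K := by rw [hK]; exact ⟨hVE, mem_closedBall_self zero_le_one⟩
  have hCS : CompactSpace K := isCompact_iff_compactSpace.1 hKc
  -- the good points
  obtain ⟨P, hP⟩ : ∃ P : ℂ → Prop, P = fun x => ∀ᶠ y in 𝓝 x, y ∈ E → y ∈ closedBall V 1 :=
    ⟨_, rfl⟩
  have hPo : ∀ x, P x → ∀ᶠ y in 𝓝 x, P y := by
    intro x hx
    rw [hP] at hx ⊢
    exact eventually_eventually_nhds.2 hx
  have hPb : ∀ x, dist x V < 1 → P x := by
    intro x hx
    rw [hP]
    have : ∀ᶠ y in 𝓝 x, dist y V < 1 :=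
      (isOpen_lt (continuous_id.dist continuous_const) continuous_const).mem_nhds hx
    exact this.mono fun y hy _ => mem_closedBall.2 hy.le
  obtain ⟨C0, hC0⟩ : ∃ C0 : Set ℂ, C0 = Subtype.val '' connectedComponent (⟨V, hVK⟩ : K) :=
    ⟨_, rfl⟩
  have hC0c : IsPreconnected C0 := by
    rw [hC0]
    exact isPreconnected_connectedComponent.image _ continuous_subtype_val.continuousOn
  have hC0K : C0 ⊆ K := by
    rw [hC0]
    rintro _ ⟨y, _, rfl⟩
    exact y.2
  have hVC0 : V ∈ C0 := by
    rw [hC0]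
    exact ⟨⟨V, hVK⟩, mem_connectedComponent, rfl⟩
  have hC03 : ∀ x ∈ C0, (T x).ncard ≠ 3 := h3 C0 (by rw [← hK]; exact hC0K) hC0c hVC0
  have key : ∀ x ∈ C0, P x := by
    intro x hx
    have hxK := hC0K hx
    rw [hK] at hxK
    rcases lt_or_eq_of_le (mem_closedBall.1 hxK.2) with h1 | h1
    · exact hPb x h1
    have h4 : 4 ≤ (T x).ncard := (three_or h hV h1 (hEB hxK.1)).resolve_left (hC03 x hx)
    by_contra hcon
    have hout : ∀ᶠ y in 𝓝 x, y ∈ E → 1 ≤ dist y V := by
      rcases h.sides hV h1 with hs | hs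
      · filter_upwards [hs] with y hy hyE
        by_contra h5
        push Not at h5
        exact hy.2 h5 (h.sub y (hEB hyE).1)
      · exfalso
        apply hcon
        rw [hP]
        filter_upwards [hs] with y hy hyE
        by_contra h5
        rw [mem_closedBall] at h5
        push Not at h5
        exact hy.1 h5 (h.sub y (hEB hyE).1)
    -- `x` is isolated in `C0`
    have hiso : ∀ᶠ y in 𝓝 x, y ∈ C0 → y = x := by
      have h5 := iso x h1 h4
      rw [eventually_nhdsWithin_iff] at h5
      filter_upwards [hout, h5] with y hy hy5 hyC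
      by_contra hne
      have hyK := hC0K hyC
      rw [hK] at hyK
      have h6 : dist y V = 1 := le_antisymm (mem_closedBall.1 hyK.2) (hy hyK.1)
      rcases three_or h hV h6 (hEB hyK.1) with h7 | h7
      · exact hC03 y hyC h7
      · have := hy5 hne
        omega
    have hf : ContinuousOn (fun q : ℂ => decide (q = x)) C0 := by
      intro q hq
      refine ContinuousWithinAt.congr_of_eventuallyEq (f := fun _ => decide (q = x))
        continuousWithinAt_const ?_ rfl
      by_cases h5 : q = x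
      · subst h5
        filter_upwards [mem_nhdsWithin_of_mem_nhds hiso, self_mem_nhdsWithin] with w hw hwC
        rw [hw hwC]
      · have h6 : ∀ᶠ w in 𝓝 q, w ≠ x := isOpen_ne.mem_nhds h5
        filter_upwards [mem_nhdsWithin_of_mem_nhds h6] with w hw
        rw [decide_eq_false h5, decide_eq_false hw]
    have h7 := hC0c.constant hf hx hVC0
    simp only [decide_eq_decide] at h7
    have h8 : V = x := h7.1 trivial
    rw [← h8, dist_self] at h1
    exact zero_ne_one h1
  -- the separating set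
  obtain ⟨N, hN, hVN, hNY⟩ := Vale.Agent.P032.S5.exists_clopen_point (x := (⟨V, hVK⟩ : K))
    (Y := {y : K | ¬ P y}) (by
      rw [← isOpen_compl_iff, isOpen_iff_mem_nhds]
      intro y hy
      simp only [mem_compl_iff, mem_ofPred_eq, not_not] at hy
      have h5 : ∀ᶠ w : K in 𝓝 y, P w := continuous_subtype_val.continuousAt.eventually (hPo y hy)
      filter_upwards [h5] with w hw
      simpa using hw) (by
      intro y hy hcon
      refine hy (key y ?_)
      rw [hC0]
      exact ⟨y, hcon, rfl⟩)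
  obtain ⟨M, hM⟩ : ∃ M : Set ℂ, M = Subtype.val '' N := ⟨_, rfl⟩
  have hMc : IsClosed M := by
    rw [hM]
    exact (hN.isClosed.isCompact.image continuous_subtype_val).isClosed
  have hMK : M ⊆ K := by
    rw [hM]
    rintro _ ⟨y, _, rfl⟩
    exact y.2
  have hMo : ∀ x ∈ M, ∀ᶠ y in 𝓝 x, y ∈ E → y ∈ M := by
    intro x hx
    rw [hM] at hx
    obtain ⟨⟨x', hxK⟩, hxN, rfl⟩ := hx
    have hPx : P x' := by
      by_contra hcon
      exact Set.disjoint_left.1 hNY hxN hcon
    have h5 : ∀ᶠ y in 𝓝 x', ∀ hy : y ∈ K, (⟨y, hy⟩ : K) ∈ N := by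
      have h6 := hN.isOpen.mem_nhds hxN
      rw [nhds_subtype_eq_comap, mem_comap] at h6
      obtain ⟨t, ht, hts⟩ := h6
      filter_upwards [ht] with y hy hyK
      exact hts hy
    rw [hP] at hPx
    filter_upwards [hPx, h5] with y hy hy5 hyE
    have hyK : y ∈ K := by rw [hK]; exact ⟨hyE, hy hyE⟩
    rw [hM]
    exact ⟨⟨y, hyK⟩, hy5 hyK, rfl⟩
  have hVM : V ∈ M := by rw [hM]; exact ⟨⟨V, hVK⟩, hVN, rfl⟩
  intro C hCE hC hVC
  have hf : ContinuousOn (fun q : ℂ => decide (q ∈ M)) C := by
    intro q hq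
    refine ContinuousWithinAt.congr_of_eventuallyEq (f := fun _ => decide (q ∈ M))
      continuousWithinAt_const ?_ rfl
    by_cases h5 : q ∈ M
    · filter_upwards [mem_nhdsWithin_of_mem_nhds (hMo q h5), self_mem_nhdsWithin] with w hw hwC
      rw [decide_eq_true h5, decide_eq_true (hw (hCE hwC))]
    · have h6 : ∀ᶠ w in 𝓝 q, w ∉ M := hMc.isOpen_compl.mem_nhds h5
      filter_upwards [mem_nhdsWithin_of_mem_nhds h6] with w hw
      rw [decide_eq_false h5, decide_eq_false hw]
  intro y hy
  have h7 := hC.constant hf hVC hy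
  simp only [decide_eq_decide] at h7
  have h8 := hMK (h7.1 hVM)
  rw [hK] at h8
  exact h8.2

/-- the near lemma for the whole border -/
theorem near_border (h : Irr U T) (hV : DPt T V a b m n)
    (iso : ∀ x, dist x V = 1 → 4 ≤ (T x).ncard → ∀ᶠ y in 𝓝[≠] x, (T y).ncard ≤ 3)
    (h3 : ∀ C ⊆ BE T b m ∩ closedBall V 1, IsPreconnected C → V ∈ C → ∀ x ∈ C, (T x).ncard ≠ 3) :
    ∀ C ⊆ BE T b m, IsPreconnected C → V ∈ C → C ⊆ closedBall V 1 :=
  near_set h hV (BE_closed h) Subset.rfl (by refine ⟨?_, ?_⟩ <;> rw [hV.pal] <;> simp) iso h3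

/-- **no point with three colours on the free border** -/
theorem near_no_three (h : Irr U T) (hV : DPt T V a b m n)
    (iso : ∀ x, dist x V = 1 → 4 ≤ (T x).ncard → ∀ᶠ y in 𝓝[≠] x, (T y).ncard ≤ 3)
    (h3 : ∀ C ⊆ BE T b m ∩ closedBall V 1, IsPreconnected C → V ∈ C → ∀ x ∈ C, (T x).ncard ≠ 3) :
    ∀ C ⊆ BE T b m, IsPreconnected C → V ∈ C → ∀ x ∈ C, (T x).ncard ≠ 3 := by
  intro C hCE hC hVC
  exact h3 C (fun y hy => ⟨hCE hy, near_border h hV iso h3 C hCE hC hVC hy⟩) hC hVC

end Vale.Agent.P032.H383
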