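import Vale.Agent.P032.H383.Near
import Vale.Agent.P032.H747.L1A
import Vale.Agent.P032.S5.H11.End

/-!
# P032: no base on the free borders of a two-pair point in the state A

`V` a two-pair point with the pairs `a b | m n`, `E` the closed part of the border of `b, m` of the
label theorem `LabI`, `V` in `E`.  The state at `V` has the value `1` at two of the four triples which
contain `b` and `m`, the two other triples are no bases in the closed disc of `V`.  Then no base at all
is joined to `V` in `E` (`near_A`).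
-/

open Set Filter Topology Metric

noncomputable section

namespace Vale.Agent.P032.H383

open Vale.Agent.P032.Six Vale.Agent.P032.S5.H767 Vale.Agent.P032.H227 Vale.Agent.P032.S5.Tab
  Vale.Agent.P032.S5 Vale.Agent.P032.H747

variable {U : Fin 6 → Set ℂ} {T : ℂ → Set (Fin 6)} {a b m n : Fin 6} {V x : ℂ}

/-- **no base is joined to a vertex in the state A along a free border** -/
theorem near_A (h : Irr U T) (hV : DPt T V a b m n) {E : Set ℂ} {p : Finset (Fin 6)} {r : ℂ → Ch}
    {st : ℂ → Finset (Fin 6) → Ch} {Bs : ℂ → Finset (Fin 6) → Prop} (L : LabI E p r st Bs)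
    (hp : p = {b, m}) (hEB : E ⊆ BE T b m) (hVE : V ∈ E)
    (iso : ∀ x, dist x V = 1 → 4 ≤ (T x).ncard → ∀ᶠ y in 𝓝[≠] x, (T y).ncard ≤ 3)
    (h3B : ∀ x ∈ E, (T x).ncard = 3 → Bs x (S5.End.Kf T x))
    (ex : ∀ S : Finset (Fin 6), S.card = 3 → p ⊆ S → r V S = 0 →
      ∀ x ∈ E, dist x V ≤ 1 → ¬ Bs x S) :
    ∀ Q ⊆ E, IsPreconnected Q → V ∈ Q → ∀ y ∈ Q, ∀ S, ¬ Bs y S := by
  have key : ∀ Q ⊆ E, IsPreconnected Q → V ∈ Q → ∀ y ∈ Q, ∀ S, Bs y S → dist y V ≤ 1 → False := by
    intro Q hQE hQ hVQ y hy S hS hd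
    have hyE := hQE hy
    have c := L.card y hyE S hS
    have s := L.sub y hyE S hS
    have A := L.adm y hyE S hS
    have hne : ¬ Disjoint S p := by
      rw [Finset.not_disjoint_iff]
      exact ⟨b, s (by rw [hp]; simp), by rw [hp]; simp⟩
    have e1 := L.res y hyE S hS S c hne
    have e2 := L.r_const hQE hQ hy hVQ c hne
    have e3 : st y S S = 0 := by
      rcases A.2.2 S c with h1 | h1
      · exact h1
      · rw [A.2.1] at h1
        exact absurd h1 (by decide)
    exact ex S c s (by rw [← e2, ← e1, e3]) y hyE hd hS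
  intro Q hQE hQ hVQ y hy S hS
  refine key Q hQE hQ hVQ y hy S hS ?_
  have hE : IsClosed E := L.cpt.isClosed
  exact mem_closedBall.1 (near_set h hV hE hEB hVE iso (fun C hC hCc hVC x hx h3 =>
    key C (fun w hw => (hC hw).1) hCc hVC x hx _ (h3B x (hC hx).1 h3)
      (mem_closedBall.1 (hC hx).2)) Q hQE hQ hVQ hy)

end Vale.Agent.P032.H383
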