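import Vale.Agent.P032.H538.Ring1

/-!
# P032, X.STATE.4: the odd ring at a three coloured point, full points on the circle allowed

`ringOdd_ofC` : as `ringOdd_of` (H538), but the circle about `x` may carry four coloured points `y` with
all colours outside `T x`, if their separated pair `f y` is outside `T x` and the points of the circle at
distance one from `y` carry `f y` and not the third colour outside `T x` (475).
-/

open Set Filter Topology Metric

noncomputable section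

namespace Vale.Agent.P032.Six

open Vale.Agent.P032.S5 Vale.Agent.P032.Carr Vale.Agent.P032.S5.Tab
open Vale.Agent.P032.H180 (Frz HexZ Qt Qt_of_ne Qt_of_eq om)

variable {U : Fin 6 → Set ℂ} {T : ℂ → Set (Fin 6)} {f : ℂ → Set (Fin 6)} {Z : Set ℂ} {c : ℂ}
  {R δ₀ : ℝ} {x : ℂ}

open Classical in
/-- **The odd ring**, full points on the circle allowed -/
theorem DSt.ringOdd_ofC (D : DSt U T Z f c R δ₀) (hx : dist x c ≤ R - 1) (h3 : (T x).ncard = 3)
    (hap : ∀ z, dist z x = 1 → 4 ≤ (T z).ncard → ¬ T z \ f z ⊆ T x)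
    (hQ : ∀ y, dist y x = 1 → (T x)ᶜ ⊆ T y → 4 ≤ (T y).ncard ∧ f y ⊆ (T x)ᶜ)
    (hK : ∀ y y', dist y x = 1 → dist y' x = 1 → dist y y' = 1 → (T x)ᶜ ⊆ T y →
      f y ⊆ T y' ∧ ∀ i ∈ T y, i ∉ f y → i ∉ T x → i ∉ T y')
    (hR : ∀ y y', dist y x = 1 → dist y' x = 1 → dist y y' = 1 → ¬ (T x)ᶜ ⊆ T y →
      ¬ (T x)ᶜ ⊆ T y' → ¬ T y \ T x ⊆ T y')
    (hnf : (∀ y, dist y x = 1 → ¬ (T x)ᶜ ⊆ T y) → ∀ col : Fin 3 → Fin 6,
      (∀ i, i ∉ T x ↔ ∃ l, i = col l) → Function.Injective col → ¬ Frz x T col) :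
    RingOdd T Z f x := by
  intro d e hde hd he
  obtain ⟨g, hdg, heg, hcov⟩ := S5.H180.exists_compl h3 hd he hde
  obtain ⟨col, hcol⟩ : ∃ col : Fin 3 → Fin 6, col = ![d, e, g] := ⟨_, rfl⟩
  have hcov' : ∀ i, i ∉ T x ↔ ∃ l, i = col l := by rw [hcol]; exact S5.H180.col_three hcov
  have hinj : Function.Injective col := by rw [hcol]; exact S5.H180.inj_three hde heg hdg
  have memZ : ∀ y, dist y x = 1 → (T x)ᶜ ⊆ T y → y ∈ Z := fun y hy hs =>
    D.memZ hx hy.le (hQ y hy hs).1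
  have unp : ∀ z ∈ Z, dist z x = 1 → ∃ i, i ∈ T z ∧ i ∉ f z ∧ i ∉ T x := by
    intro z hz hzx
    obtain ⟨i, hi, hi'⟩ := Set.not_subset.1 (hap z hzx (D.zs.four z hz))
    exact ⟨i, hi.1, hi.2, hi'⟩
  have B : H57.RC T Z f δ₀ x (T x) :=
    ⟨D.hm, h3, fun y hy hsub => D.df.irr.not_sub hy h3.le hsub,
      fun y hy hyZ hs => hyZ (memZ y hy hs), fun z _ hzx hs => (hQ z hzx hs).2, unp⟩
  obtain ⟨Q, hQdef⟩ : ∃ Q : ℝ → Set (Fin 3), Q = fun t => {l | col l ∈ T (H180.pt x t)} :=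
    ⟨_, rfl⟩
  obtain ⟨r, hrdef⟩ : ∃ r : ℝ → Fin 3, r = fun t =>
      if h : ∃ l, col l = hp T f (T x) (H180.pt x t) then h.choose else 0 := ⟨_, rfl⟩
  have mQ : ∀ t l, l ∈ Q t ↔ col l ∈ T (H180.pt x t) := by
    intro t l
    rw [hQdef]
    rfl
  have hlab : ∀ l, col l ∉ T x := fun l => (hcov' _).2 ⟨l, rfl⟩
  have hfull : ∀ t, Q t = univ ↔ (T x)ᶜ ⊆ T (H180.pt x t) := by
    intro t
    constructor
    · intro hu i hi
      obtain ⟨l, rfl⟩ := (hcov' i).1 hi
      exact (mQ t l).1 (by rw [hu]; trivial)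
    · intro hs
      ext l
      simp only [mem_univ, iff_true]
      exact (mQ t l).2 (hs (hlab l))
  -- the apex at a full time
  have hpf : ∀ t, (T x)ᶜ ⊆ T (H180.pt x t) → hp T f (T x) (H180.pt x t) ∈ T (H180.pt x t) ∧
      hp T f (T x) (H180.pt x t) ∉ f (H180.pt x t) ∧ hp T f (T x) (H180.pt x t) ∉ T x := by
    intro t ht
    have hz := memZ _ (H180.dist_pt x t) ht
    obtain ⟨h1, h2⟩ := B.hm.apex hz (T x)
    exact ⟨h1, h2, pick_avoid (unp _ hz (H180.dist_pt x t))⟩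
  have hr : ∀ t, (T x)ᶜ ⊆ T (H180.pt x t) → col (r t) = hp T f (T x) (H180.pt x t) := by
    intro t ht
    obtain ⟨l, hl⟩ := (hcov' _).1 (hpf t ht).2.2
    have hex : ∃ l, col l = hp T f (T x) (H180.pt x t) := ⟨l, hl.symm⟩
    rw [hrdef]
    simp only
    rw [dif_pos hex]
    exact hex.choose_spec
  -- labels of the separated pair
  have two : ∀ t, (T x)ᶜ ⊆ T (H180.pt x t) → ∃ l l', l ≠ l' ∧ l ≠ r t ∧ l' ≠ r t ∧
      f (H180.pt x t) = {col l, col l'} := by
    intro t ht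
    have hz := memZ _ (H180.dist_pt x t) ht
    obtain ⟨p, q, hpq, hf⟩ := Set.ncard_eq_two.1 (D.hm.two _ hz)
    have hs := (hQ _ (H180.dist_pt x t) ht).2
    obtain ⟨l, hl⟩ := (hcov' p).1 (hs (by rw [hf]; simp))
    obtain ⟨l', hl'⟩ := (hcov' q).1 (hs (by rw [hf]; simp))
    have h1 := (hpf t ht).2.1
    rw [← hr t ht, hf, hl, hl'] at h1
    simp only [mem_insert_iff, mem_singleton_iff, not_or] at h1
    refine ⟨l, l', ?_, ?_, ?_, by rw [hf, hl, hl']⟩
    · rintro rfl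
      exact hpq (hl.trans hl'.symm)
    · rintro rfl; exact h1.1 rfl
    · rintro rfl; exact h1.2 rfl
  -- neighbours of a full time
  have nb : ∀ t t', dist (H180.pt x t) (H180.pt x t') = 1 → (T x)ᶜ ⊆ T (H180.pt x t) →
      r t ∉ Q t' ∧ ¬ (T x)ᶜ ⊆ T (H180.pt x t') ∧
        ∃ l l', l ≠ l' ∧ l ≠ r t ∧ l' ≠ r t ∧ l ∈ Q t' ∧ l' ∈ Q t' := by
    intro t t' htt ht
    obtain ⟨h1, h2⟩ := hK _ _ (H180.dist_pt x t) (H180.dist_pt x t') htt ht
    obtain ⟨k1, k2, k3⟩ := hpf t ht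
    have h4 := h2 _ k1 k2 k3
    rw [← hr t ht] at h4
    obtain ⟨l, l', g1, g2, g3, g4⟩ := two t ht
    refine ⟨fun h5 => h4 ((mQ t' _).1 h5), fun h5 => h4 (h5 (hlab _)), l, l', g1, g2, g3, ?_, ?_⟩
    · rw [mQ]
      apply h1
      rw [g4]; simp
    · rw [mQ]
      apply h1
      rw [g4]; simp
  have hinc : ∀ t t', dist (H180.pt x t) (H180.pt x t') = 1 → ¬ Qt Q r t ⊆ Qt Q r t' := by
    intro t t' htt hsub
    by_cases h1 : (T x)ᶜ ⊆ T (H180.pt x t)
    · rw [Qt_of_eq ((hfull t).2 h1)] at hsub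
      exact (nb t t' htt h1).1 (hsub rfl).1
    · rw [Qt_of_ne fun h2 => h1 ((hfull t).1 h2)] at hsub
      by_cases h2 : (T x)ᶜ ⊆ T (H180.pt x t')
      · rw [Qt_of_eq ((hfull t').2 h2)] at hsub
        obtain ⟨-, -, l, l', g1, g2, g3, g4, g5⟩ := nb t' t (by rw [dist_comm]; exact htt) h2
        exact g2 (hsub g4)
      · rw [Qt_of_ne fun h3 => h2 ((hfull t').1 h3)] at hsub
        refine hR _ _ (H180.dist_pt x t) (H180.dist_pt x t') htt h1 h2 fun i hi => ?_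
        obtain ⟨l, rfl⟩ := (hcov' i).1 hi.2
        exact (mQ t' l).1 (hsub ((mQ t l).2 hi.1))
  have hdist : ∀ t, dist (H180.pt x t) (H180.pt x (t + 1)) = 1 := fun t =>
    S5.H180.dist_pt_succ x t
  have X : HexZ Q r := by
    refine ⟨fun t => ?_, fun t => ?_, fun t => ?_, fun t => ?_, fun t ht => ?_,
      fun t => hinc t (t + 1) (hdist t), fun t => hinc (t + 1) t (by rw [dist_comm]; exact hdist t),
      fun t ht ht' => ?_⟩
    · simp only [hQdef, H180.pt_six]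
    · simp only [hrdef, H180.pt_six]
    · obtain ⟨i, hi, hi'⟩ := D.df.irr.not_sub' (H180.dist_pt x t) h3.le
      obtain ⟨l, rfl⟩ := (hcov' i).1 hi'
      exact ⟨l, (mQ t l).2 hi⟩
    · rw [hQdef]
      exact S5.H180.usc_pt D.df.irr.nhd x col t
    · have hf := (hfull t).1 ht
      have hz := memZ _ (H180.dist_pt x t) hf
      obtain ⟨l, l', g1, g2, g3, g4⟩ := two t hf
      have hcont : Tendsto (H180.pt x) (𝓝 t) (𝓝 (H180.pt x t)) :=
        (H180.continuous_pt x).continuousAt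
      filter_upwards [hcont.eventually (closedBall_mem_nhds (H180.pt x t) D.hm.pos)] with s hs
      have hs : dist (H180.pt x s) (H180.pt x t) ≤ δ₀ := mem_closedBall.1 hs
      by_cases hsZ : H180.pt x s ∈ Z
      · left
        obtain ⟨e1, e2⟩ := D.hm.const _ hz _ hsZ hs
        refine ⟨(hfull s).2 (by rw [e1]; exact hf), ?_⟩
        apply hinj
        rw [hr s (by rw [e1]; exact hf), hr t hf, H57.hp_congr e1 e2]
      · right
        have h1 := D.hm.forb _ hz _ hs hsZ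
        rw [g4] at h1
        have key : ∀ i ∈ Q s, ∀ j ∈ Q s, i = r t ∨ j = r t ∨ i = j := by
          intro i hi j hj
          by_contra hcon
          push Not at hcon
          obtain ⟨c1, c2, c3⟩ := hcon
          apply h1
          have h5 : ∀ l₁ l₂ r₁ i₁ j₁ : Fin 3, l₁ ≠ l₂ → l₁ ≠ r₁ → l₂ ≠ r₁ → i₁ ≠ r₁ → j₁ ≠ r₁ →
              i₁ ≠ j₁ → (l₁ = i₁ ∨ l₁ = j₁) ∧ (l₂ = i₁ ∨ l₂ = j₁) := by decide
          obtain ⟨h6, h7⟩ := h5 l l' (r t) i j g1 g2 g3 c1 c2 c3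
          rintro m (rfl | rfl)
          · rcases h6 with h6 | h6 <;> rw [h6]
            · exact (mQ s i).1 hi
            · exact (mQ s j).1 hj
          · rcases h7 with h7 | h7 <;> rw [h7]
            · exact (mQ s i).1 hi
            · exact (mQ s j).1 hj
        refine ⟨fun hu => ?_, key⟩
        apply h1
        rintro m (rfl | rfl)
        · exact (mQ s l).1 (by rw [hu]; trivial)
        · exact (mQ s l').1 (by rw [hu]; trivial)
    · exact absurd ((hfull (t + 1)).1 ht') (nb t (t + 1) (hdist t) ((hfull t).1 ht)).2.1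
  have hnf' : ¬ ((∀ t ∈ Icc (0 : ℝ) 6, ∀ l, l ∈ Qt Q r t ↔ l + 1 ∈ Qt Q r (t + 1)) ∨
      ∀ t ∈ Icc (0 : ℝ) 6, ∀ l, l ∈ Qt Q r t ↔ l + 2 ∈ Qt Q r (t + 1)) := by
    intro hfr
    by_cases hex : ∃ y, dist y x = 1 ∧ (T x)ᶜ ⊆ T y
    · obtain ⟨y, hy, hys⟩ := hex
      obtain ⟨t, ht, rfl⟩ := H180.exists_pt hy
      obtain ⟨-, h1, l, l', g1, g2, g3, g4, g5⟩ := nb t (t + 1) (hdist t) hys
      have e1 := Qt_of_eq (r := r) ((hfull t).2 hys)
      have e2 := Qt_of_ne (Q := Q) (r := r) (t := t + 1) fun h3 => h1 ((hfull (t + 1)).1 h3)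
      rw [← e2] at g4 g5
      have key : ∀ k : Fin 3, (∀ m, m ∈ Qt Q r t ↔ m + k ∈ Qt Q r (t + 1)) → False := by
        intro k hk
        have k1 := (hk (l - k)).2 (by rw [sub_add_cancel]; exact g4)
        have k2 := (hk (l' - k)).2 (by rw [sub_add_cancel]; exact g5)
        rw [e1, mem_singleton_iff] at k1 k2
        exact g1 (sub_left_injective (k1.trans k2.symm))
      rcases hfr with hfr | hfr
      · exact key 1 (hfr t ht)
      · exact key 2 (hfr t ht)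
    · push Not at hex
      have hne : ∀ t, Q t ≠ univ := fun t hu => hex _ (H180.dist_pt x t) ((hfull t).1 hu)
      refine hnf (fun y hy => hex y hy) _ hcov' hinj ?_
      rcases hfr with hfr | hfr
      · refine ⟨1, Or.inl rfl, fun y hy l => ?_⟩
        obtain ⟨t, ht, rfl⟩ := H180.exists_pt hy
        rw [← H180.pt_add_one]
        have h1 := hfr t ht l
        rw [Qt_of_ne (hne t), Qt_of_ne (hne (t + 1)), mQ, mQ] at h1
        exact h1
      · refine ⟨2, Or.inr rfl, fun y hy l => ?_⟩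
        obtain ⟨t, ht, rfl⟩ := H180.exists_pt hy
        rw [← H180.pt_add_one]
        have h1 := hfr t ht l
        rw [Qt_of_ne (hne t), Qt_of_ne (hne (t + 1)), mQ, mQ] at h1
        exact h1
  subst hcol
  subst hQdef
  exact B.ringZ hcov hde heg hdg (r := r) hr X hnf'

end Vale.Agent.P032.Six
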