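import Vale.Agent.P032.H492.Index7
import Vale.Agent.P032.H406.Cross
import Vale.Agent.P032.H678.VW1

/-!
# P032: the rays of a two-pair point and the sides of the unit circles through it

`z` a two-pair point with the pairs `{a, a'}`, `{b, b'}`.

* `Rays T z a a' b b' da db σ` : on the ray `da` from `z` the palette is `{a}`, on `-da` it is `{a'}`,
  the same for `db`; `b`, `b'` are strictly on the two sides of the line of `da`, `a`, `a'` of the line
  of `db`.  `exists_rays` (from 492's four sectors).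
* `side_in`, `side_out` : the points of the colour `a` near `z` are inside (outside) the unit circle about
  `V` if the ray is.
-/

open Set Filter Topology Metric

noncomputable section

namespace Vale.Agent.P032.H383

open Vale.Agent.P032.Six Vale.Agent.P032.S5.H767 Vale.Agent.P032.H492

variable {U : Fin 6 → Set ℂ} {T : ℂ → Set (Fin 6)}

/-- cross product -/
def crp (w z : ℂ) : ℝ := w.re * z.im - w.im * z.re

/-- scalar product -/
def dtp (w z : ℂ) : ℝ := w.re * z.re + w.im * z.im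

/-- rays and sides at a two-pair point -/
structure Rays (T : ℂ → Set (Fin 6)) (z : ℂ) (a a' b b' : Fin 6) (da db : ℂ) (σ : ℝ) : Prop where
  na : ‖da‖ = 1
  nb : ‖db‖ = 1
  sg : σ = 1 ∨ σ = -1
  ra : ∀ᶠ ρ : ℝ in 𝓝[>] 0, T (z + ρ * da) = {a}
  ra' : ∀ᶠ ρ : ℝ in 𝓝[>] 0, T (z + ρ * (-da)) = {a'}
  rb : ∀ᶠ ρ : ℝ in 𝓝[>] 0, T (z + ρ * db) = {b}
  rb' : ∀ᶠ ρ : ℝ in 𝓝[>] 0, T (z + ρ * (-db)) = {b'}
  sb : ∀ᶠ x in 𝓝[≠] z, b ∈ T x → 0 < σ * crp da (x - z)
  sb' : ∀ᶠ x in 𝓝[≠] z, b' ∈ T x → σ * crp da (x - z) < 0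
  sa : ∀ᶠ x in 𝓝[≠] z, a ∈ T x → σ * crp db (x - z) < 0
  sa' : ∀ᶠ x in 𝓝[≠] z, a' ∈ T x → 0 < σ * crp db (x - z)

theorem crp_pp (z : ℂ) (ρ φ t : ℝ) : crp (cis φ) (pp z ρ (φ + t) - z) = ρ * Real.sin t := by
  unfold crp pp cis
  simp only [add_sub_cancel_left, Complex.mul_re, Complex.mul_im, Complex.ofReal_re,
    Complex.ofReal_im, Complex.exp_ofReal_mul_I_re, Complex.exp_ofReal_mul_I_im]
  rw [show Real.sin t = Real.sin (φ + t - φ) by ring_nf, Real.sin_sub]
  ring

theorem pp_cis (z : ℂ) (ρ φ : ℝ) : pp z ρ φ = z + ρ * cis φ := rfl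

/-- sides of the sectors, counterclockwise order -/
theorem Quad.rays383 (h : Irr U T) {z : ℂ} {a a' b b' : Fin 6} {φ ψ ρ₀ : ℝ}
    (Q : Quad T z a a' b b' φ ψ ρ₀) : Rays T z a a' b b' (cis φ) (cis (φ + ψ)) 1 := by
  have hnd := Q.nd
  simp only [List.nodup_cons, List.mem_cons, List.not_mem_nil, or_false, not_or,
    List.nodup_nil, and_true, not_false_eq_true] at hnd
  obtain ⟨⟨n1, n2, n3⟩, ⟨n4, n5⟩, n6⟩ := hnd
  have hψ0 := Q.hψ0
  have hψ1 := Q.hψ1
  have hpi := Real.pi_pos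
  have key : ∀ x, x ≠ z → dist x z < ρ₀ → ∃ ρ t : ℝ, 0 < ρ ∧ ρ < ρ₀ ∧ 0 ≤ t ∧ t < 2 * Real.pi ∧
      x = pp z ρ (φ + t) := by
    intro x hx hd
    obtain ⟨t, h1, h2, h3⟩ := exists_pp z x φ
    exact ⟨dist x z, t, dist_pos.2 hx, hd, h1, h2, h3⟩
  have hev : ∀ᶠ x in 𝓝[≠] z, ∃ ρ t : ℝ, 0 < ρ ∧ ρ < ρ₀ ∧ 0 ≤ t ∧ t < 2 * Real.pi ∧
      x = pp z ρ (φ + t) := by
    filter_upwards [self_mem_nhdsWithin, mem_nhdsWithin_of_mem_nhds (ball_mem_nhds z Q.pos)]
      with x h1 h2
    exact key x h1 (mem_ball.1 h2)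
  have hρ : ∀ᶠ ρ : ℝ in 𝓝[>] 0, 0 < ρ ∧ ρ < ρ₀ := by
    filter_upwards [Ioo_mem_nhdsGT Q.pos] with ρ h1
    exact h1
  have ne' : ∀ (y : ℂ) (i : Fin 6), T y ⊆ {i} → T y = {i} := by
    intro y i hy
    exact Set.Subset.antisymm hy (by
      obtain ⟨j, hj⟩ := h.ne y
      have := hy hj
      rw [mem_singleton_iff] at this
      subst this
      exact singleton_subset_iff.2 hj)
  refine ⟨norm_cis _, norm_cis _, Or.inl rfl, ?_, ?_, ?_, ?_, ?_, ?_, ?_, ?_⟩
  · filter_upwards [hρ] with ρ h1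
    apply ne'
    intro i hi
    have h2 := Q.q1 ρ h1.1 h1.2 0 le_rfl hψ0.le
    have h3 := Q.q4 ρ h1.1 h1.2 (2 * Real.pi) (by linarith) le_rfl
    rw [show φ + 2 * Real.pi = (φ + 0) + 2 * Real.pi by ring, pp_per] at h3
    rw [add_zero] at h2 h3
    rw [← pp_cis] at hi
    have h4 := h2 hi
    have h5 := h3 hi
    simp only [mem_insert_iff, mem_singleton_iff] at h4 h5 ⊢
    rcases h4 with rfl | rfl
    · rfl
    · rcases h5 with h5 | h5
      · exact absurd h5 n6
      · exact h5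
  · filter_upwards [hρ] with ρ h1
    apply ne'
    intro i hi
    have h2 := Q.q2 ρ h1.1 h1.2 Real.pi hψ1.le le_rfl
    have h3 := Q.q3 ρ h1.1 h1.2 Real.pi le_rfl (by linarith)
    have e : z + ρ * (-cis φ) = pp z ρ (φ + Real.pi) := by
      rw [pp_cis, Six.cis_add]
      congr 2
      unfold cis
      rw [Complex.exp_pi_mul_I]
      ring
    rw [e] at hi
    have h4 := h2 hi
    have h5 := h3 hi
    simp only [mem_insert_iff, mem_singleton_iff] at h4 h5 ⊢
    rcases h5 with rfl | rfl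
    · rfl
    · rcases h4 with h4 | h4
      · exact absurd h4.symm n6
      · exact h4
  · filter_upwards [hρ] with ρ h1
    apply ne'
    intro i hi
    have h2 := Q.q1 ρ h1.1 h1.2 ψ hψ0.le le_rfl
    have h3 := Q.q2 ρ h1.1 h1.2 ψ le_rfl hψ1.le
    rw [← pp_cis] at hi
    have h4 := h2 hi
    have h5 := h3 hi
    simp only [mem_insert_iff, mem_singleton_iff] at h4 h5 ⊢
    rcases h4 with rfl | rfl
    · rcases h5 with h5 | h5
      · exact h5
      · exact absurd h5 n1
    · rfl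
  · filter_upwards [hρ] with ρ h1
    apply ne'
    intro i hi
    have h2 := Q.q3 ρ h1.1 h1.2 (Real.pi + ψ) (by linarith) le_rfl
    have h3 := Q.q4 ρ h1.1 h1.2 (Real.pi + ψ) le_rfl (by linarith)
    have e : z + ρ * (-cis (φ + ψ)) = pp z ρ (φ + (Real.pi + ψ)) := by
      rw [pp_cis, show φ + (Real.pi + ψ) = (φ + ψ) + Real.pi by ring, Six.cis_add (φ + ψ)]
      congr 2
      unfold cis
      rw [Complex.exp_pi_mul_I]
      ring
    rw [e] at hi
    have h4 := h2 hi
    have h5 := h3 hi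
    simp only [mem_insert_iff, mem_singleton_iff] at h4 h5 ⊢
    rcases h4 with rfl | rfl
    · rcases h5 with h5 | h5
      · exact h5
      · exact absurd h5.symm n1
    · rfl
  · filter_upwards [hev] with x ⟨ρ, t, h1, h2, h3, h4, h5⟩ hi
    subst h5
    rw [one_mul, crp_pp]
    refine mul_pos h1 ?_
    have h0 : t ≠ 0 := by
      rintro rfl
      have h6 := Q.q4 ρ h1 h2 (2 * Real.pi) (by linarith) le_rfl
      rw [show φ + 2 * Real.pi = (φ + 0) + 2 * Real.pi by ring, pp_per] at h6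
      have h7 := h6 hi
      simp only [mem_insert_iff, mem_singleton_iff] at h7
      rcases h7 with h7 | h7
      · exact n6 h7
      · exact n2 h7.symm
    have hπ : t < Real.pi := by
      by_contra hcon
      push Not at hcon
      rcases le_total t (Real.pi + ψ) with h6 | h6
      · have h7 := Q.q3 ρ h1 h2 t hcon h6 hi
        simp only [mem_insert_iff, mem_singleton_iff] at h7
        rcases h7 with h7 | h7
        · exact n4 h7.symm
        · exact n6 h7
      · have h7 := Q.q4 ρ h1 h2 t h6 h4.le hi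
        simp only [mem_insert_iff, mem_singleton_iff] at h7
        rcases h7 with h7 | h7
        · exact n6 h7
        · exact n2 h7.symm
    exact Real.sin_pos_of_pos_of_lt_pi (lt_of_le_of_ne h3 (Ne.symm h0)) hπ
  · filter_upwards [hev] with x ⟨ρ, t, h1, h2, h3, h4, h5⟩ hi
    subst h5
    rw [one_mul, crp_pp]
    have hπ : Real.pi < t := by
      by_contra hcon
      push Not at hcon
      rcases le_total t ψ with h6 | h6
      · have h7 := Q.q1 ρ h1 h2 t h3 h6 hi
        simp only [mem_insert_iff, mem_singleton_iff] at h7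
        rcases h7 with h7 | h7
        · exact n3 h7.symm
        · exact n6 h7.symm
      · have h7 := Q.q2 ρ h1 h2 t h6 hcon hi
        simp only [mem_insert_iff, mem_singleton_iff] at h7
        rcases h7 with h7 | h7
        · exact n6 h7.symm
        · exact n5 h7.symm
    have h6 : Real.sin t < 0 := by
      have h7 := Real.sin_pos_of_pos_of_lt_pi (x := t - Real.pi) (by linarith) (by linarith)
      rw [Real.sin_sub_pi] at h7
      linarith
    exact mul_neg_of_pos_of_neg h1 h6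
  · filter_upwards [hev] with x ⟨ρ, t, h1, h2, h3, h4, h5⟩ hi
    subst h5
    rw [one_mul, show φ + t = (φ + ψ) + (t - ψ) by ring, crp_pp]
    have h0 : t < ψ ∨ Real.pi + ψ < t := by
      by_contra hcon
      push Not at hcon
      rcases le_total t Real.pi with h6 | h6
      · have h7 := Q.q2 ρ h1 h2 t hcon.1 h6 hi
        simp only [mem_insert_iff, mem_singleton_iff] at h7
        rcases h7 with h7 | h7
        · exact n2 h7
        · exact n1 h7
      · have h7 := Q.q3 ρ h1 h2 t h6 hcon.2 hi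
        simp only [mem_insert_iff, mem_singleton_iff] at h7
        rcases h7 with h7 | h7
        · exact n1 h7
        · exact n3 h7
    have h6 : Real.sin (t - ψ) < 0 := by
      rcases h0 with h0 | h0
      · exact Real.sin_neg_of_neg_of_neg_pi_lt (by linarith) (by linarith)
      · have h7 := Real.sin_pos_of_pos_of_lt_pi (x := t - ψ - Real.pi) (by linarith) (by linarith)
        rw [Real.sin_sub_pi] at h7
        linarith
    exact mul_neg_of_pos_of_neg h1 h6
  · filter_upwards [hev] with x ⟨ρ, t, h1, h2, h3, h4, h5⟩ hi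
    subst h5
    rw [one_mul, show φ + t = (φ + ψ) + (t - ψ) by ring, crp_pp]
    refine mul_pos h1 ?_
    have h0 : ψ < t ∧ t < Real.pi + ψ := by
      constructor
      · by_contra hcon
        push Not at hcon
        have h7 := Q.q1 ρ h1 h2 t h3 hcon hi
        simp only [mem_insert_iff, mem_singleton_iff] at h7
        rcases h7 with h7 | h7
        · exact n1 h7.symm
        · exact n4 h7
      · by_contra hcon
        push Not at hcon
        have h7 := Q.q4 ρ h1 h2 t hcon h4.le hi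
        simp only [mem_insert_iff, mem_singleton_iff] at h7
        rcases h7 with h7 | h7
        · exact n5 h7
        · exact n1 h7.symm
    exact Real.sin_pos_of_pos_of_lt_pi (by linarith) (by linarith)

theorem crp_neg (w z : ℂ) : crp (-w) z = -crp w z := by
  unfold crp
  simp only [Complex.neg_re, Complex.neg_im]
  ring

/-- the other orientation -/
theorem Rays.flip {z : ℂ} {a a' b b' : Fin 6} {da db : ℂ} {σ : ℝ}
    (R : Rays T z a a' b' b da db σ) : Rays T z a a' b b' da (-db) (-σ) where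
  na := R.na
  nb := by rw [norm_neg]; exact R.nb
  sg := by
    rcases R.sg with h | h
    · right; rw [h]
    · left; rw [h]; norm_num
  ra := R.ra
  ra' := R.ra'
  rb := R.rb'
  rb' := by simpa using R.rb
  sb := by
    filter_upwards [R.sb'] with x h1 h2
    have := h1 h2
    linarith
  sb' := by
    filter_upwards [R.sb] with x h1 h2
    have := h1 h2
    linarith
  sa := by
    filter_upwards [R.sa] with x h1 h2
    have := h1 h2
    rw [crp_neg]
    linarith
  sa' := by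
    filter_upwards [R.sa'] with x h1 h2
    have := h1 h2
    rw [crp_neg]
    linarith

/-- **rays and sides at a two-pair point** -/
theorem exists_rays (h : Irr U T) {z : ℂ} {a a' b b' : Fin 6} (hz : DPt T z a a' b b') :
    ∃ da db σ, Rays T z a a' b b' da db σ := by
  obtain ⟨φ, ψ, ρ₀, Q | Q⟩ := h.quad492 hz
  · exact ⟨_, _, _, Quad.rays383 h Q⟩
  · exact ⟨_, _, _, (Quad.rays383 h Q).flip⟩

/-- the ray of the colour `c` at `z` in the direction `d` -/
structure Ray (T : ℂ → Set (Fin 6)) (z : ℂ) (c : Fin 6) (d : ℂ) : Prop where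
  n : ‖d‖ = 1
  r : ∀ᶠ ρ : ℝ in 𝓝[>] 0, T (z + ρ * d) = {c}

section ray

variable {z V u d d' : ℂ} {c : Fin 6}

theorem ray_dist (hd : ‖d‖ = 1) (hV : dist V z = 1) (ρ : ℝ) :
    dist (z + ρ * d) V ^ 2 = 1 - 2 * ρ * dtp d (V - z) + ρ ^ 2 := by
  obtain ⟨v, rfl⟩ : ∃ v, V = z + v := ⟨V - z, by ring⟩
  have hv : ‖v‖ = 1 := by
    rw [dist_eq_norm] at hV
    simpa using hV
  rw [dist_eq_norm, show z + ρ * d - (z + v) = ρ * d - v by ring, add_sub_cancel_left,
    Complex.sq_norm, Complex.normSq_apply]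
  have h1 : d.re * d.re + d.im * d.im = 1 := by
    rw [← Complex.normSq_apply, ← Complex.sq_norm, hd]; norm_num
  have h2 : v.re * v.re + v.im * v.im = 1 := by
    rw [← Complex.normSq_apply, ← Complex.sq_norm, hv]; norm_num
  unfold dtp
  simp only [Complex.sub_re, Complex.sub_im, Complex.mul_re, Complex.mul_im, Complex.ofReal_re,
    Complex.ofReal_im, zero_mul, sub_zero, add_zero]
  linear_combination ρ ^ 2 * h1 + h2

/-- the continuum of a ray -/
theorem Ray.seg (h : Irr U T) (R : Ray T z c d) {ε : ℝ} (hε : 0 < ε) : ∃ ρ₀ : ℝ, 0 < ρ₀ ∧ ρ₀ < ε ∧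
    c ∈ T z ∧ (∀ ρ ∈ Ioc 0 ρ₀, T (z + ρ * d) = {c}) ∧
    IsPreconnected ((fun r : ℝ => z + (r : ℂ) * d) '' Icc 0 ρ₀) ∧
    ∀ x ∈ (fun r : ℝ => z + (r : ℂ) * d) '' Icc 0 ρ₀, c ∈ T x := by
  obtain ⟨r, hr, hrT⟩ := (mem_nhdsGT_iff_exists_Ioo_subset.1 R.r)
  have hr : 0 < r := hr
  have hcont : Continuous fun r : ℝ => z + (r : ℂ) * d := by fun_prop
  have hz : c ∈ T z := by
    have h1 : Tendsto (fun r : ℝ => z + (r : ℂ) * d) (𝓝[>] 0) (𝓝 z) := by
      have h2 := hcont.tendsto 0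
      simp only [Complex.ofReal_zero, zero_mul, add_zero] at h2
      exact h2.mono_left nhdsWithin_le_nhds
    refine (h.closed c).mem_of_tendsto h1 ?_
    filter_upwards [R.r] with ρ hρ
    show c ∈ T _
    rw [hρ]; rfl
  refine ⟨min r ε / 2, by positivity, ?_, hz, ?_, isPreconnected_Icc.image _ hcont.continuousOn, ?_⟩
  · have := min_le_right r ε
    linarith
  · intro ρ hρ
    refine hrT ⟨hρ.1, ?_⟩
    have := min_le_left r ε
    have := hρ.2
    linarith
  · rintro _ ⟨ρ, hρ, rfl⟩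
    rcases eq_or_lt_of_le hρ.1 with h1 | h1
    · subst h1
      simpa using hz
    · have h2 : T (z + ρ * d) = {c} := by
        refine hrT ⟨h1, ?_⟩
        have := min_le_left r ε
        have := hρ.2
        linarith
      show c ∈ T (z + ρ * d)
      rw [h2]; rfl

/-- the colour near `V` is farther than one from `z` if the ray at `z` is outside -/
theorem Ray.far (h : Irr U T) (R : Ray T z c d) (hV : dist V z = 1) (hd : dtp d (V - z) ≤ 0) :
    ∀ᶠ x in 𝓝 V, x ∈ U c → 1 < dist x z := by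
  obtain ⟨ρ₀, h1, -, -, -, h4, h5⟩ := R.seg h one_pos
  refine H926.far926 h.mx h4 (fun x hx => h.sub x (h5 x hx)) (p := V) (q := z)
    (y := z + ρ₀ * d) ⟨0, ⟨le_rfl, h1.le⟩, by simp⟩ ⟨ρ₀, ⟨h1.le, le_rfl⟩, rfl⟩ ?_
  have h6 := ray_dist R.n hV ρ₀
  have h7 : 1 < dist (z + ρ₀ * d) V ^ 2 := by
    rw [h6]
    have := mul_nonneg h1.le (neg_nonneg.2 hd)
    have := pow_pos h1 2
    linarith
  by_contra hcon
  push Not at hcon
  have := pow_le_one₀ dist_nonneg hcon (n := 2)
  linarith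

/-- the colour near `V` is nearer than one to `z` if the ray at `z` is inside -/
theorem Ray.near (h : Irr U T) (R : Ray T z c d) (hV : dist V z = 1) (hd : 0 < dtp d (V - z)) :
    ∀ᶠ x in 𝓝 V, x ∈ U c → dist x z < 1 := by
  obtain ⟨ρ₀, h1, h2, -, -, h4, h5⟩ := R.seg h hd
  refine H926.near926 h.mx h4 (fun x hx => h.sub x (h5 x hx)) (p := V) (q := z)
    (y := z + ρ₀ * d) ⟨0, ⟨le_rfl, h1.le⟩, by simp⟩ ⟨ρ₀, ⟨h1.le, le_rfl⟩, rfl⟩ ?_
  have h6 := ray_dist R.n hV ρ₀
  have h7 : dist (z + ρ₀ * d) V ^ 2 < 1 := by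
    rw [h6]
    nlinarith
  by_contra hcon
  push Not at hcon
  have := one_le_pow₀ hcon (n := 2)
  linarith

theorem Ray.uc (h : Irr U T) (R : Ray T z c d) :
    ∀ᶠ ρ : ℝ in 𝓝[>] 0, z + ρ * d ∈ U c := by
  filter_upwards [R.r] with ρ hρ
  exact h.mem_of_single (by rw [hρ])

theorem Ray.tendsto (z d : ℂ) : Tendsto (fun ρ : ℝ => z + (ρ : ℂ) * d) (𝓝[>] 0) (𝓝 z) := by
  have hcont : Continuous fun r : ℝ => z + (r : ℂ) * d := by fun_prop
  have h2 := hcont.tendsto 0
  simp only [Complex.ofReal_zero, zero_mul, add_zero] at h2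
  exact h2.mono_left nhdsWithin_le_nhds

/-- from the open class to the palettes -/
theorem ev_le (h : Irr U T) (hev : ∀ᶠ x in 𝓝 z, x ∈ U c → dist x V < 1) :
    ∀ᶠ x in 𝓝 z, c ∈ T x → dist x V ≤ 1 := by
  filter_upwards [hev.eventually_nhds] with x hx hc
  have h1 : ∃ᶠ y in 𝓝 x, y ∈ U c := mem_closure_iff_frequently.1 (h.sub x hc)
  by_contra hcon
  push Not at hcon
  have hcont : Continuous fun y : ℂ => dist y V := by fun_prop
  have h2 : ∀ᶠ y in 𝓝 x, 1 < dist y V := hcont.continuousAt.eventually (isOpen_Ioi.mem_nhds hcon)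
  obtain ⟨y, h3, h4, h5⟩ := (h1.and_eventually (hx.and h2)).exists
  exact absurd (h4 h3) (not_lt.2 h5.le)

theorem ev_ge (h : Irr U T) (hev : ∀ᶠ x in 𝓝 z, x ∈ U c → 1 < dist x V) :
    ∀ᶠ x in 𝓝 z, c ∈ T x → 1 ≤ dist x V := by
  filter_upwards [hev.eventually_nhds] with x hx hc
  have h1 : ∃ᶠ y in 𝓝 x, y ∈ U c := mem_closure_iff_frequently.1 (h.sub x hc)
  by_contra hcon
  push Not at hcon
  have hcont : Continuous fun y : ℂ => dist y V := by fun_prop
  have h2 : ∀ᶠ y in 𝓝 x, dist y V < 1 := hcont.continuousAt.eventually (isOpen_Iio.mem_nhds hcon)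
  obtain ⟨y, h3, h4, h5⟩ := (h1.and_eventually (hx.and h2)).exists
  exact absurd (h4 h3) (not_lt.2 h5.le)

/-- **the side of a colour**, ray inside -/
theorem Ray.side_in (h : Irr U T) (R : Ray T z c d) (R' : Ray T V c d') (hV : dist V z = 1)
    (hd : 0 < dtp d (V - z)) :
    (∀ᶠ x in 𝓝 z, x ∈ U c → dist x V < 1) ∧ ∀ᶠ x in 𝓝 z, c ∈ T x → dist x V ≤ 1 := by
  have h1 := R.near h hV hd
  -- the ray at `V` is inside the circle about `z`
  have hzV : dist z V = 1 := by rw [dist_comm]; exact hV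
  have h2 : 0 < dtp d' (z - V) := by
    by_contra hcon
    push Not at hcon
    have h3 := (Ray.tendsto V d').eventually h1
    have hpos : ∀ᶠ ρ : ℝ in 𝓝[>] 0, 0 < ρ := self_mem_nhdsWithin
    obtain ⟨ρ, h4, h5, h6⟩ := (h3.and ((R'.uc h).and hpos)).exists
    have h7 := h4 h5
    have h8 := ray_dist R'.n hzV ρ
    have h9 : dist (V + ρ * d') z ^ 2 < 1 := pow_lt_one₀ dist_nonneg h7 two_ne_zero
    have := mul_nonneg h6.le (neg_nonneg.2 hcon)
    have := pow_pos h6 2
    linarith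
  have h3 := R'.near h hzV h2
  exact ⟨h3, ev_le h h3⟩

/-- **the side of a colour**, ray outside -/
theorem Ray.side_out (h : Irr U T) (R : Ray T z c d) (R' : Ray T V c d') (hV : dist V z = 1)
    (hd : dtp d (V - z) ≤ 0) :
    (∀ᶠ x in 𝓝 z, x ∈ U c → 1 < dist x V) ∧ ∀ᶠ x in 𝓝 z, c ∈ T x → 1 ≤ dist x V := by
  have h1 := R.far h hV hd
  have hzV : dist z V = 1 := by rw [dist_comm]; exact hV
  have h2 : dtp d' (z - V) ≤ 0 := by
    by_contra hcon
    push Not at hcon
    have h3 := (Ray.tendsto V d').eventually h1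
    have h0 : ∀ᶠ ρ : ℝ in 𝓝[>] 0, ρ < dtp d' (z - V) :=
      mem_nhdsWithin_of_mem_nhds (Iio_mem_nhds hcon)
    have hpos : ∀ᶠ ρ : ℝ in 𝓝[>] 0, 0 < ρ := self_mem_nhdsWithin
    obtain ⟨ρ, h4, h5, h6, h7⟩ := (h3.and ((R'.uc h).and (hpos.and h0))).exists
    have h8 := h4 h5
    have h9 := ray_dist R'.n hzV ρ
    have h10 : 1 < dist (V + ρ * d') z ^ 2 := one_lt_pow₀ h8 two_ne_zero
    nlinarith
  have h3 := R'.far h hzV h2
  exact ⟨h3, ev_ge h h3⟩

end ray

end Vale.Agent.P032.H383
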