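import Vale.Agent.P032.H383.Sign

/-!
# P032: the sign lemma at a neighbour of a quasi-full point

`z` a two-pair point with the pairs `{a, a'}`, `{b, b'}`, `V` and `u` on the unit circle about `z`,
`S(V)` carries `b` on the side of `S(u)`, `a` is inside `S(V)`, `b` outside; no palette of `S(u)` is
inside `s`.  Then the rays `a'`, `b'` of `z` (if `a'`, `b'` are in `s`) are outside the unit circle
about `u` : `sign_main`.
-/

open Set Filter Topology Metric

noncomputable section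

namespace Vale.Agent.P032.H383

open Vale.Agent.P032.Six Vale.Agent.P032.S5.H767 Vale.Agent.P032.H492

variable {U : Fin 6 → Set ℂ} {T : ℂ → Set (Fin 6)}

theorem sign_lim {A B : ℝ} (h : ∃ᶠ τ : ℝ in 𝓝[>] 0, A * (1 - Real.cos τ) - B * Real.sin τ ≤ 0) :
    0 ≤ B := by
  by_contra hB
  push Not at hB
  apply h
  have hA : 0 < |A| + 1 := by positivity
  have hpos : (0 : ℝ) < min 1 (-B / (|A| + 1)) := lt_min one_pos (by
    have : 0 < -B := by linarith
    positivity)
  filter_upwards [Ioo_mem_nhdsGT hpos] with τ hτ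
  obtain ⟨h1, h2⟩ := hτ
  have h3 : τ < 1 := h2.trans_le (min_le_left _ _)
  have h4 : τ < -B / (|A| + 1) := h2.trans_le (min_le_right _ _)
  rw [lt_div_iff₀ hA] at h4
  have h5 := Real.one_sub_sq_div_two_le_cos (x := τ)
  have h6 := Real.sin_gt_sub_cube h1
  have h7 := Real.cos_le_one τ
  push Not
  have h8 : -|A| ≤ A := neg_abs_le A
  have h9 : -(|A| * (τ ^ 2 / 2)) ≤ A * (1 - Real.cos τ) := by
    have : |A| * (1 - Real.cos τ) ≤ |A| * (τ ^ 2 / 2) :=
      mul_le_mul_of_nonneg_left (by linarith) (abs_nonneg A)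
    nlinarith
  have h10 : 3 / 4 * τ ≤ τ - τ ^ 3 / 6 := by
    have : τ ^ 3 ≤ τ := by
      have : τ ^ 2 ≤ 1 := by nlinarith
      nlinarith
    linarith
  have h11 : -B * (3 / 4 * τ) ≤ -B * Real.sin τ :=
    mul_le_mul_of_nonneg_left (by linarith) (by linarith)
  have h12 : |A| * τ ^ 2 / 2 < -B * τ / 2 := by
    have : |A| * τ ≤ τ * (|A| + 1) := by nlinarith
    have : |A| * τ < -B := by linarith
    nlinarith
  nlinarith

theorem crp_rot (d w : ℂ) (θ : ℝ) :
    crp d (w * (1 - cis θ)) = crp d w * (1 - Real.cos θ) - dtp d w * Real.sin θ := by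
  unfold crp dtp cis
  simp only [Complex.mul_re, Complex.mul_im, Complex.sub_re, Complex.sub_im, Complex.one_re,
    Complex.one_im, Complex.exp_ofReal_mul_I_re, Complex.exp_ofReal_mul_I_im]
  ring

theorem cos_k {κ : ℝ} (hκ : κ = 1 ∨ κ = -1) (τ : ℝ) : Real.cos (κ * τ) = Real.cos τ := by
  rcases hκ with rfl | rfl
  · rw [one_mul]
  · rw [neg_one_mul, Real.cos_neg]

theorem sin_k {κ : ℝ} (hκ : κ = 1 ∨ κ = -1) (τ : ℝ) : Real.sin (κ * τ) = κ * Real.sin τ := by
  rcases hκ with rfl | rfl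
  · rw [one_mul, one_mul]
  · rw [neg_one_mul, Real.sin_neg, neg_one_mul]

/-- distance from `V` to the points of `S(u)` near `z` -/
theorem dist_rot {z V : ℂ} (hV : dist V z = 1) {κ τ' τ : ℝ} (hκ : κ = 1 ∨ κ = -1) :
    dist (z + (-(V - z) * cis (κ * τ')) * (1 - cis (κ * τ))) V ^ 2 =
      1 + 8 * Real.sin (τ / 2) * Real.sin ((τ' + τ) / 2) * Real.cos (τ' / 2) := by
  obtain ⟨v, rfl⟩ : ∃ v, V = z + v := ⟨V - z, by ring⟩
  have hv : ‖v‖ = 1 := by
    rw [dist_eq_norm] at hV
    simpa using hV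
  rw [add_sub_cancel_left, dist_eq_norm,
    show z + (-v * cis (κ * τ')) * (1 - cis (κ * τ)) - (z + v) =
      -v * (1 + cis (κ * τ') - cis (κ * τ') * cis (κ * τ)) by ring, norm_mul, norm_neg, hv, one_mul,
    ← Six.cis_add, ← mul_add, Complex.sq_norm, Complex.normSq_apply]
  have e : ∀ x : ℝ, (cis (κ * x)).re = Real.cos x ∧ (cis (κ * x)).im = κ * Real.sin x := by
    intro x
    unfold cis
    rw [Complex.exp_ofReal_mul_I_re, Complex.exp_ofReal_mul_I_im, cos_k hκ, sin_k hκ]
    exact ⟨rfl, rfl⟩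
  simp only [Complex.sub_re, Complex.sub_im, Complex.add_re, Complex.add_im, Complex.one_re,
    Complex.one_im, (e _).1, (e _).2]
  have hκ2 : κ ^ 2 = 1 := by rcases hκ with rfl | rfl <;> norm_num
  -- half angles
  obtain ⟨p, hp⟩ : ∃ p, p = τ / 2 := ⟨_, rfl⟩
  obtain ⟨q, hq⟩ : ∃ q, q = τ' / 2 := ⟨_, rfl⟩
  have e1 : τ = 2 * p := by rw [hp]; ring
  have e2 : τ' = 2 * q := by rw [hq]; ring
  have k1 : Real.cos (τ' + τ) + Real.cos τ = 2 * Real.cos (q + 2 * p) * Real.cos q := by
    rw [Real.cos_add_cos, e1, e2]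
    congr 3 <;> ring
  have k2 : Real.cos q - Real.cos (q + 2 * p) = 2 * Real.sin (q + p) * Real.sin p := by
    rw [Real.cos_sub_cos, show (q - (q + 2 * p)) / 2 = -p by ring, Real.sin_neg,
      show (q + (q + 2 * p)) / 2 = q + p by ring]
    ring
  have k3 : Real.cos (τ' + τ) * Real.cos τ' + Real.sin (τ' + τ) * Real.sin τ' = Real.cos τ := by
    rw [← Real.cos_sub]
    congr 1; ring
  have k4 : Real.cos τ' = 2 * Real.cos q ^ 2 - 1 := by rw [e2, Real.cos_two_mul]
  have s1 := Real.sin_sq_add_cos_sq τ'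
  have s2 := Real.sin_sq_add_cos_sq (τ' + τ)
  rw [← hp, ← hq, show (τ' + τ) / 2 = q + p by rw [hp, hq]; ring]
  linear_combination (Real.sin τ' - Real.sin (τ' + τ)) ^ 2 * hκ2 + s1 + s2 - 2 * k3 + 2 * k4 - 2 * k1
    + 4 * Real.cos q * k2

theorem tend_rot (z : ℂ) {w : ℂ} (hw : w ≠ 0) {κ : ℝ} (hκ : κ = 1 ∨ κ = -1) :
    Tendsto (fun τ : ℝ => z + w * (1 - cis (κ * τ))) (𝓝[>] 0) (𝓝[≠] z) := by
  refine tendsto_nhdsWithin_iff.2 ⟨?_, ?_⟩
  · have hcont : Continuous fun τ : ℝ => z + w * (1 - cis (κ * τ)) := by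
      unfold cis
      fun_prop
    have h1 := hcont.tendsto 0
    simp only [mul_zero] at h1
    have h2 : cis 0 = 1 := by unfold cis; simp
    rw [h2, sub_self, mul_zero, add_zero] at h1
    exact h1.mono_left nhdsWithin_le_nhds
  · filter_upwards [Ioo_mem_nhdsGT Real.pi_pos] with τ hτ
    intro h1
    have h2 : w * (1 - cis (κ * τ)) = 0 := by
      have h3 : z + w * (1 - cis (κ * τ)) = z := h1
      linear_combination h3
    rcases mul_eq_zero.1 h2 with h3 | h3
    · exact hw h3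
    · have h4 : (cis (κ * τ)).im = 0 := by
        have : cis (κ * τ) = 1 := by linear_combination -h3
        rw [this]; simp
      have h5 : (cis (κ * τ)).im = κ * Real.sin τ := by
        unfold cis
        rw [Complex.exp_ofReal_mul_I_im, sin_k hκ]
      have h6 := Real.sin_pos_of_pos_of_lt_pi hτ.1 hτ.2
      rw [h5] at h4
      rcases hκ with rfl | rfl
      · linarith
      · linarith

/-- **the sign lemma** -/
theorem sign_main (h : Irr U T) {z V u : ℂ} {a a' b b' : Fin 6} {da db : ℂ} {σ κ τ' : ℝ}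
    {s : Set (Fin 6)} (R : Rays T z a a' b b' da db σ) (hT : T z = {a, a', b, b'})
    (hV : dist V z = 1) (hκ : κ = 1 ∨ κ = -1)
    (hK : ∃ᶠ τ : ℝ in 𝓝[>] 0, b ∈ T (z + (V - z) * (1 - cis (κ * τ))))
    (hda : 0 < dtp da (V - z)) (hdb : dtp db (V - z) ≤ 0)
    (ha : ∀ᶠ x in 𝓝 z, a ∈ T x → dist x V ≤ 1) (hb : ∀ᶠ x in 𝓝 z, b ∈ T x → 1 ≤ dist x V)
    (ha' : a' ∈ s ∨ ∀ᶠ x in 𝓝 z, a' ∈ T x → 1 ≤ dist x V)
    (hb' : b' ∈ s ∨ ∀ᶠ x in 𝓝 z, b' ∈ T x → dist x V ≤ 1)
    (h0 : 0 ≤ τ') (h1 : τ' < Real.pi) (hu : u = z - (V - z) * cis (κ * τ'))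
    (hs : ∀ x, dist x u = 1 → ¬ T x ⊆ s) :
    (a' ∈ s → 0 ≤ dtp da (u - z)) ∧ (b' ∈ s → 0 ≤ dtp db (u - z)) := by
  have hpi := Real.pi_pos
  have hvn : ‖V - z‖ = 1 := by rw [← dist_eq_norm]; exact hV
  have hv0 : V - z ≠ 0 := by
    intro h2
    rw [h2, norm_zero] at hvn
    exact zero_ne_one hvn
  obtain ⟨w, hw⟩ : ∃ w, w = -(V - z) * cis (κ * τ') := ⟨_, rfl⟩
  have huz : u - z = w := by rw [hu, hw]; ring
  have hwn : ‖w‖ = 1 := by rw [hw, norm_mul, norm_neg, hvn, norm_cis, one_mul]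
  have hw0 : w ≠ 0 := by
    intro h2
    rw [h2, norm_zero] at hwn
    exact zero_ne_one hwn
  -- orientation
  have hσκ : σ * κ = -1 := by
    have h2 : σ * κ = 1 ∨ σ * κ = -1 := by
      rcases R.sg with h3 | h3 <;> rcases hκ with h4 | h4 <;> rw [h3, h4] <;> norm_num
    rcases h2 with h2 | h2
    swap
    · exact h2
    exfalso
    have h3 : ∃ᶠ τ : ℝ in 𝓝[>] 0, (-(σ * crp da (V - z))) * (1 - Real.cos τ) -
        (-dtp da (V - z)) * Real.sin τ ≤ 0 := by
      refine (hK.and_eventually ((tend_rot z hv0 hκ).eventually R.sb)).mono ?_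
      rintro τ ⟨h4, h5⟩
      have h6 := h5 h4
      rw [add_sub_cancel_left, crp_rot, cos_k hκ, sin_k hκ] at h6
      have h7 : σ * (crp da (V - z) * (1 - Real.cos τ) - dtp da (V - z) * (κ * Real.sin τ)) =
          σ * crp da (V - z) * (1 - Real.cos τ) - (σ * κ) * (dtp da (V - z) * Real.sin τ) := by ring
      rw [h7, h2] at h6
      linarith
    have h4 := sign_lim h3
    linarith
  have hmem : ∀ x, T x ⊆ T z → ¬ T x ⊆ s → a ∉ T x ∨ b ∉ T x →
      (a' ∈ T x → a' ∈ s) → (b' ∈ T x → b' ∈ s) → (a ∉ T x → b ∈ T x) ∧ (b ∉ T x → a ∈ T x) := by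
    intro x g1 g2 _ g4 g5
    have g6 : a ∈ T x ∨ b ∈ T x := by
      by_contra hcon
      rw [not_or] at hcon
      apply g2
      intro i hi
      have g7 := g1 hi
      rw [hT] at g7
      simp only [mem_insert_iff, mem_singleton_iff] at g7
      rcases g7 with rfl | rfl | rfl | rfl
      · exact absurd hi hcon.1
      · exact g4 hi
      · exact absurd hi hcon.2
      · exact g5 hi
    exact ⟨fun g7 => g6.resolve_left g7, fun g7 => g6.resolve_right g7⟩
  constructor
  · -- `b` on the outer part of `S(u)`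
    intro hs1
    have hev : ∀ᶠ τ : ℝ in 𝓝[>] 0, b ∈ T (z + w * (1 - cis (κ * τ))) ∧
        (b ∈ T (z + w * (1 - cis (κ * τ))) → 0 < σ * crp da (z + w * (1 - cis (κ * τ)) - z)) := by
      have ht := tend_rot z hw0 hκ
      have ht' := ht.mono_right nhdsWithin_le_nhds
      have hb2 : ∀ᶠ x in 𝓝 z, b' ∈ T x → b' ∈ s ∨ dist x V ≤ 1 := by
        rcases hb' with g1 | g1
        · exact Eventually.of_forall fun x _ => Or.inl g1
        · filter_upwards [g1] with x g2 g3
          exact Or.inr (g2 g3)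
      filter_upwards [ht.eventually R.sb, ht'.eventually ha, ht'.eventually hb2,
        ht'.eventually (h.nhd z), Ioo_mem_nhdsGT (show (0 : ℝ) < Real.pi - τ' by linarith)]
        with τ g1 g2 g3 g4 g5
      refine ⟨?_, g1⟩
      have g6 : 1 < dist (z + w * (1 - cis (κ * τ))) V ^ 2 := by
        rw [hw, dist_rot hV hκ]
        have k1 := Real.sin_pos_of_pos_of_lt_pi (x := τ / 2) (by linarith [g5.1]) (by
          linarith [g5.2])
        have k2 := Real.sin_pos_of_pos_of_lt_pi (x := (τ' + τ) / 2) (by linarith [g5.1]) (by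
          linarith [g5.2])
        have k3 := Real.cos_pos_of_mem_Ioo (x := τ' / 2) ⟨by linarith, by linarith⟩
        have := mul_pos (mul_pos (mul_pos (by norm_num : (0 : ℝ) < 8) k1) k2) k3
        linarith
      have g7 : ¬ dist (z + w * (1 - cis (κ * τ))) V ≤ 1 := by
        intro g8
        have := pow_le_one₀ dist_nonneg g8 (n := 2)
        linarith
      have g8 : ¬ T (z + w * (1 - cis (κ * τ))) ⊆ s := by
        apply hs
        rw [dist_eq_norm, show z + w * (1 - cis (κ * τ)) - u = -w * cis (κ * τ) by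
          linear_combination -huz, norm_mul, norm_neg, hwn, norm_cis, one_mul]
      exact (hmem _ g4 g8 (Or.inl fun g9 => g7 (g2 g9)) (fun _ => hs1)
        (fun g9 => (g3 g9).resolve_right g7)).1 fun g9 => g7 (g2 g9)
    rw [huz]
    have h3 : ∃ᶠ τ : ℝ in 𝓝[>] 0, (-(σ * crp da w)) * (1 - Real.cos τ) -
        dtp da w * Real.sin τ ≤ 0 := by
      refine (hev.mono ?_).frequently
      rintro τ ⟨g1, g2⟩
      have g3 := g2 g1
      rw [add_sub_cancel_left, crp_rot, cos_k hκ, sin_k hκ] at g3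
      have g4 : σ * (crp da w * (1 - Real.cos τ) - dtp da w * (κ * Real.sin τ)) =
          σ * crp da w * (1 - Real.cos τ) - (σ * κ) * (dtp da w * Real.sin τ) := by ring
      rw [g4, hσκ] at g3
      linarith
    exact sign_lim h3
  · intro hs1
    rcases eq_or_lt_of_le h0 with h2 | h2
    · have h3 : w = -(V - z) := by
        rw [hw, ← h2, mul_zero]
        have : cis 0 = 1 := by unfold cis; simp
        rw [this, mul_one]
      rw [huz, h3]
      have h4 : dtp db (-(V - z)) = -dtp db (V - z) := by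
        unfold dtp
        simp only [Complex.neg_re, Complex.neg_im]
        ring
      rw [h4]
      linarith
    -- `a` on the inner part of `S(u)`
    have hκ' : -κ = 1 ∨ -κ = -1 := by
      rcases hκ with h3 | h3 <;> rw [h3] <;> norm_num
    have hev : ∀ᶠ τ : ℝ in 𝓝[>] 0, a ∈ T (z + w * (1 - cis (-κ * τ))) ∧
        (a ∈ T (z + w * (1 - cis (-κ * τ))) → σ * crp db (z + w * (1 - cis (-κ * τ)) - z) < 0) := by
      have ht := tend_rot z hw0 hκ'
      have ht' := ht.mono_right nhdsWithin_le_nhds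
      have ha2 : ∀ᶠ x in 𝓝 z, a' ∈ T x → a' ∈ s ∨ 1 ≤ dist x V := by
        rcases ha' with g1 | g1
        · exact Eventually.of_forall fun x _ => Or.inl g1
        · filter_upwards [g1] with x g2 g3
          exact Or.inr (g2 g3)
      filter_upwards [ht.eventually R.sa, ht'.eventually hb, ht'.eventually ha2,
        ht'.eventually (h.nhd z), Ioo_mem_nhdsGT h2]
        with τ g1 g2 g3 g4 g5
      refine ⟨?_, g1⟩
      have g6 : dist (z + w * (1 - cis (-κ * τ))) V ^ 2 < 1 := by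
        have e1 : -κ * τ = κ * (-τ) := by ring
        rw [hw, e1, dist_rot hV hκ]
        have k1 := Real.sin_pos_of_pos_of_lt_pi (x := τ / 2) (by linarith [g5.1]) (by
          linarith [g5.2])
        have k2 := Real.sin_pos_of_pos_of_lt_pi (x := (τ' + -τ) / 2) (by linarith [g5.2]) (by
          linarith [g5.1])
        have k3 := Real.cos_pos_of_mem_Ioo (x := τ' / 2) ⟨by linarith, by linarith⟩
        have k4 : Real.sin (-τ / 2) = -Real.sin (τ / 2) := by
          rw [neg_div, Real.sin_neg]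
        rw [k4]
        have := mul_pos (mul_pos (mul_pos (by norm_num : (0 : ℝ) < 8) k1) k2) k3
        linarith
      have g7 : ¬ 1 ≤ dist (z + w * (1 - cis (-κ * τ))) V := by
        intro g8
        have := one_le_pow₀ g8 (n := 2)
        linarith
      have g8 : ¬ T (z + w * (1 - cis (-κ * τ))) ⊆ s := by
        apply hs
        rw [dist_eq_norm, show z + w * (1 - cis (-κ * τ)) - u = -w * cis (-κ * τ) by
          linear_combination -huz, norm_mul, norm_neg, hwn, norm_cis, one_mul]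
      exact (hmem _ g4 g8 (Or.inr fun g9 => g7 (g2 g9)) (fun g9 => (g3 g9).resolve_right g7)
        (fun _ => hs1)).2 fun g9 => g7 (g2 g9)
    rw [huz]
    have h3 : ∃ᶠ τ : ℝ in 𝓝[>] 0, (σ * crp db w) * (1 - Real.cos τ) -
        dtp db w * Real.sin τ ≤ 0 := by
      refine (hev.mono ?_).frequently
      rintro τ ⟨g1, g2⟩
      have g3 := g2 g1
      rw [add_sub_cancel_left, crp_rot, cos_k hκ', sin_k hκ'] at g3
      have g4 : σ * (crp db w * (1 - Real.cos τ) - dtp db w * (-κ * Real.sin τ)) =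
          σ * crp db w * (1 - Real.cos τ) + (σ * κ) * (dtp db w * Real.sin τ) := by ring
      rw [g4, hσκ] at g3
      linarith
    exact sign_lim h3

end Vale.Agent.P032.H383
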