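import Vale.Agent.P032.H383.Geo
import Vale.Agent.P032.H780.Special

/-!
# P032: the side rule for simultaneous changes

`x = pt z s` on `S(z)`, two neighbours `pt ch th`, `pt cn tn` of `x` which move with the same angle
(`Nb`: the next or the previous point of `S(z)`, or the point in the same direction on a circle whose
centre is at distance one from `z`; `d` is the direction of the neighbour from `x`, relative to the
direction of `x` from `z`, in units of 60 degrees, modulo 3).  If `T x ⊆ {p, q, g}`, the colour `p` is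
seen on `S(ch)` just after `pt ch th` and `q` is seen on `S(cn)` just before `pt cn tn`, then points of
`U g` accumulate at `x` inside `S(z)` if `dn < dh`, outside if `dh < dn` (`src`).
-/

open Set Filter Topology Metric

noncomputable section

namespace Vale.Agent.P032.H383

open Vale.Agent.P032.Six Vale.Agent.P032.S5.H767 Vale.Agent.P032.S5.H122 Vale.Agent.P032.Sweep
  Vale.Agent.P032.H780

variable {U : Fin 6 → Set ℂ} {T : ℂ → Set (Fin 6)}

theorem hasDerivAt_cis (x : ℝ) : HasDerivAt cis (Complex.I * cis x) x := by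
  have h1 : HasDerivAt (fun t : ℝ => (t : ℂ) * Complex.I) Complex.I x := by
    simpa using (Complex.ofRealCLM.hasDerivAt (x := x)).mul_const Complex.I
  have h2 := h1.cexp
  have e : (fun t : ℝ => Complex.exp ((t : ℂ) * Complex.I)) = cis := by
    funext t; rfl
  rw [e] at h2
  refine h2.congr_deriv ?_
  show Complex.exp ((x : ℂ) * Complex.I) * Complex.I = Complex.I * cis x
  rw [mul_comm]; rfl

theorem hasDerivAt_pt (c : ℂ) (t : ℝ) : HasDerivAt (fun s : ℝ => pt c (t + s))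
    ((((Real.pi / 3 : ℝ) : ℂ)) * (Complex.I * (pt c t - c))) 0 := by
  have h1 : HasDerivAt (fun s : ℝ => (t + s) * (Real.pi / 3)) (Real.pi / 3) 0 := by
    simpa using ((hasDerivAt_id (0 : ℝ)).const_add t).mul_const (Real.pi / 3)
  have h2 : HasDerivAt cis (Complex.I * cis ((t + 0) * (Real.pi / 3))) ((t + 0) * (Real.pi / 3)) :=
    hasDerivAt_cis _
  have h3 := (h2.scomp (0 : ℝ) h1).const_add c
  have e : (fun s : ℝ => pt c (t + s)) = fun s : ℝ => c + (cis ∘ fun s : ℝ => (t + s) * (Real.pi / 3)) s := by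
    funext s; rfl
  rw [e]
  refine h3.congr_deriv ?_
  rw [add_zero, Complex.real_smul]
  unfold pt
  ring

/-- **the side rule**, general form -/
theorem src_pt (h : Irr U T) {z x ch cn : ℂ} {sh sn α β : ℝ} {p q g : Fin 6}
    (hxz : dist x z = 1) (hhx : dist x (pt ch sh) = 1) (hnx : dist x (pt cn sn) = 1)
    (hne : pt cn sn ≠ pt ch sh) (hne2 : pt cn sn + pt ch sh ≠ 2 * x)
    (mh : dt (pt ch sh - x) (Complex.I * (pt ch sh - ch)) = dt (pt ch sh - x) (Complex.I * (x - z)))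
    (mn : dt (pt cn sn - x) (Complex.I * (pt cn sn - cn)) = dt (pt cn sn - x) (Complex.I * (x - z)))
    (dh : x ≠ ch) (dh2 : x + ch ≠ 2 * pt ch sh) (dn : x ≠ cn) (dn2 : x + cn ≠ 2 * pt cn sn)
    (hζ : z - x = α * (pt ch sh - x) + β * (pt cn sn - x)) (hT : T x ⊆ {p, q, g})
    (hp : ∃ᶠ w in 𝓝[>] sh, w ∈ Lc T ch ∧ p ∈ T (pt ch w))
    (hq : ∃ᶠ w in 𝓝[<] sn, w ∈ Lc T cn ∧ q ∈ T (pt cn w)) :
    (0 < α * dt (pt ch sh - x) (Complex.I * (x - z)) → ∃ᶠ y in 𝓝 x, y ∈ U g ∧ dist y z < 1) ∧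
      (α * dt (pt ch sh - x) (Complex.I * (x - z)) < 0 →
        ∃ᶠ y in 𝓝 x, y ∈ U g ∧ 1 < dist y z) := by
  have hpi : (0 : ℝ) < Real.pi / 3 := by positivity
  set m : ℂ := (((Real.pi / 3 : ℝ) : ℂ)) * (Complex.I * (x - z)) with hm
  have dtr : ∀ (r : ℝ) (a b : ℂ), dt a ((r : ℂ) * b) = r * dt a b := by
    intro r a b; unfold dt
    simp only [Complex.mul_re, Complex.mul_im, Complex.ofReal_re, Complex.ofReal_im]; ring
  have hm0 : dt (z - x) m = 0 := by
    rw [hm, dtr]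
    have : dt (z - x) (Complex.I * (x - z)) = 0 := by
      unfold dt
      simp only [Complex.mul_re, Complex.mul_im, Complex.I_re, Complex.I_im, Complex.sub_re,
        Complex.sub_im]
      ring
    rw [this, mul_zero]
  obtain ⟨F, hF, hid, hin, hout⟩ := geo (x := x) (z := z) (m := m) (α := α) (β := β)
    (hasDerivAt_pt cn sn) (hasDerivAt_pt ch sh) (by simp) (by simp)
    (by rw [← dist_eq_norm]; exact hnx) (by rw [← dist_eq_norm]; exact hhx) hne hne2
    (by rw [← dist_eq_norm]; exact hxz) hζ hm0 (by rw [hm, dtr, dtr, mn]) (by rw [hm, dtr, dtr, mh])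
  -- the point `F` is in `U g`
  have key : ∀ {R : ℂ → Prop}, (∀ᶠ s in 𝓝 (0 : ℝ × ℝ), s.1 < 0 → 0 < s.2 → R (F s)) →
      ∃ᶠ y in 𝓝 x, y ∈ U g ∧ R y := by
    intro R hR
    rw [frequently_iff]
    intro V hV
    have e1 : ∀ᶠ s in 𝓝 (0 : ℝ × ℝ), F s ∈ V := hF hV
    have e2 : ∀ᶠ s in 𝓝 (0 : ℝ × ℝ), T (F s) ⊆ T x := hF (h.nhd x)
    have e3 : ∀ᶠ s in 𝓝 (0 : ℝ × ℝ), F s ≠ ch := hF.eventually_ne dh
    have e4 : ∀ᶠ s in 𝓝 (0 : ℝ × ℝ), F s ≠ cn := hF.eventually_ne dn
    have c1 : Tendsto (fun s : ℝ × ℝ => pt ch (sh + s.2)) (𝓝 0) (𝓝 (pt ch sh)) := by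
      have hc : Continuous fun s : ℝ × ℝ => pt ch (sh + s.2) :=
        (continuous_pt ch).comp (by fun_prop)
      simpa using hc.tendsto (0 : ℝ × ℝ)
    have c2 : Tendsto (fun s : ℝ × ℝ => pt cn (sn + s.1)) (𝓝 0) (𝓝 (pt cn sn)) := by
      have hc : Continuous fun s : ℝ × ℝ => pt cn (sn + s.1) :=
        (continuous_pt cn).comp (by fun_prop)
      simpa using hc.tendsto (0 : ℝ × ℝ)
    have e5 : ∀ᶠ s in 𝓝 (0 : ℝ × ℝ), F s + ch ≠ 2 * pt ch (sh + s.2) := by
      have h1 : Tendsto (fun s => F s + ch - 2 * pt ch (sh + s.2)) (𝓝 0)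
          (𝓝 (x + ch - 2 * pt ch sh)) := (hF.add_const ch).sub (c1.const_mul 2)
      filter_upwards [h1.eventually_ne (sub_ne_zero.2 dh2)] with s hs
      exact sub_ne_zero.1 hs
    have e6 : ∀ᶠ s in 𝓝 (0 : ℝ × ℝ), F s + cn ≠ 2 * pt cn (sn + s.1) := by
      have h1 : Tendsto (fun s => F s + cn - 2 * pt cn (sn + s.1)) (𝓝 0)
          (𝓝 (x + cn - 2 * pt cn sn)) := (hF.add_const cn).sub (c2.const_mul 2)
      filter_upwards [h1.eventually_ne (sub_ne_zero.2 dn2)] with s hs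
      exact sub_ne_zero.1 hs
    obtain ⟨δ, hδ, hb⟩ := Metric.eventually_nhds_iff.1
      (hid.and (hR.and (e1.and (e2.and (e3.and (e4.and (e5.and e6)))))))
    -- the two times
    obtain ⟨w, ⟨hwL, hwp⟩, hw⟩ := (hp.and_eventually
      (Ioo_mem_nhdsGT (show sh < sh + δ by linarith))).exists
    obtain ⟨w', ⟨hwL', hwq⟩, hw'⟩ := (hq.and_eventually
      (Ioo_mem_nhdsLT (show sn - δ < sn by linarith))).exists
    have hball : dist ((w' - sn, w - sh) : ℝ × ℝ) 0 < δ := by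
      rw [Prod.dist_eq]
      refine max_lt ?_ ?_
      · show dist (w' - sn) 0 < δ
        rw [Real.dist_eq, sub_zero, abs_lt]
        exact ⟨by linarith [hw'.1], by linarith [hw'.2]⟩
      · show dist (w - sh) 0 < δ
        rw [Real.dist_eq, sub_zero, abs_lt]
        exact ⟨by linarith [hw.1], by linarith [hw.2]⟩
    obtain ⟨⟨k1, k2⟩, k3, k4, k5, k6, k7, k8, k9⟩ := hb hball
    simp only [add_sub_cancel] at k1 k2 k8 k9
    set y := F (w' - sn, w - sh) with hy
    refine ⟨y, k4, h.mem_of_single fun i hi => ?_, k3 ?_ ?_⟩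
    · rcases hT (k5 hi) with rfl | rfl | rfl
      · exfalso
        rcases h.third (dist_pt ch w) (by
          filter_upwards [Lc_circle hwL] with q' hq'
          rw [hq']; exact hwp) (v := y) (by rw [dist_comm, dist_eq_norm]; exact k2) hi with h1 | h1
        · exact k6 h1
        · exact k8 h1
      · exfalso
        rcases h.third (dist_pt cn w') (by
          filter_upwards [Lc_circle hwL'] with q' hq'
          rw [hq']; exact hwq) (v := y) (by rw [dist_comm, dist_eq_norm]; exact k1) hi with h1 | h1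
        · exact k7 h1
        · exact k9 h1
      · rfl
    · show w' - sn < 0
      linarith [hw'.2]
    · show 0 < w - sh
      linarith [hw.1]
  have hκ : α * dt (pt ch sh - x) m = (Real.pi / 3) *
      (α * dt (pt ch sh - x) (Complex.I * (x - z))) := by rw [hm, dtr]; ring
  refine ⟨fun hpos => ?_, fun hneg => ?_⟩
  · refine key (R := fun y => dist y z < 1) ?_
    filter_upwards [hin (by rw [hκ]; exact mul_pos hpi hpos)] with s hs h1 h2
    rw [dist_eq_norm]; exact hs h1 h2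
  · refine key (R := fun y => 1 < dist y z) ?_
    filter_upwards [hout (by rw [hκ]; exact mul_neg_of_pos_of_neg hpi hneg)] with s hs h1 h2
    rw [dist_eq_norm]; exact hs h1 h2

/-! ### Neighbours which move with the same angle -/

/-- `pt c t` is a neighbour of `pt z s` with direction parameter `d` (units of 60 degrees, modulo 3,
relative to the direction of `pt z s` from `z`) -/
def Nb (z : ℂ) (s : ℝ) (c : ℂ) (t d : ℝ) : Prop :=
  (c = z ∧ t = s + 1 ∧ d = 2) ∨ (c = z ∧ t = s - 1 ∧ d = 1) ∨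
    (t = s ∧ 0 < d ∧ d < 3 ∧ (c = z + cis ((s + d) * (Real.pi / 3)) ∨
      c = z - cis ((s + d) * (Real.pi / 3))))

theorem cis_ne_of_sin {x y : ℝ} (h : Real.sin (x - y) ≠ 0) : cis x ≠ cis y ∧ cis x ≠ -cis y := by
  have hs := Real.sin_sub x y
  constructor
  · intro h0
    have h1 := congrArg Complex.re h0
    have h2 := congrArg Complex.im h0
    simp only [cis_re, cis_im] at h1 h2
    apply h
    rw [hs, h1, h2]; ring
  · intro h0
    have h1 := congrArg Complex.re h0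
    have h2 := congrArg Complex.im h0
    simp only [cis_re, cis_im, Complex.neg_re, Complex.neg_im] at h1 h2
    apply h
    rw [hs, h1, h2]; ring

theorem pt_next (z : ℂ) (s : ℝ) : pt z (s + 1) - pt z s = cis ((s + 2) * (Real.pi / 3)) := by
  have e1 : (s + 1) * (Real.pi / 3) = s * (Real.pi / 3) + Real.pi / 3 := by ring
  have e2 : (s + 2) * (Real.pi / 3) = s * (Real.pi / 3) + (Real.pi - Real.pi / 3) := by ring
  unfold pt
  apply Complex.ext
  · simp only [Complex.sub_re, Complex.add_re, cis_re]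
    rw [e1, e2, Real.cos_add, Real.cos_add, Real.cos_pi_sub, Real.sin_pi_sub,
      Real.cos_pi_div_three, Real.sin_pi_div_three]
    ring
  · simp only [Complex.sub_im, Complex.add_im, cis_im]
    rw [e1, e2, Real.sin_add, Real.sin_add, Real.cos_pi_sub, Real.sin_pi_sub,
      Real.cos_pi_div_three, Real.sin_pi_div_three]
    ring

theorem pt_prev (z : ℂ) (s : ℝ) : pt z (s - 1) - pt z s = -cis ((s + 1) * (Real.pi / 3)) := by
  have h1 := pt_next z (s - 1)
  rw [sub_add_cancel, show s - 1 + 2 = s + 1 by ring] at h1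
  linear_combination -h1

theorem sin_dir {d : ℝ} (h0 : 0 < d) (h3 : d < 3) : 0 < Real.sin (d * (Real.pi / 3)) := by
  have hpi := Real.pi_pos
  exact Real.sin_pos_of_pos_of_lt_pi (by positivity) (by nlinarith)

namespace Nb

variable {z c : ℂ} {s t d : ℝ}

theorem dir (H : Nb z s c t d) : 0 < d ∧ d < 3 ∧ ∃ σ : ℝ, σ ^ 2 = 1 ∧
    pt c t - pt z s = (σ : ℂ) * cis ((s + d) * (Real.pi / 3)) := by
  rcases H with ⟨rfl, rfl, rfl⟩ | ⟨rfl, rfl, rfl⟩ | ⟨rfl, h1, h2, h3⟩
  · exact ⟨by norm_num, by norm_num, 1, by norm_num, by rw [pt_next]; simp⟩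
  · exact ⟨by norm_num, by norm_num, -1, by norm_num, by rw [pt_prev]; simp⟩
  · refine ⟨h1, h2, ?_⟩
    rcases h3 with rfl | rfl
    · refine ⟨1, by norm_num, ?_⟩
      unfold pt; push_cast; ring
    · refine ⟨-1, by norm_num, ?_⟩
      unfold pt; push_cast; ring

theorem dist_eq (H : Nb z s c t d) : dist (pt z s) (pt c t) = 1 := by
  obtain ⟨-, -, σ, hσ, h1⟩ := H.dir
  rw [dist_comm, dist_eq_norm, h1, norm_mul, norm_cis, mul_one, Complex.norm_real,
    Real.norm_eq_abs]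
  have := sq_abs σ
  rw [hσ] at this
  have h2 := abs_nonneg σ
  nlinarith

theorem move (H : Nb z s c t d) : dt (pt c t - pt z s) (Complex.I * (pt c t - c)) =
    dt (pt c t - pt z s) (Complex.I * (pt z s - z)) := by
  rcases H with ⟨rfl, -, -⟩ | ⟨rfl, -, -⟩ | ⟨rfl, -, -, -⟩
  · unfold dt
    simp only [Complex.mul_re, Complex.mul_im, Complex.I_re, Complex.I_im, Complex.sub_re,
      Complex.sub_im]
    ring
  · unfold dt
    simp only [Complex.mul_re, Complex.mul_im, Complex.I_re, Complex.I_im, Complex.sub_re,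
      Complex.sub_im]
    ring
  · have e : pt c t - c = pt z t - z := by unfold pt; ring
    rw [e]

theorem off (H : Nb z s c t d) : pt z s ≠ c ∧ pt z s + c ≠ 2 * pt c t := by
  rcases H with ⟨rfl, rfl, -⟩ | ⟨rfl, rfl, -⟩ | ⟨rfl, h1, h2, h3⟩
  · refine ⟨?_, ?_⟩
    · exact (tri (dist_pt c s) (dist_pt c s)).1.symm
    · have := (tri (dist_pt c (s + 1)) (dist_pt c s)).2
      rwa [add_comm] at this
  · refine ⟨?_, ?_⟩
    · exact (tri (dist_pt c s) (dist_pt c s)).1.symm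
    · have := (tri (dist_pt c (s - 1)) (dist_pt c s)).2
      rwa [add_comm] at this
  · have hs := sin_dir h1 h2
    obtain ⟨k1, k2⟩ := cis_ne_of_sin (x := (t + d) * (Real.pi / 3)) (y := t * (Real.pi / 3)) (by
      rw [show (t + d) * (Real.pi / 3) - t * (Real.pi / 3) = d * (Real.pi / 3) by ring]
      exact hs.ne')
    rcases h3 with rfl | rfl
    · refine ⟨fun h0 => k1 ?_, fun h0 => k2 ?_⟩
      · unfold pt at h0; linear_combination -h0
      · unfold pt at h0; linear_combination -h0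
    · refine ⟨fun h0 => k2 ?_, fun h0 => k1 ?_⟩
      · unfold pt at h0; linear_combination h0
      · unfold pt at h0; linear_combination h0

end Nb

/-- **THE SIDE RULE.**  `p` is new at `pt ch th`, `q` is old at `pt cn tn`. -/
theorem src (h : Irr U T) {z ch cn : ℂ} {s th tn dh dn : ℝ} {p q g : Fin 6}
    (Hh : Nb z s ch th dh) (Hn : Nb z s cn tn dn) (hT : T (pt z s) ⊆ {p, q, g})
    (hp : ∃ᶠ w in 𝓝[>] th, w ∈ Lc T ch ∧ p ∈ T (pt ch w))
    (hq : ∃ᶠ w in 𝓝[<] tn, w ∈ Lc T cn ∧ q ∈ T (pt cn w)) :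
    (dn < dh → ∃ᶠ y in 𝓝 (pt z s), y ∈ U g ∧ dist y z < 1) ∧
      (dh < dn → ∃ᶠ y in 𝓝 (pt z s), y ∈ U g ∧ 1 < dist y z) := by
  have hpi := Real.pi_pos
  obtain ⟨a1, a2, σ, hσ, eh⟩ := Hh.dir
  obtain ⟨b1, b2, τ, hτ, en⟩ := Hn.dir
  by_cases hdd : dh = dn
  · exact ⟨fun h1 => absurd h1 (by rw [hdd]; exact lt_irrefl _),
      fun h1 => absurd h1 (by rw [hdd]; exact lt_irrefl _)⟩
  set A := dh * (Real.pi / 3) with hA
  set B := dn * (Real.pi / 3) with hB
  set θ := s * (Real.pi / 3) with hθ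
  have eA : (s + dh) * (Real.pi / 3) = θ + A := by rw [hA, hθ]; ring
  have eB : (s + dn) * (Real.pi / 3) = θ + B := by rw [hB, hθ]; ring
  rw [eA] at eh
  rw [eB] at en
  have sA : 0 < Real.sin A := sin_dir a1 a2
  have sB : 0 < Real.sin B := sin_dir b1 b2
  have hAB : A ≠ B := fun h0 => hdd (by
    have : (0 : ℝ) < Real.pi / 3 := by positivity
    exact mul_right_cancel₀ this.ne' h0)
  have lA : A < Real.pi := by rw [hA]; nlinarith
  have lB : B < Real.pi := by rw [hB]; nlinarith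
  have pA : 0 < A := by rw [hA]; positivity
  have pB : 0 < B := by rw [hB]; positivity
  have sAB : Real.sin (A - B) ≠ 0 := by
    rcases lt_or_gt_of_ne hAB with h1 | h1
    · exact (Real.sin_neg_of_neg_of_neg_pi_lt (by linarith) (by linarith)).ne
    · exact (Real.sin_pos_of_pos_of_lt_pi (by linarith) (by linarith)).ne'
  have hx : pt z s - z = cis θ := by unfold pt; ring
  have pm : ∀ r : ℝ, r ^ 2 = 1 → r = 1 ∨ r = -1 := fun r hr => by
    rcases mul_eq_zero.1 (show (r - 1) * (r + 1) = 0 by linear_combination hr) with h1 | h1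
    · left; linarith
    · right; linarith
  obtain ⟨k1, k2⟩ := cis_ne_of_sin (x := θ + A) (y := θ + B) (by
    rw [show θ + A - (θ + B) = A - B by ring]; exact sAB)
  have hne : pt cn tn ≠ pt ch th := by
    intro h0
    have h1 : (σ : ℂ) * cis (θ + A) = (τ : ℂ) * cis (θ + B) := by rw [← eh, ← en, h0]
    rcases pm σ hσ with h2 | h2 <;> rcases pm τ hτ with h3 | h3
    · rw [h2, h3] at h1; simp only [Complex.ofReal_one, one_mul] at h1; exact k1 h1
    · rw [h2, h3] at h1; push_cast at h1; exact k2 (by linear_combination h1)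
    · rw [h2, h3] at h1; push_cast at h1; exact k2 (by linear_combination -h1)
    · rw [h2, h3] at h1; push_cast at h1; exact k1 (by linear_combination -h1)
  have hne2 : pt cn tn + pt ch th ≠ 2 * pt z s := by
    intro h0
    have h1 : (σ : ℂ) * cis (θ + A) + (τ : ℂ) * cis (θ + B) = 0 := by
      rw [← eh, ← en]; linear_combination h0
    rcases pm σ hσ with h2 | h2 <;> rcases pm τ hτ with h3 | h3
    · rw [h2, h3] at h1; push_cast at h1; exact k2 (by linear_combination h1)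
    · rw [h2, h3] at h1; push_cast at h1; exact k1 (by linear_combination h1)
    · rw [h2, h3] at h1; push_cast at h1; exact k1 (by linear_combination -h1)
    · rw [h2, h3] at h1; push_cast at h1; exact k2 (by linear_combination -h1)
  have hσ1 : (σ : ℂ) * σ = 1 := by rw [← Complex.ofReal_mul, ← sq, hσ]; simp
  have hτ1 : (τ : ℂ) * τ = 1 := by rw [← Complex.ofReal_mul, ← sq, hτ]; simp
  have hζ : z - pt z s = ((σ * Real.sin B / Real.sin (A - B) : ℝ) : ℂ) * (pt ch th - pt z s) +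
      ((-(τ * Real.sin A / Real.sin (A - B)) : ℝ) : ℂ) * (pt cn tn - pt z s) := by
    rw [eh, en]
    have e0 : z - pt z s = -cis θ := by rw [← hx]; ring
    rw [e0]
    have sC : (Real.sin (A - B) : ℂ) ≠ 0 := by exact_mod_cast sAB
    have e1 : ((σ * Real.sin B / Real.sin (A - B) : ℝ) : ℂ) * ((σ : ℂ) * cis (θ + A)) =
        ((Real.sin B / Real.sin (A - B) : ℝ) : ℂ) * cis (θ + A) := by
      simp only [Complex.ofReal_mul, Complex.ofReal_div]
      linear_combination ((Real.sin B : ℂ) / (Real.sin (A - B) : ℂ) * cis (θ + A)) * hσ1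
    have e2 : ((-(τ * Real.sin A / Real.sin (A - B)) : ℝ) : ℂ) * ((τ : ℂ) * cis (θ + B)) =
        -((Real.sin A / Real.sin (A - B) : ℝ) : ℂ) * cis (θ + B) := by
      simp only [Complex.ofReal_mul, Complex.ofReal_div, Complex.ofReal_neg]
      linear_combination (-((Real.sin A : ℂ) / (Real.sin (A - B) : ℂ)) * cis (θ + B)) * hτ1
    rw [e1, e2]
    have hsub := Real.sin_sub A B
    apply Complex.ext
    · simp only [Complex.neg_re, Complex.add_re, Complex.mul_re, Complex.ofReal_re,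
        Complex.ofReal_im, Complex.neg_im, cis_re, cis_im]
      rw [Real.cos_add θ A, Real.cos_add θ B]
      field_simp
      rw [hsub]; ring
    · simp only [Complex.neg_im, Complex.add_im, Complex.mul_im, Complex.ofReal_re,
        Complex.ofReal_im, Complex.neg_re, cis_re, cis_im]
      rw [Real.sin_add θ A, Real.sin_add θ B]
      field_simp
      rw [hsub]; ring
  have hκ : σ * Real.sin B / Real.sin (A - B) *
      dt (pt ch th - pt z s) (Complex.I * (pt z s - z)) =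
      Real.sin A * Real.sin B / Real.sin (A - B) := by
    have e1 : dt (pt ch th - pt z s) (Complex.I * (pt z s - z)) = σ * Real.sin A := by
      rw [eh, hx]
      unfold dt
      simp only [Complex.mul_re, Complex.mul_im, Complex.ofReal_re, Complex.ofReal_im,
        Complex.I_re, Complex.I_im, cis_re, cis_im]
      have h1 := Real.sin_sub (θ + A) θ
      rw [add_sub_cancel_left] at h1
      rw [h1]; ring
    rw [e1]
    have e2 : σ * Real.sin B / Real.sin (A - B) * (σ * Real.sin A) =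
        σ ^ 2 * (Real.sin A * Real.sin B / Real.sin (A - B)) := by ring
    rw [e2, hσ, one_mul]
  obtain ⟨r1, r2⟩ := src_pt h (dist_pt z s) Hh.dist_eq Hn.dist_eq hne hne2 Hh.move Hn.move
    Hh.off.1 Hh.off.2 Hn.off.1 Hn.off.2 hζ hT hp hq
  rw [hκ] at r1 r2
  refine ⟨fun hlt => r1 ?_, fun hlt => r2 ?_⟩
  · have h1 : B < A := by
      rw [hA, hB]; exact mul_lt_mul_of_pos_right hlt (by positivity)
    exact div_pos (mul_pos sA sB) (Real.sin_pos_of_pos_of_lt_pi (by linarith) (by linarith))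
  · have h1 : A < B := by
      rw [hA, hB]; exact mul_lt_mul_of_pos_right hlt (by positivity)
    exact div_neg_of_pos_of_neg (mul_pos sA sB)
      (Real.sin_neg_of_neg_of_neg_pi_lt (by linarith) (by linarith))

/-! ### Column form -/

theorem seen_shiftR {c : ℂ} {t : ℝ} {i : Fin 6}
    (hs : ∃ᶠ w in 𝓝[>] t, w ∈ Lc T c ∧ i ∈ T (pt c w)) :
    ∃ᶠ w in 𝓝[>] (t + 6), w ∈ Lc T c ∧ i ∈ T (pt c w) := by
  have ht : Tendsto (fun w : ℝ => w + 6) (𝓝[>] t) (𝓝[>] (t + 6)) := by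
    refine tendsto_nhdsWithin_iff.2 ⟨?_, ?_⟩
    · have hc : Continuous fun w : ℝ => w + 6 := by fun_prop
      exact (hc.tendsto t).mono_left nhdsWithin_le_nhds
    · filter_upwards [self_mem_nhdsWithin] with w hw
      have hw : t < w := hw
      show t + 6 < w + 6
      linarith
  refine ht.frequently (hs.mono fun w hw => ?_)
  rw [pt_six]
  exact ⟨(Lc_per c w).2 hw.1, hw.2⟩

theorem seen_shiftL {c : ℂ} {t : ℝ} {i : Fin 6}
    (hs : ∃ᶠ w in 𝓝[<] t, w ∈ Lc T c ∧ i ∈ T (pt c w)) :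
    ∃ᶠ w in 𝓝[<] (t + 6), w ∈ Lc T c ∧ i ∈ T (pt c w) := by
  have ht : Tendsto (fun w : ℝ => w + 6) (𝓝[<] t) (𝓝[<] (t + 6)) := by
    refine tendsto_nhdsWithin_iff.2 ⟨?_, ?_⟩
    · have hc : Continuous fun w : ℝ => w + 6 := by fun_prop
      exact (hc.tendsto t).mono_left nhdsWithin_le_nhds
    · filter_upwards [self_mem_nhdsWithin] with w hw
      have hw : w < t := hw
      show w + 6 < t + 6
      linarith
  refine ht.frequently (hs.mono fun w hw => ?_)
  rw [pt_six]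
  exact ⟨(Lc_per c w).2 hw.1, hw.2⟩

theorem seen_unshiftR {c : ℂ} {t : ℝ} {i : Fin 6}
    (hs : ∃ᶠ w in 𝓝[>] (t + 6), w ∈ Lc T c ∧ i ∈ T (pt c w)) :
    ∃ᶠ w in 𝓝[>] t, w ∈ Lc T c ∧ i ∈ T (pt c w) := by
  have ht : Tendsto (fun w : ℝ => w - 6) (𝓝[>] (t + 6)) (𝓝[>] t) := by
    refine tendsto_nhdsWithin_iff.2 ⟨?_, ?_⟩
    · have hc : Continuous fun w : ℝ => w - 6 := by fun_prop
      have := (hc.tendsto (t + 6)).mono_left (nhdsWithin_le_nhds (s := Ioi (t + 6)))
      simpa using this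
    · filter_upwards [self_mem_nhdsWithin] with w hw
      have hw : t + 6 < w := hw
      show t < w - 6
      linarith
  refine ht.frequently (hs.mono fun w hw => ?_)
  rw [← pt_six c (w - 6), ← Lc_per, sub_add_cancel]
  exact hw

theorem seen_unshiftL {c : ℂ} {t : ℝ} {i : Fin 6}
    (hs : ∃ᶠ w in 𝓝[<] (t + 6), w ∈ Lc T c ∧ i ∈ T (pt c w)) :
    ∃ᶠ w in 𝓝[<] t, w ∈ Lc T c ∧ i ∈ T (pt c w) := by
  have ht : Tendsto (fun w : ℝ => w - 6) (𝓝[<] (t + 6)) (𝓝[<] t) := by
    refine tendsto_nhdsWithin_iff.2 ⟨?_, ?_⟩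
    · have hc : Continuous fun w : ℝ => w - 6 := by fun_prop
      have := (hc.tendsto (t + 6)).mono_left (nhdsWithin_le_nhds (s := Iio (t + 6)))
      simpa using this
    · filter_upwards [self_mem_nhdsWithin] with w hw
      have hw : w < t + 6 := hw
      show w - 6 < t
      linarith
  refine ht.frequently (hs.mono fun w hw => ?_)
  rw [← pt_six c (w - 6), ← Lc_per, sub_add_cancel]
  exact hw

variable {κ Λ : Type}

/-- the slot `s'` is a neighbour of the slot `s` at the time `u`, direction parameter `d` -/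
def SNb (z : κ → ℂ) (φ u : ℝ) (s s' : κ × Fin 6) (d : ℝ) : Prop :=
  (s'.1 = s.1 ∧ s'.2 = s.2 + 1 ∧ d = 2) ∨ (s'.1 = s.1 ∧ s.2 = s'.2 + 1 ∧ d = 1) ∨
    (s'.2 = s.2 ∧ 0 < d ∧ d < 3 ∧
      (z s'.1 = z s.1 + cis ((φ + u + (s.2.val : ℝ) + d) * (Real.pi / 3)) ∨
        z s'.1 = z s.1 - cis ((φ + u + (s.2.val : ℝ) + d) * (Real.pi / 3))))

/-- the angle of the neighbour, up to a full turn -/
theorem SNb.nb {z : κ → ℂ} {φ u : ℝ} {s s' : κ × Fin 6} {d : ℝ} (H : SNb z φ u s s' d) :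
    ∃ t : ℝ, Nb (z s.1) (φ + u + (s.2.val : ℝ)) (z s'.1) t d ∧
      (t = φ + u + (s'.2.val : ℝ) ∨ t = φ + u + (s'.2.val : ℝ) + 6 ∨
        t + 6 = φ + u + (s'.2.val : ℝ)) := by
  obtain ⟨c, j⟩ := s
  obtain ⟨c', j'⟩ := s'
  rcases H with ⟨h1, h2, h3⟩ | ⟨h1, h2, h3⟩ | ⟨h1, h2, h3, h4⟩
  · obtain rfl : c' = c := h1
    obtain rfl : j' = j + 1 := h2
    refine ⟨φ + u + (j.val : ℝ) + 1, Or.inl ⟨rfl, rfl, h3⟩, ?_⟩
    have key : ∀ j : Fin 6, (j + 1).val = j.val + 1 ∨ (j + 1).val + 6 = j.val + 1 := by decide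
    rcases key j with h5 | h5
    · left
      have : (((j + 1 : Fin 6).val : ℕ) : ℝ) = (j.val : ℝ) + 1 := by exact_mod_cast h5
      show _ = φ + u + (((j + 1 : Fin 6).val : ℕ) : ℝ)
      rw [this]; ring
    · right; left
      have : (((j + 1 : Fin 6).val : ℕ) : ℝ) + 6 = (j.val : ℝ) + 1 := by exact_mod_cast h5
      show _ = φ + u + (((j + 1 : Fin 6).val : ℕ) : ℝ) + 6
      linarith
  · obtain rfl : c' = c := h1
    obtain rfl : j = j' + 1 := h2
    refine ⟨φ + u + ((j' + 1 : Fin 6).val : ℝ) - 1, Or.inr (Or.inl ⟨rfl, rfl, h3⟩), ?_⟩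
    have key : ∀ j : Fin 6, (j + 1).val = j.val + 1 ∨ (j + 1).val + 6 = j.val + 1 := by decide
    rcases key j' with h5 | h5
    · left
      have : (((j' + 1 : Fin 6).val : ℕ) : ℝ) = (j'.val : ℝ) + 1 := by exact_mod_cast h5
      show φ + u + (((j' + 1 : Fin 6).val : ℕ) : ℝ) - 1 = φ + u + (j'.val : ℝ)
      rw [this]; ring
    · right; right
      have : (((j' + 1 : Fin 6).val : ℕ) : ℝ) + 6 = (j'.val : ℝ) + 1 := by exact_mod_cast h5
      show φ + u + (((j' + 1 : Fin 6).val : ℕ) : ℝ) - 1 + 6 = φ + u + (j'.val : ℝ)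
      linarith
  · obtain rfl : j' = j := h1
    exact ⟨φ + u + (j'.val : ℝ), Or.inr (Or.inr ⟨rfl, h2, h3, h4⟩), Or.inl rfl⟩

/-- **the side rule for limit columns**: `s` a slot with `T x ⊆ {p, q, g}`; `q` is a colour of the
letter before at the slot `n`, `p` a colour of the letter after at the slot `k` -/
theorem src_col (h : Irr U T) {z : κ → ℂ} {φ u : ℝ} {lt : κ → Set (Fin 6) → Λ}
    {W : κ → Λ → Set (Fin 6)}
    (sub : ∀ c w, w ∈ Lc T (z c) → W c (lt c (T (pt (z c) w))) ⊆ T (pt (z c) w))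
    {a b : κ × Fin 6 → Λ} (ha : a ∈ LC (Xl T z φ lt) u) (hb : b ∈ RC (Xl T z φ lt) u)
    {s k n : κ × Fin 6} {dk dn : ℝ} (Hk : SNb z φ u s k dk) (Hn : SNb z φ u s n dn)
    {p q g : Fin 6} (hT : T (pt (z s.1) (φ + u + (s.2.val : ℝ))) ⊆ {p, q, g})
    (hp : p ∈ W k.1 (b k)) (hq : q ∈ W n.1 (a n)) :
    (dn < dk → ∃ᶠ y in 𝓝 (pt (z s.1) (φ + u + (s.2.val : ℝ))), y ∈ U g ∧ dist y (z s.1) < 1) ∧
      (dk < dn → ∃ᶠ y in 𝓝 (pt (z s.1) (φ + u + (s.2.val : ℝ))),
        y ∈ U g ∧ 1 < dist y (z s.1)) := by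
  obtain ⟨t, ht, ht'⟩ := Hk.nb
  obtain ⟨r, hr, hr'⟩ := Hn.nb
  have hpk : ∃ᶠ w in 𝓝[>] (φ + u + (k.2.val : ℝ)), w ∈ Lc T (z k.1) ∧ p ∈ T (pt (z k.1) w) := by
    obtain ⟨P, hP, hS⟩ := RC_pal hb k
    refine hS.mono fun w hw => ⟨hw.1, ?_⟩
    have h1 := sub k.1 w hw.1
    rw [hw.2, hP] at h1
    rw [hw.2]; exact h1 hp
  have hqn : ∃ᶠ w in 𝓝[<] (φ + u + (n.2.val : ℝ)), w ∈ Lc T (z n.1) ∧ q ∈ T (pt (z n.1) w) := by
    obtain ⟨P, hP, hS⟩ := LC_pal ha n
    refine hS.mono fun w hw => ⟨hw.1, ?_⟩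
    have h1 := sub n.1 w hw.1
    rw [hw.2, hP] at h1
    rw [hw.2]; exact h1 hq
  refine src h ht hr hT ?_ ?_
  · rcases ht' with rfl | rfl | h6
    · exact hpk
    · exact seen_shiftR hpk
    · rw [← h6] at hpk; exact seen_unshiftR hpk
  · rcases hr' with rfl | rfl | h6
    · exact hqn
    · exact seen_shiftL hqn
    · rw [← h6] at hqn; exact seen_unshiftL hqn

/-! ### Two centres at distance one: the order of the three directions

The base angle is the direction of the other centre, the time is in the open interval `(0, 1)`. -/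

/-- kinds of neighbours: `0` next, `1` previous, `2` the same slot of the other circle -/
def Kd (z : κ → ℂ) (φ : ℝ) (s s' : κ × Fin 6) (m : Fin 3) : Prop :=
  match m with
  | 0 => s'.1 = s.1 ∧ s'.2 = s.2 + 1
  | 1 => s'.1 = s.1 ∧ s.2 = s'.2 + 1
  | 2 => s'.2 = s.2 ∧ (z s'.1 = z s.1 + cis (φ * (Real.pi / 3)) ∨
      z s'.1 = z s.1 - cis (φ * (Real.pi / 3)))

/-- the rank of the three kinds at the slot `j` -/
def rk (j : Fin 6) (m : Fin 3) : ℕ :=
  match m with
  | 0 => 3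
  | 1 => 1
  | 2 => match j with
    | 0 => 4
    | 1 => 2
    | 2 => 0
    | 3 => 4
    | 4 => 2
    | 5 => 0

/-- the direction parameter -/
def dp (u : ℝ) (j : Fin 6) (m : Fin 3) : ℝ :=
  match m with
  | 0 => 2
  | 1 => 1
  | 2 => match j with
    | 0 => 3 - u
    | 1 => 2 - u
    | 2 => 1 - u
    | 3 => 3 - u
    | 4 => 2 - u
    | 5 => 1 - u

theorem dp_lt {u : ℝ} (hu : u ∈ Ioo (0 : ℝ) 1) {j : Fin 6} {m m' : Fin 3}
    (h : rk j m < rk j m') : dp u j m < dp u j m' := by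
  obtain ⟨h1, h2⟩ := hu
  fin_cases j <;> fin_cases m <;> fin_cases m' <;> simp [rk] at h <;> simp [dp] <;> linarith

theorem cis_three_add (x : ℝ) : cis ((x + 3) * (Real.pi / 3)) = -cis (x * (Real.pi / 3)) := by
  have e : (x + 3) * (Real.pi / 3) = x * (Real.pi / 3) + Real.pi := by ring
  rw [e]
  apply Complex.ext
  · rw [cis_re, Complex.neg_re, cis_re, Real.cos_add_pi]
  · rw [cis_im, Complex.neg_im, cis_im, Real.sin_add_pi]

theorem Kd.snb {z : κ → ℂ} {φ u : ℝ} (hu : u ∈ Ioo (0 : ℝ) 1) {s s' : κ × Fin 6} {m : Fin 3}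
    (H : Kd z φ s s' m) : SNb z φ u s s' (dp u s.2 m) := by
  obtain ⟨h1, h2⟩ := hu
  fin_cases m
  · exact Or.inl ⟨H.1, H.2, rfl⟩
  · exact Or.inr (Or.inl ⟨H.1, H.2, rfl⟩)
  · refine Or.inr (Or.inr ⟨H.1, ?_⟩)
    obtain ⟨-, H2⟩ := H
    obtain ⟨c, j⟩ := s
    have c3 := cis_three_add φ
    have c6 : cis ((φ + 6) * (Real.pi / 3)) = cis (φ * (Real.pi / 3)) := by
      have := cis_three_add (φ + 3)
      rw [show φ + 3 + 3 = φ + 6 by ring, c3, neg_neg] at this
      exact this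
    have main : 0 < dp u j 2 ∧ dp u j 2 < 3 ∧
        (cis ((φ + u + (j.val : ℝ) + dp u j 2) * (Real.pi / 3)) = cis (φ * (Real.pi / 3)) ∨
          cis ((φ + u + (j.val : ℝ) + dp u j 2) * (Real.pi / 3)) = -cis (φ * (Real.pi / 3))) := by
      fin_cases j
      · refine ⟨by simp [dp] <;> linarith, by simp [dp] <;> linarith, Or.inr ?_⟩
        rw [← c3]; congr 2; simp [dp] <;> ring
      · refine ⟨by simp [dp] <;> linarith, by simp [dp] <;> linarith, Or.inr ?_⟩
        rw [← c3]; congr 2; simp [dp] <;> ring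
      · refine ⟨by simp [dp] <;> linarith, by simp [dp] <;> linarith, Or.inr ?_⟩
        rw [← c3]; congr 2; simp [dp] <;> ring
      · refine ⟨by simp [dp] <;> linarith, by simp [dp] <;> linarith, Or.inl ?_⟩
        rw [← c6]; congr 2; simp [dp] <;> ring
      · refine ⟨by simp [dp] <;> linarith, by simp [dp] <;> linarith, Or.inl ?_⟩
        rw [← c6]; congr 2; simp [dp] <;> ring
      · refine ⟨by simp [dp] <;> linarith, by simp [dp] <;> linarith, Or.inl ?_⟩
        rw [← c6]; congr 2; simp [dp] <;> ring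
    refine ⟨main.1, main.2.1, ?_⟩
    show z s'.1 = z c + cis ((φ + u + (j.val : ℝ) + dp u j 2) * (Real.pi / 3)) ∨
      z s'.1 = z c - cis ((φ + u + (j.val : ℝ) + dp u j 2) * (Real.pi / 3))
    rcases main.2.2 with k | k <;> rcases H2 with k' | k'
    · left; rw [k]; exact k'
    · right; rw [k]; exact k'
    · right; rw [k, sub_neg_eq_add]; exact k'
    · left; rw [k, ← sub_eq_add_neg]; exact k'

/-- **the side rule with ranks** (time in `(0, 1)`, base angle = direction of the other centres) -/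
theorem src_rk (h : Irr U T) {z : κ → ℂ} {φ u : ℝ} (hu : u ∈ Ioo (0 : ℝ) 1)
    {lt : κ → Set (Fin 6) → Λ} {W : κ → Λ → Set (Fin 6)}
    (sub : ∀ c w, w ∈ Lc T (z c) → W c (lt c (T (pt (z c) w))) ⊆ T (pt (z c) w))
    {a b : κ × Fin 6 → Λ} (ha : a ∈ LC (Xl T z φ lt) u) (hb : b ∈ RC (Xl T z φ lt) u)
    {s k n : κ × Fin 6} {mk mn : Fin 3} (Hk : Kd z φ s k mk) (Hn : Kd z φ s n mn)
    {p q g : Fin 6} (hT : T (pt (z s.1) (φ + u + (s.2.val : ℝ))) ⊆ {p, q, g})
    (hp : p ∈ W k.1 (b k)) (hq : q ∈ W n.1 (a n)) :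
    (rk s.2 mn < rk s.2 mk →
        ∃ᶠ y in 𝓝 (pt (z s.1) (φ + u + (s.2.val : ℝ))), y ∈ U g ∧ dist y (z s.1) < 1) ∧
      (rk s.2 mk < rk s.2 mn →
        ∃ᶠ y in 𝓝 (pt (z s.1) (φ + u + (s.2.val : ℝ))), y ∈ U g ∧ 1 < dist y (z s.1)) := by
  obtain ⟨h1, h2⟩ := src_col h sub ha hb (Hk.snb hu) (Hn.snb hu) hT hp hq
  exact ⟨fun hlt => h1 (dp_lt hu hlt), fun hlt => h2 (dp_lt hu hlt)⟩

end Vale.Agent.P032.H383
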