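import Vale.Agent.P032.H383.Src

/-!
# P032: the side rule at a two-pair point

`z = D(g b | c d)`: the third colour `g` of a point of `S(z)` where a simultaneous change takes place is
the inner colour (`Sd U z x g b`) if `dn < dh`, the outer colour if `dh < dn`.
-/

open Set Filter Topology Metric

noncomputable section

namespace Vale.Agent.P032.H383

open Vale.Agent.P032.Six Vale.Agent.P032.S5.H767 Vale.Agent.P032.S5.H122 Vale.Agent.P032.Sweep
  Vale.Agent.P032.H780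

variable {U : Fin 6 → Set ℂ} {T : ℂ → Set (Fin 6)} {κ Λ : Type}

/-- a colour which accumulates inside is the inner colour -/
theorem sd_of_in (h : Irr U T) {z x : ℂ} {g b c d : Fin 6} (hz : DPt T z g b c d)
    (hx : dist x z = 1) (hin : ∃ᶠ y in 𝓝 x, y ∈ U g ∧ dist y z < 1) : Sd U z x g b := by
  rcases h.sides hz hx with h1 | h1
  · exact h1
  · obtain ⟨y, ⟨h2, h3⟩, h4⟩ := (hin.and_eventually h1).exists
    exact absurd (subset_closure h2) (h4.2 h3)

/-- a colour which accumulates outside is the outer colour -/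
theorem sd_of_out (h : Irr U T) {z x : ℂ} {g b c d : Fin 6} (hz : DPt T z g b c d)
    (hx : dist x z = 1) (hout : ∃ᶠ y in 𝓝 x, y ∈ U g ∧ 1 < dist y z) : Sd U z x b g := by
  rcases h.sides hz hx with h1 | h1
  · obtain ⟨y, ⟨h2, h3⟩, h4⟩ := (hout.and_eventually h1).exists
    exact absurd (subset_closure h2) (h4.1 h3)
  · exact h1

/-- **the side rule at a two-pair point** -/
theorem src_sd (h : Irr U T) {z ch cn : ℂ} {s th tn dh dn : ℝ} {p q g b c d : Fin 6}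
    (hz : DPt T z g b c d)
    (Hh : Nb z s ch th dh) (Hn : Nb z s cn tn dn) (hT : T (pt z s) ⊆ {p, q, g})
    (hp : ∃ᶠ w in 𝓝[>] th, w ∈ Lc T ch ∧ p ∈ T (pt ch w))
    (hq : ∃ᶠ w in 𝓝[<] tn, w ∈ Lc T cn ∧ q ∈ T (pt cn w)) :
    (dn < dh → Sd U z (pt z s) g b) ∧ (dh < dn → Sd U z (pt z s) b g) := by
  obtain ⟨h1, h2⟩ := src h Hh Hn hT hp hq
  exact ⟨fun hlt => sd_of_in h hz (dist_pt z s) (h1 hlt),
    fun hlt => sd_of_out h hz (dist_pt z s) (h2 hlt)⟩

/-- column form with ranks -/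
theorem src_rk_sd (h : Irr U T) {z : κ → ℂ} {φ u : ℝ} (hu : u ∈ Ioo (0 : ℝ) 1)
    {lt : κ → Set (Fin 6) → Λ} {W : κ → Λ → Set (Fin 6)}
    (sub : ∀ c w, w ∈ Lc T (z c) → W c (lt c (T (pt (z c) w))) ⊆ T (pt (z c) w))
    {a a' : κ × Fin 6 → Λ} (ha : a ∈ LC (Xl T z φ lt) u) (ha' : a' ∈ RC (Xl T z φ lt) u)
    {s k n : κ × Fin 6} {mk mn : Fin 3} (Hk : Kd z φ s k mk) (Hn : Kd z φ s n mn)
    {p q g b c d : Fin 6} (hz : DPt T (z s.1) g b c d)
    (hT : T (pt (z s.1) (φ + u + (s.2.val : ℝ))) ⊆ {p, q, g})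
    (hp : p ∈ W k.1 (a' k)) (hq : q ∈ W n.1 (a n)) :
    (rk s.2 mn < rk s.2 mk → Sd U (z s.1) (pt (z s.1) (φ + u + (s.2.val : ℝ))) g b) ∧
      (rk s.2 mk < rk s.2 mn → Sd U (z s.1) (pt (z s.1) (φ + u + (s.2.val : ℝ))) b g) := by
  obtain ⟨h1, h2⟩ := src_rk h hu sub ha ha' Hk Hn hT hp hq
  exact ⟨fun hlt => sd_of_in h hz (dist_pt _ _) (h1 hlt),
    fun hlt => sd_of_out h hz (dist_pt _ _) (h2 hlt)⟩

/-- **conveyors are directed**: the same simultaneous change in both directions of time is impossible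
if the third colour is a colour of the two-pair point `z`: `p` new at the neighbour `ch`, `q` old at
`cn`, and at another point `x'` of `S(z)` with the same side, the reverse change -/
theorem src_directed (h : Irr U T) {z ch cn ch' cn' : ℂ} {s s' th tn dh dn th' tn' dh' dn' : ℝ}
    {p q p' q' g b c d : Fin 6} (hz : DPt T z g b c d)
    (Hh : Nb z s ch th dh) (Hn : Nb z s cn tn dn) (hT : T (pt z s) ⊆ {p, q, g})
    (hp : ∃ᶠ w in 𝓝[>] th, w ∈ Lc T ch ∧ p ∈ T (pt ch w))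
    (hq : ∃ᶠ w in 𝓝[<] tn, w ∈ Lc T cn ∧ q ∈ T (pt cn w))
    (Hh' : Nb z s' ch' th' dh') (Hn' : Nb z s' cn' tn' dn') (hT' : T (pt z s') ⊆ {p', q', g})
    (hp' : ∃ᶠ w in 𝓝[>] th', w ∈ Lc T ch' ∧ p' ∈ T (pt ch' w))
    (hq' : ∃ᶠ w in 𝓝[<] tn', w ∈ Lc T cn' ∧ q' ∈ T (pt cn' w))
    (hss : s' = s) (h1 : dn < dh) (h2 : dh' < dn') (hg : g ∈ T (pt z s)) : False := by
  have k1 := (src_sd h hz Hh Hn hT hp hq).1 h1
  have k2 := (src_sd h hz Hh' Hn' hT' hp' hq').2 h2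
  rw [hss] at k2
  exact h.sd_unique hg k1 k2

end Vale.Agent.P032.H383
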