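import Mathlib.Topology.Connected.PathConnected
import Mathlib.Topology.LocallyConstant.Basic
import Mathlib.Topology.Order.DenselyOrdered
import Mathlib.Topology.Instances.Real.Lemmas
import Mathlib.Logic.Relation
import Mathlib.Data.Finset.Sort

/-!
# P032: the sweep theorem for several circles

Slots `ι`, letters `Λ` (both finite); `X i l` is the closed set of the times at which the letter `l`
is available at the slot `i`.  At a generic time every slot has exactly one letter.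

* `Av X u h`: the column `h` is available at the time `u`;
* `Gn X`: the generic times;
* `LC X u`, `RC X u`: the columns of generic times arbitrarily close to `u` on the left / right;
* `Sw X Leg`: the hypotheses;
* `Sw.sweep`: a transitive relation which holds between any two limit columns at every time of
  `(a, b)` holds between the limit columns at `a` from the right and at `b` from the left;
* `Sw.turn`: the same for one period, with the shift of the slots;
* `Sw.sweep_list`, `Sw.turn_list`: finitely many special times with their own relations;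
* `reach_of_av`: disjoint palettes.
-/

open Set Filter Topology

namespace Vale.Agent.P032.Sweep

variable {ι Λ : Type*}

/-- the column `h` is available at the time `u` -/
def Av (X : ι → Λ → Set ℝ) (u : ℝ) (h : ι → Λ) : Prop := ∀ i, u ∈ X i (h i)

/-- the generic times -/
def Gn (X : ι → Λ → Set ℝ) : Set ℝ := {u | ∀ i l m, u ∈ X i l → u ∈ X i m → l = m}

/-- the limit columns from the left -/
def LC (X : ι → Λ → Set ℝ) (u : ℝ) : Set (ι → Λ) := {h | ∃ᶠ v in 𝓝[<] u, v ∈ Gn X ∧ Av X v h}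

/-- the limit columns from the right -/
def RC (X : ι → Λ → Set ℝ) (u : ℝ) : Set (ι → Λ) := {h | ∃ᶠ v in 𝓝[>] u, v ∈ Gn X ∧ Av X v h}

/-- the hypotheses of the sweep theorem -/
structure Sw (X : ι → Λ → Set ℝ) (Leg : (ι → Λ) → Prop) : Prop where
  closed : ∀ i l, IsClosed (X i l)
  cover : ∀ i u, ∃ l, u ∈ X i l
  gen : ∀ i, Dense {u : ℝ | ∀ l m, u ∈ X i l → u ∈ X i m → l = m}
  leg : ∀ u ∈ Gn X, ∀ h, Av X u h → Leg h

namespace Sw

variable {X : ι → Λ → Set ℝ} {Leg : (ι → Λ) → Prop}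

/-- only available letters nearby -/
theorem near [Finite ι] [Finite Λ] (w : Sw X Leg) (u : ℝ) :
    ∀ᶠ v in 𝓝 u, ∀ i l, v ∈ X i l → u ∈ X i l := by
  rw [eventually_all]
  intro i
  rw [eventually_all]
  intro l
  by_cases h : u ∈ X i l
  · exact Eventually.of_forall fun v _ => h
  · filter_upwards [(w.closed i l).isOpen_compl.mem_nhds h] with v hv hv'
    exact absurd hv' hv

theorem exists_av (w : Sw X Leg) (u : ℝ) : ∃ h, Av X u h := by
  choose h hh using fun i => w.cover i u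
  exact ⟨h, hh⟩

theorem near_slot [Finite Λ] (w : Sw X Leg) (i : ι) (u : ℝ) :
    ∀ᶠ v in 𝓝 u, ∀ l, v ∈ X i l → u ∈ X i l := by
  rw [eventually_all]
  intro l
  by_cases h : u ∈ X i l
  · exact Eventually.of_forall fun v _ => h
  · filter_upwards [(w.closed i l).isOpen_compl.mem_nhds h] with v hv hv'
    exact absurd hv' hv

theorem isOpen_single [Finite Λ] (w : Sw X Leg) (i : ι) :
    IsOpen {u : ℝ | ∀ l m, u ∈ X i l → u ∈ X i m → l = m} := by
  rw [isOpen_iff_mem_nhds]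
  intro u hu
  filter_upwards [w.near_slot i u] with v hv l m h1 h2
  exact hu l m (hv l h1) (hv m h2)

theorem dense_Gn [Finite ι] [Finite Λ] (w : Sw X Leg) : Dense (Gn X) := by
  classical
  have := Fintype.ofFinite ι
  have h1 : ∀ s : Finset ι,
      IsOpen {u : ℝ | ∀ i ∈ s, ∀ l m, u ∈ X i l → u ∈ X i m → l = m} ∧
      Dense {u : ℝ | ∀ i ∈ s, ∀ l m, u ∈ X i l → u ∈ X i m → l = m} := by
    intro s
    induction s using Finset.induction_on with
    | empty =>
      have e : {u : ℝ | ∀ i ∈ (∅ : Finset ι), ∀ l m, u ∈ X i l → u ∈ X i m → l = m} = univ := by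
        ext u; simp
      rw [e]
      exact ⟨isOpen_univ, dense_univ⟩
    | insert a s ha ih =>
      have e : {u : ℝ | ∀ i ∈ insert a s, ∀ l m, u ∈ X i l → u ∈ X i m → l = m} =
          {u : ℝ | ∀ l m, u ∈ X a l → u ∈ X a m → l = m} ∩
          {u : ℝ | ∀ i ∈ s, ∀ l m, u ∈ X i l → u ∈ X i m → l = m} := by
        ext u
        constructor
        · intro h
          exact ⟨h a (Finset.mem_insert_self a s), fun i hi => h i (Finset.mem_insert_of_mem hi)⟩
        · rintro ⟨h1, h2⟩ i hi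
          rcases Finset.mem_insert.1 hi with rfl | hi
          · exact h1
          · exact h2 i hi
      rw [e]
      exact ⟨(w.isOpen_single a).inter ih.1, (w.gen a).inter_of_isOpen_left ih.2
        (w.isOpen_single a)⟩
  have h2 := (h1 Finset.univ).2
  refine h2.mono ?_
  intro u hu i
  exact hu i (Finset.mem_univ i)

theorem frequently_left [Finite ι] [Finite Λ] (w : Sw X Leg) (u : ℝ) :
    ∃ᶠ v in 𝓝[<] u, v ∈ Gn X := by
  rw [frequently_iff]
  intro V hV
  obtain ⟨a, ha, hsub⟩ := (mem_nhdsLT_iff_exists_Ioo_subset).1 hV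
  obtain ⟨v, hv, hv2⟩ := w.dense_Gn.exists_mem_open isOpen_Ioo (nonempty_Ioo.2 ha)
  exact ⟨v, hsub hv2, hv⟩

theorem frequently_right [Finite ι] [Finite Λ] (w : Sw X Leg) (u : ℝ) :
    ∃ᶠ v in 𝓝[>] u, v ∈ Gn X := by
  rw [frequently_iff]
  intro V hV
  obtain ⟨a, ha, hsub⟩ := (mem_nhdsGT_iff_exists_Ioo_subset).1 hV
  obtain ⟨v, hv, hv2⟩ := w.dense_Gn.exists_mem_open isOpen_Ioo (nonempty_Ioo.2 ha)
  exact ⟨v, hsub hv2, hv⟩

theorem near_left [Finite ι] [Finite Λ] (u : ℝ) :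
    ∀ᶠ v in 𝓝[<] u, v ∈ Gn X → ∀ h, Av X v h → h ∈ LC X u := by
  have h1 : ∀ h : ι → Λ, ∀ᶠ v in 𝓝[<] u, v ∈ Gn X → Av X v h → h ∈ LC X u := by
    intro h
    by_cases hh : h ∈ LC X u
    · exact Eventually.of_forall fun v _ _ => hh
    · have h2 : ∀ᶠ v in 𝓝[<] u, ¬ (v ∈ Gn X ∧ Av X v h) := not_frequently.1 hh
      filter_upwards [h2] with v hv h3 h4
      exact absurd ⟨h3, h4⟩ hv
  filter_upwards [eventually_all.2 h1] with v hv h3 h h4
  exact hv h h3 h4

theorem near_right [Finite ι] [Finite Λ] (u : ℝ) :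
    ∀ᶠ v in 𝓝[>] u, v ∈ Gn X → ∀ h, Av X v h → h ∈ RC X u := by
  have h1 : ∀ h : ι → Λ, ∀ᶠ v in 𝓝[>] u, v ∈ Gn X → Av X v h → h ∈ RC X u := by
    intro h
    by_cases hh : h ∈ RC X u
    · exact Eventually.of_forall fun v _ _ => hh
    · have h2 : ∀ᶠ v in 𝓝[>] u, ¬ (v ∈ Gn X ∧ Av X v h) := not_frequently.1 hh
      filter_upwards [h2] with v hv h3 h4
      exact absurd ⟨h3, h4⟩ hv
  filter_upwards [eventually_all.2 h1] with v hv h3 h h4
  exact hv h h3 h4

theorem LC_ne [Finite ι] [Finite Λ] (w : Sw X Leg) (u : ℝ) : (LC X u).Nonempty := by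
  obtain ⟨v, hv, h1⟩ := ((w.frequently_left u).and_eventually (near_left (X := X) u)).exists
  obtain ⟨h, hh⟩ := w.exists_av v
  exact ⟨h, h1 hv h hh⟩

theorem RC_ne [Finite ι] [Finite Λ] (w : Sw X Leg) (u : ℝ) : (RC X u).Nonempty := by
  obtain ⟨v, hv, h1⟩ := ((w.frequently_right u).and_eventually (near_right (X := X) u)).exists
  obtain ⟨h, hh⟩ := w.exists_av v
  exact ⟨h, h1 hv h hh⟩

theorem av_of_LC [Finite ι] [Finite Λ] (w : Sw X Leg) {u : ℝ} {h : ι → Λ} (hh : h ∈ LC X u) :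
    Av X u h := by
  obtain ⟨v, hv, h1⟩ := (Frequently.and_eventually hh (mem_nhdsWithin_of_mem_nhds
    (w.near u))).exists
  exact fun i => h1 i _ (hv.2 i)

theorem av_of_RC [Finite ι] [Finite Λ] (w : Sw X Leg) {u : ℝ} {h : ι → Λ} (hh : h ∈ RC X u) :
    Av X u h := by
  obtain ⟨v, hv, h1⟩ := (Frequently.and_eventually hh (mem_nhdsWithin_of_mem_nhds
    (w.near u))).exists
  exact fun i => h1 i _ (hv.2 i)

theorem leg_of_LC (w : Sw X Leg) {u : ℝ} {h : ι → Λ} (hh : h ∈ LC X u) : Leg h := by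
  obtain ⟨v, hv, h1⟩ := Frequently.exists hh
  exact w.leg v hv h h1

theorem leg_of_RC (w : Sw X Leg) {u : ℝ} {h : ι → Λ} (hh : h ∈ RC X u) : Leg h := by
  obtain ⟨v, hv, h1⟩ := Frequently.exists hh
  exact w.leg v hv h h1

/-- the column of a generic time is a limit column -/
theorem self_LC [Finite ι] [Finite Λ] (w : Sw X Leg) {u : ℝ} (hu : u ∈ Gn X) {h : ι → Λ}
    (hh : Av X u h) : h ∈ LC X u := by
  refine (w.frequently_left u).mp ?_
  filter_upwards [mem_nhdsWithin_of_mem_nhds (w.near u)] with v h1 h2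
  refine ⟨h2, fun i => ?_⟩
  obtain ⟨l, hl⟩ := w.cover i v
  rwa [hu i (h i) l (hh i) (h1 i l hl)]

theorem self_RC [Finite ι] [Finite Λ] (w : Sw X Leg) {u : ℝ} (hu : u ∈ Gn X) {h : ι → Λ}
    (hh : Av X u h) : h ∈ RC X u := by
  refine (w.frequently_right u).mp ?_
  filter_upwards [mem_nhdsWithin_of_mem_nhds (w.near u)] with v h1 h2
  refine ⟨h2, fun i => ?_⟩
  obtain ⟨l, hl⟩ := w.cover i v
  rwa [hu i (h i) l (hh i) (h1 i l hl)]

/-- limit columns on the left -/
theorem sub_left [Finite ι] [Finite Λ] (u : ℝ) :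
    ∀ᶠ v in 𝓝[<] u, LC X v ∪ RC X v ⊆ LC X u := by
  obtain ⟨c, hc, hsub⟩ := (mem_nhdsLT_iff_exists_Ioo_subset).1 (near_left (X := X) u)
  have hc : c < u := hc
  filter_upwards [Ioo_mem_nhdsLT hc] with v hv
  rintro h (hh | hh)
  · obtain ⟨t, ht, h1⟩ := (Frequently.and_eventually hh (Ioo_mem_nhdsLT hv.1)).exists
    exact hsub ⟨h1.1, h1.2.trans hv.2⟩ ht.1 h ht.2
  · obtain ⟨t, ht, h1⟩ := (Frequently.and_eventually hh (Ioo_mem_nhdsGT hv.2)).exists
    exact hsub ⟨hv.1.trans h1.1, h1.2⟩ ht.1 h ht.2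

/-- limit columns on the right -/
theorem sub_right [Finite ι] [Finite Λ] (u : ℝ) :
    ∀ᶠ v in 𝓝[>] u, LC X v ∪ RC X v ⊆ RC X u := by
  obtain ⟨c, hc, hsub⟩ := (mem_nhdsGT_iff_exists_Ioo_subset).1 (near_right (X := X) u)
  have hc : u < c := hc
  filter_upwards [Ioo_mem_nhdsGT hc] with v hv
  rintro h (hh | hh)
  · obtain ⟨t, ht, h1⟩ := (Frequently.and_eventually hh (Ioo_mem_nhdsLT hv.1)).exists
    exact hsub ⟨h1.1, h1.2.trans hv.2⟩ ht.1 h ht.2
  · obtain ⟨t, ht, h1⟩ := (Frequently.and_eventually hh (Ioo_mem_nhdsGT hv.2)).exists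
    exact hsub ⟨hv.1.trans h1.1, h1.2⟩ ht.1 h ht.2

/-- **The sweep theorem.** -/
theorem sweep [Finite ι] [Finite Λ] (w : Sw X Leg) {R : (ι → Λ) → (ι → Λ) → Prop}
    (tr : ∀ h h' h'', R h h' → R h' h'' → R h h'') {a b : ℝ} (hab : a < b)
    (loc : ∀ u ∈ Ioo a b, ∀ h ∈ LC X u ∪ RC X u, ∀ h' ∈ LC X u ∪ RC X u, R h h') :
    ∀ h ∈ RC X a, ∀ h' ∈ LC X b, R h h' := by
  intro h0 hh0 h' hh'
  obtain ⟨p, hp, hpI⟩ := (Frequently.and_eventually hh0 (Ioo_mem_nhdsGT hab)).exists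
  obtain ⟨q, hq, hqI⟩ := (Frequently.and_eventually hh' (Ioo_mem_nhdsLT hab)).exists
  let f : Ioo a b → Prop := fun u => ∀ h ∈ LC X u ∪ RC X u, R h0 h
  have key : ∀ u ∈ Ioo a b, ∀ v ∈ Ioo a b, LC X v ∪ RC X v ⊆ LC X u ∪ RC X u →
      ((∀ h ∈ LC X v ∪ RC X v, R h0 h) ↔ ∀ h ∈ LC X u ∪ RC X u, R h0 h) := by
    intro u hu v hv hsub
    constructor
    · intro h1 h hh
      obtain ⟨g, hg⟩ := w.LC_ne v
      exact tr _ _ _ (h1 g (Or.inl hg)) (loc u hu g (hsub (Or.inl hg)) h hh)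
    · exact fun h1 h hh => h1 h (hsub hh)
  have hf : IsLocallyConstant f := by
    rw [IsLocallyConstant.iff_eventually_eq]
    intro u
    have h1 : ∀ᶠ v in 𝓝 (u : ℝ), v ∈ Ioo a b →
        ((∀ h ∈ LC X v ∪ RC X v, R h0 h) ↔ ∀ h ∈ LC X (u : ℝ) ∪ RC X (u : ℝ), R h0 h) := by
      have hl := (sub_left (X := X) (u : ℝ))
      have hr := (sub_right (X := X) (u : ℝ))
      rw [eventually_nhdsWithin_iff] at hl hr
      filter_upwards [hl, hr] with v h2 h3 hv
      rcases lt_trichotomy v (u : ℝ) with h4 | h4 | h4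
      · exact key u u.2 v hv ((h2 h4).trans subset_union_left)
      · rw [h4]
      · exact key u u.2 v hv ((h3 h4).trans subset_union_right)
    filter_upwards [continuous_subtype_val.continuousAt.eventually h1] with v hv
    exact propext (hv v.2)
  have : PreconnectedSpace (Ioo a b) := isPreconnected_iff_preconnectedSpace.1 isPreconnected_Ioo
  have h1 := hf.apply_eq_of_preconnectedSpace ⟨p, hpI⟩ ⟨q, hqI⟩
  have h2 : f ⟨p, hpI⟩ := fun h hh => loc p hpI h0 (Or.inl (w.self_LC hp.1 hp.2)) h hh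
  rw [h1] at h2
  exact h2 h' (Or.inl (w.self_LC hq.1 hq.2))

/-- the cheap form: all legal columns which are available -/
theorem sweep_av [Finite ι] [Finite Λ] (w : Sw X Leg) {R : (ι → Λ) → (ι → Λ) → Prop}
    (tr : ∀ h h' h'', R h h' → R h' h'' → R h h'') {a b : ℝ} (hab : a < b)
    (loc : ∀ u ∈ Ioo a b, ∀ h h', Av X u h → Av X u h' → Leg h → Leg h' → R h h') :
    ∀ h ∈ RC X a, ∀ h' ∈ LC X b, R h h' := by
  refine w.sweep tr hab fun u hu h hh h' hh' => loc u hu h h' ?_ ?_ ?_ ?_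
  · exact hh.elim w.av_of_LC w.av_of_RC
  · exact hh'.elim w.av_of_LC w.av_of_RC
  · exact hh.elim w.leg_of_LC w.leg_of_RC
  · exact hh'.elim w.leg_of_LC w.leg_of_RC

end Sw

/-! ### Special times -/

/-- composition of `R` with the relations `E s`, `s` in the list -/
def Cmp (R : (ι → Λ) → (ι → Λ) → Prop) (E : ℝ → (ι → Λ) → (ι → Λ) → Prop) :
    List ℝ → (ι → Λ) → (ι → Λ) → Prop
  | [], h, h' => R h h'
  | s :: l, h, h' => ∃ g g', R h g ∧ E s g g' ∧ Cmp R E l g' h'

namespace Sw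

variable {X : ι → Λ → Set ℝ} {Leg : (ι → Λ) → Prop}

/-- sweep with a sorted list of special times -/
theorem sweep_list [Finite ι] [Finite Λ] (w : Sw X Leg) {R : (ι → Λ) → (ι → Λ) → Prop}
    (tr : ∀ h h' h'', R h h' → R h' h'' → R h h'') {E : ℝ → (ι → Λ) → (ι → Λ) → Prop} {b : ℝ} :
    ∀ (l : List ℝ) (a : ℝ), a < b → l.Pairwise (· < ·) → (∀ s ∈ l, s ∈ Ioo a b) →
    (∀ s ∈ l, ∀ h ∈ LC X s, ∀ h' ∈ RC X s, E s h h') →
    (∀ u ∈ Ioo a b, u ∉ l → ∀ h ∈ LC X u ∪ RC X u, ∀ h' ∈ LC X u ∪ RC X u, R h h') →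
    ∀ h ∈ RC X a, ∀ h' ∈ LC X b, Cmp R E l h h' := by
  intro l
  induction l with
  | nil =>
    intro a hab _ _ _ loc h hh h' hh'
    exact w.sweep tr hab (fun u hu => loc u hu (List.not_mem_nil)) h hh h' hh'
  | cons s l ih =>
    intro a hab hs hI hE loc h hh h' hh'
    have hsI := hI s (List.mem_cons_self)
    have hs2 := List.pairwise_cons.1 hs
    obtain ⟨g, hg⟩ := w.LC_ne s
    obtain ⟨g', hg'⟩ := w.RC_ne s
    refine ⟨g, g', ?_, hE s List.mem_cons_self g hg g' hg', ?_⟩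
    · refine w.sweep tr hsI.1 (fun u hu => loc u ⟨hu.1, hu.2.trans hsI.2⟩ ?_) h hh g hg
      intro hmem
      rcases List.mem_cons.1 hmem with h1 | h1
      · exact absurd hu.2 (by rw [h1]; exact lt_irrefl _)
      · exact absurd (hs2.1 u h1) (not_lt.2 hu.2.le)
    · refine ih s hsI.2 hs2.2 (fun t ht => ⟨hs2.1 t ht, (hI t (List.mem_cons_of_mem _ ht)).2⟩)
        (fun t ht => hE t (List.mem_cons_of_mem _ ht)) (fun u hu hnot => ?_) g' hg' h' hh'
      refine loc u ⟨hsI.1.trans hu.1, hu.2⟩ ?_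
      intro hmem
      rcases List.mem_cons.1 hmem with h1 | h1
      · exact absurd hu.1 (by rw [h1]; exact lt_irrefl _)
      · exact hnot h1

/-- sweep with a finite set of special times -/
theorem sweep_finset [Finite ι] [Finite Λ] (w : Sw X Leg) {R : (ι → Λ) → (ι → Λ) → Prop}
    (tr : ∀ h h' h'', R h h' → R h' h'' → R h h'') {E : ℝ → (ι → Λ) → (ι → Λ) → Prop} {a b : ℝ}
    (hab : a < b) (S : Finset ℝ) (hI : ∀ s ∈ S, s ∈ Ioo a b)
    (hE : ∀ s ∈ S, ∀ h ∈ LC X s, ∀ h' ∈ RC X s, E s h h')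
    (loc : ∀ u ∈ Ioo a b, u ∉ S → ∀ h ∈ LC X u ∪ RC X u, ∀ h' ∈ LC X u ∪ RC X u, R h h') :
    ∀ h ∈ RC X a, ∀ h' ∈ LC X b, Cmp R E (S.sort (· ≤ ·)) h h' := by
  refine w.sweep_list tr _ a hab ?_ (fun s hs => hI s ((Finset.mem_sort _).1 hs))
    (fun s hs => hE s ((Finset.mem_sort _).1 hs))
    (fun u hu hnot => loc u hu fun h => hnot ((Finset.mem_sort _).2 h))
  exact (Finset.sortedLT_sort S).pairwise

end Sw

/-! ### Periodicity -/

section per

variable {X : ι → Λ → Set ℝ} {Leg : (ι → Λ) → Prop}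

theorem av_shift {σ : Equiv.Perm ι} (per : ∀ i l u, u + 1 ∈ X i l ↔ u ∈ X (σ i) l) (u : ℝ)
    (h : ι → Λ) : Av X (u + 1) (h ∘ σ) ↔ Av X u h := by
  constructor
  · intro hh i
    have := (per (σ.symm i) _ u).1 (hh (σ.symm i))
    simpa using this
  · intro hh i
    exact (per i _ u).2 (hh (σ i))

theorem gn_shift {σ : Equiv.Perm ι} (per : ∀ i l u, u + 1 ∈ X i l ↔ u ∈ X (σ i) l) (u : ℝ) :
    u + 1 ∈ Gn X ↔ u ∈ Gn X := by
  constructor
  · intro hh i l m h1 h2
    refine hh (σ.symm i) l m ((per _ _ _).2 ?_) ((per _ _ _).2 ?_)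
    · simpa using h1
    · simpa using h2
  · intro hh i l m h1 h2
    exact hh (σ i) l m ((per _ _ _).1 h1) ((per _ _ _).1 h2)

theorem tendsto_shift_left (u : ℝ) : Tendsto (fun v : ℝ => v + 1) (𝓝[<] u) (𝓝[<] (u + 1)) := by
  refine tendsto_nhdsWithin_iff.2 ⟨?_, ?_⟩
  · exact ((continuous_id.add continuous_const).tendsto u).mono_left nhdsWithin_le_nhds
  · filter_upwards [self_mem_nhdsWithin] with v hv
    have hv : v < u := hv
    show v + 1 < u + 1
    linarith

theorem tendsto_shift_right (u : ℝ) : Tendsto (fun v : ℝ => v + 1) (𝓝[>] u) (𝓝[>] (u + 1)) := by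
  refine tendsto_nhdsWithin_iff.2 ⟨?_, ?_⟩
  · exact ((continuous_id.add continuous_const).tendsto u).mono_left nhdsWithin_le_nhds
  · filter_upwards [self_mem_nhdsWithin] with v hv
    have hv : u < v := hv
    show u + 1 < v + 1
    linarith

/-- the limit columns after one period are the shifted limit columns -/
theorem LC_shift {σ : Equiv.Perm ι} (per : ∀ i l u, u + 1 ∈ X i l ↔ u ∈ X (σ i) l) {u : ℝ}
    {h : ι → Λ} (hh : h ∈ LC X u) : h ∘ σ ∈ LC X (u + 1) :=
  (tendsto_shift_left u).frequently (Frequently.mono hh fun v hv =>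
    ⟨(gn_shift per v).2 hv.1, (av_shift per v h).2 hv.2⟩)

theorem RC_shift {σ : Equiv.Perm ι} (per : ∀ i l u, u + 1 ∈ X i l ↔ u ∈ X (σ i) l) {u : ℝ}
    {h : ι → Λ} (hh : h ∈ RC X u) : h ∘ σ ∈ RC X (u + 1) :=
  (tendsto_shift_right u).frequently (Frequently.mono hh fun v hv =>
    ⟨(gn_shift per v).2 hv.1, (av_shift per v h).2 hv.2⟩)

/-- **one turn by 60 degrees**, special time `a` only -/
theorem Sw.turn [Finite ι] [Finite Λ] (w : Sw X Leg) {σ : Equiv.Perm ι}
    (per : ∀ i l u, u + 1 ∈ X i l ↔ u ∈ X (σ i) l) {R : (ι → Λ) → (ι → Λ) → Prop}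
    (tr : ∀ h h' h'', R h h' → R h' h'' → R h h'') (a : ℝ)
    (loc : ∀ u ∈ Ioo a (a + 1), ∀ h ∈ LC X u ∪ RC X u, ∀ h' ∈ LC X u ∪ RC X u, R h h') :
    ∀ h ∈ LC X a, ∀ h' ∈ RC X a, R h' (h ∘ σ) := fun h hh h' hh' =>
  w.sweep tr (by linarith) loc h' hh' (h ∘ σ) (LC_shift per hh)

/-- one turn by 60 degrees with further special times -/
theorem Sw.turn_finset [Finite ι] [Finite Λ] (w : Sw X Leg) {σ : Equiv.Perm ι}
    (per : ∀ i l u, u + 1 ∈ X i l ↔ u ∈ X (σ i) l) {R : (ι → Λ) → (ι → Λ) → Prop}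
    (tr : ∀ h h' h'', R h h' → R h' h'' → R h h'') {E : ℝ → (ι → Λ) → (ι → Λ) → Prop} (a : ℝ)
    (S : Finset ℝ) (hI : ∀ s ∈ S, s ∈ Ioo a (a + 1))
    (hE : ∀ s ∈ S, ∀ h ∈ LC X s, ∀ h' ∈ RC X s, E s h h')
    (loc : ∀ u ∈ Ioo a (a + 1), u ∉ S → ∀ h ∈ LC X u ∪ RC X u, ∀ h' ∈ LC X u ∪ RC X u, R h h') :
    ∀ h ∈ LC X a, ∀ h' ∈ RC X a, Cmp R E (S.sort (· ≤ ·)) h' (h ∘ σ) := fun h hh h' hh' =>
  w.sweep_finset tr (by linarith) S hI hE loc h' hh' (h ∘ σ) (LC_shift per hh)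

end per

/-! ### Local moves -/

/-- a legal update of one slot -/
def Upd (Leg : (ι → Λ) → Prop) (h h' : ι → Λ) : Prop :=
  Leg h ∧ Leg h' ∧ ∃ i, ∀ j, j ≠ i → h' j = h j

/-- if every available column is legal, then any two available columns are joined by legal updates
of one slot -/
theorem reach_of_av [Finite ι] {X : ι → Λ → Set ℝ} {Leg : (ι → Λ) → Prop} {u : ℝ}
    (H : ∀ h, Av X u h → Leg h) {h h' : ι → Λ} (hh : Av X u h) (hh' : Av X u h') :
    Relation.ReflTransGen (Upd Leg) h h' := by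
  classical
  have := Fintype.ofFinite ι
  have h1 : ∀ s : Finset ι, Av X u (fun i => if i ∈ s then h' i else h i) := by
    intro s i
    by_cases hi : i ∈ s
    · simp only [hi, if_true]; exact hh' i
    · simp only [hi, if_false]; exact hh i
  have h2 : ∀ s : Finset ι,
      Relation.ReflTransGen (Upd Leg) h (fun i => if i ∈ s then h' i else h i) := by
    intro s
    induction s using Finset.induction_on with
    | empty =>
      have e : (fun i => if i ∈ (∅ : Finset ι) then h' i else h i) = h := by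
        funext i; simp
      rw [e]
    | insert a s ha ih =>
      refine ih.tail ⟨H _ (h1 s), H _ (h1 (insert a s)), a, fun j hj => ?_⟩
      simp only [Finset.mem_insert, hj, false_or]
  have h3 := h2 Finset.univ
  have e : (fun i => if i ∈ (Finset.univ : Finset ι) then h' i else h i) = h' := by
    funext i; simp
  rwa [e] at h3

/-- the same with legality given by comparisons of pairs of slots: it is enough that all
available letters of two compared slots are compatible -/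
theorem reach_of_pairs [Finite ι] {X : ι → Λ → Set ℝ} {D : ι → ι → Λ → Λ → Prop} {u : ℝ}
    (H : ∀ i j l m, u ∈ X i l → u ∈ X j m → D i j l m) {h h' : ι → Λ} (hh : Av X u h)
    (hh' : Av X u h') :
    Relation.ReflTransGen (Upd fun g => ∀ i j, D i j (g i) (g j)) h h' :=
  reach_of_av (fun _ hg i j => H i j _ _ (hg i) (hg j)) hh hh'

end Vale.Agent.P032.Sweep
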